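import Vale.Agent.P025.R2.H628.Rad
import Vale.Agent.P025.R2.H492.Ext5
import Vale.Agent.P025.R2.H837.Gal

/-!
# G-MONO (5.3): the definition of RNS

`K` a function field over `C` with a structure `Algebra (RatFunc C) K`, `X ↦ T`; radius `c : Cˣ`;
`F1r C c` functions on `|T| ≤ ‖c‖`, `F2r C c` functions on `|T| > ‖c‖`.
-/

open TensorProduct

universe u v

namespace P025H450

open P025H373 P025H628 P025H544 P025H492 P025H837 Vale.Agent.P019P

/-- The class of covers: finite Galois, solvable, everywhere unramified, of degree dividing a power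
of `N`. -/
structure Cov (N : ℕ) (C K L : Type*) [Field C] [Field K] [Field L] [Algebra C K] [Algebra C L]
    [Algebra K L] [IsScalarTower C K L] : Prop where
  fin : FiniteDimensional K L
  gal : IsGalois K L
  sol : Group.IsSolvable (L ≃ₐ[K] L)
  deg : ∃ k, Module.finrank K L ∣ N ^ k
  unr : ∀ [CFF C K] [CFF C L], IsUnr C K L

section

variable (C : Type u) [NontriviallyNormedField C] [IsUltrametricDist C] [CompleteSpace C]
  [IsAlgClosed C] {K : Type v} [Field K] [Algebra C K] [Algebra (RatFunc C) K]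
  [IsScalarTower C (RatFunc C) K] [CFF C K]

/-- the place `P` lies on the component `d` of `|T| > ‖c‖` -/
def OnD (c : Cˣ) (P : Plk C K) (d : Pt (RatFunc C) (F2r C c) K) : Prop :=
  ∃ φ : F2r C c ⊗[RatFunc C] K →ₐ[C] LaurentSeries C, RingHom.ker φ = d.asIdeal ∧
    ∀ x : K, x ≠ 0 → (φ (1 ⊗ₜ x)).order = ord P x

/-- a cover `L / K` of the class `Cov N` and `β ∈ L`, which is an `l`-th power on `|T| ≤ ‖c‖`
but not over the component of `P` in `|T| > ‖c‖`. -/
def RNSat (N l : ℕ) (P : Plk C K) (c : Cˣ) : Prop :=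
  ∃ (L : Type v) (_ : Field L) (_ : Algebra C L) (_ : Algebra K L) (_ : Algebra (RatFunc C) L)
    (_ : IsScalarTower C K L) (_ : IsScalarTower C (RatFunc C) L)
    (_ : IsScalarTower (RatFunc C) K L) (_ : CFF C L), Cov N C K L ∧
    ∃ β : L, β ≠ 0 ∧ (∀ Q : Plk C L, (l : ℤ) ∣ ord Q β) ∧
      (∃ x : F1r C c ⊗[RatFunc C] L, x ^ l = 1 ⊗ₜ β) ∧
      ∃ d' : Pt (RatFunc C) (F2r C c) L,
        OnD C c P (ptMap (RatFunc C) (F2r C c) (IsScalarTower.toAlgHom (RatFunc C) K L) d') ∧
        NotPow l (RatFunc C) (F2r C c) β d'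

end

/-- **RNS**: for one function `t₀` on `K` with `P` as its only pole, and arbitrarily large radii -/
def RNS (N l : ℕ) (C : Type u) [NontriviallyNormedField C] [IsUltrametricDist C] [CompleteSpace C]
    [IsAlgClosed C] (K : Type v) [Field K] [Algebra C K] [CFF C K] (P : Plk C K) : Prop :=
  ∃ (_ : Algebra (RatFunc C) K) (_ : IsScalarTower C (RatFunc C) K),
    (∀ Q : Plk C K, ord Q (algebraMap (RatFunc C) K RatFunc.X) < 0 ↔ Q = P) ∧
    ∀ r : ℝ, ∃ c : Cˣ, r ≤ ‖(c : C)‖ ∧ RNSat C N l P c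

end P025H450
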