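import Vale.Agent.P025.R2.H450.Loc

/-! # The roots of the zoom polynomial are unramified; full cusps lift -/

open IntermediateField Polynomial

namespace P025H450

open P025H641 P025H440

universe u v w

/-- constant values of `τ`: the roots are constants -/
lemma root_mem_const {k : Type u} {K : Type v} [Field k] [CharZero k] [Field K] [CharZero K]
    [Algebra k K] {n : ℕ} (hn : 1 ≤ n) (c : ℚ) (y : AlgebraicClosure K)
    (hy : (zP n (c : AlgebraicClosure K)).eval y = 0) : y ∈ maxUnr k K := by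
  apply mem_maxUnr_of_const
  rw [zP_eval] at hy
  -- `y` is a root of a nonzero polynomial over `ℚ`
  have hne : zA n - C c * X ^ (2 * n - 1) ≠ 0 := by
    intro h
    have h1 := congrArg (eval 0) h
    rw [eval_sub, eval_mul, eval_pow, eval_X, zero_pow (by omega), mul_zero, sub_zero,
      eval_zero] at h1
    exact zA_zero n h1
  have h1 : aeval y ((zA n - C c * X ^ (2 * n - 1)).map (algebraMap ℚ k)) = 0 := by
    rw [aeval_def, eval₂_map]
    have h2 : (algebraMap k (AlgebraicClosure K)).comp (algebraMap ℚ k) =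
        algebraMap ℚ (AlgebraicClosure K) := RingHom.ext_rat _ _
    rw [h2, ← aeval_def, map_sub, map_mul, aeval_C, map_pow, aeval_X, eq_ratCast]
    exact hy
  have h3 : IsAlgebraic k y :=
    ⟨_, (Polynomial.map_ne_zero_iff (algebraMap ℚ k).injective).2 hne, h1⟩
  exact h3.isIntegral

/-- `τ` in the maximal unramified extension `M`, `τ - β` and `τ + β` are `m`-th powers in `M`,
`(n + 1) (2 n - 1) ∣ m`: all roots `y` of `Ψ(y) = τ` lie in `M`. -/
theorem root_mem {k : Type u} {K : Type v} [Field k] [CharZero k] [Field K] [CharZero K]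
    [Algebra k K] {n m : ℕ} (hn : 1 ≤ n) (hm : 0 < m) (hm1 : (n + 1) ∣ m) (hm2 : (2 * n - 1) ∣ m)
    (τ g₁ g₂ : maxUnr k K) (h₁ : g₁ ^ m = τ - (zβ n : ℚ)) (h₂ : g₂ ^ m = τ + (zβ n : ℚ))
    (y : AlgebraicClosure K) (hy : (zP n (τ : AlgebraicClosure K)).eval y = 0) :
    y ∈ maxUnr k K := by
  classical
  have _ := hm
  by_cases hne₁ : τ - ((zβ n : ℚ) : maxUnr k K) = 0
  · apply root_mem_const hn (zβ n) y
    have h3 : (τ : AlgebraicClosure K) = ((zβ n : ℚ) : AlgebraicClosure K) := by
      rw [sub_eq_zero.1 hne₁]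
      exact map_ratCast (algebraMap (maxUnr k K) (AlgebraicClosure K)) _
    rw [← h3]
    exact hy
  by_cases hne₂ : τ + ((zβ n : ℚ) : maxUnr k K) = 0
  · apply root_mem_const hn (-zβ n) y
    have h3 : (τ : AlgebraicClosure K) = ((-zβ n : ℚ) : AlgebraicClosure K) := by
      rw [eq_neg_of_add_eq_zero_left hne₂, Rat.cast_neg]
      exact congrArg Neg.neg (map_ratCast (algebraMap (maxUnr k K) (AlgebraicClosure K)) _)
    rw [← h3]
    exact hy
  obtain ⟨F, hF, hS⟩ := exists_finUnr_subset
    ({(τ : AlgebraicClosure K), (g₁ : AlgebraicClosure K), (g₂ : AlgebraicClosure K)} :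
      Finset (AlgebraicClosure K)) (by
        intro x hx
        simp only [Finset.mem_insert, Finset.mem_singleton] at hx
        rcases hx with rfl | rfl | rfl
        · exact τ.2
        · exact g₁.2
        · exact g₂.2)
  have hτF : (τ : AlgebraicClosure K) ∈ F := hS _ (by simp)
  have hg₁F : (g₁ : AlgebraicClosure K) ∈ F := hS _ (by simp)
  have hg₂F : (g₂ : AlgebraicClosure K) ∈ F := hS _ (by simp)
  have hcF : CharZero F := charZero_of_injective_algebraMap (algebraMap K F).injective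
  have hcast : ∀ q : ℚ, ((q : maxUnr k K) : AlgebraicClosure K) = (q : AlgebraicClosure K) :=
    fun q => map_ratCast (algebraMap (maxUnr k K) (AlgebraicClosure K)) q
  have hcastF : ∀ q : ℚ, ((q : F) : AlgebraicClosure K) = (q : AlgebraicClosure K) :=
    fun q => map_ratCast (algebraMap F (AlgebraicClosure K)) q
  have h₁F : (⟨g₁, hg₁F⟩ : F) ^ m = ⟨τ, hτF⟩ - ((zβ n : ℚ) : F) := by
    apply Subtype.ext
    have h3 := congrArg (fun z : maxUnr k K => (z : AlgebraicClosure K)) h₁
    simp only [SubmonoidClass.coe_pow, AddSubgroupClass.coe_sub, hcast] at h3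
    simp only [SubmonoidClass.coe_pow, AddSubgroupClass.coe_sub, hcastF]
    exact h3
  have h₂F : (⟨g₂, hg₂F⟩ : F) ^ m = ⟨τ, hτF⟩ + ((zβ n : ℚ) : F) := by
    apply Subtype.ext
    have h3 := congrArg (fun z : maxUnr k K => (z : AlgebraicClosure K)) h₂
    simp only [SubmonoidClass.coe_pow, AddMemClass.coe_add, hcast] at h3
    simp only [SubmonoidClass.coe_pow, AddMemClass.coe_add, hcastF]
    exact h3
  have hne₁F : (⟨τ, hτF⟩ : F) - ((zβ n : ℚ) : F) ≠ 0 := by
    intro h
    apply hne₁
    apply Subtype.ext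
    have h3 := congrArg (fun z : F => (z : AlgebraicClosure K)) h
    simp only [AddSubgroupClass.coe_sub, hcastF] at h3
    simp only [AddSubgroupClass.coe_sub, hcast]
    exact h3
  have hne₂F : (⟨τ, hτF⟩ : F) + ((zβ n : ℚ) : F) ≠ 0 := by
    intro h
    apply hne₂
    apply Subtype.ext
    have h3 := congrArg (fun z : F => (z : AlgebraicClosure K)) h
    simp only [AddMemClass.coe_add, hcastF] at h3
    simp only [AddMemClass.coe_add, hcast]
    exact h3
  obtain ⟨F', hF', -, hyF'⟩ := hF.step y (by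
    intro E hFE hw _ ht halg hgen V hV x
    have hcE : CharZero E := charZero_of_injective_algebraMap (algebraMap K E).injective
    refine loc_root hV hn hm1 hm2 ⟨τ, hτF⟩ ⟨g₁, hg₁F⟩ ⟨g₂, hg₂F⟩ h₁F h₂F hne₁F hne₂F ⟨y, hw⟩
      hgen ?_ x
    apply (algebraMap E (AlgebraicClosure K)).injective
    rw [← zP_eval_map, map_zero]
    exact hy)
  exact hF'.le_maxUnr hyF'

/-- full cusps lift to unramified points: `Ψ(y) = τ`, `Ψ(y₀) = τ₀`, `y₀, τ₀` constants,
`y₀ ^ 2 ≠ 1`: the value of `y - y₀` at a place is `1` or the value of `τ - τ₀` -/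
lemma cusp_val {k : Type u} [Field k] [CharZero k] {E : Type w} [Field E] [CharZero E]
    [Algebra k E] {V : ValuationSubring E} (hV : IsPlace k E V) {n : ℕ} (hn : 1 ≤ n)
    (τ y τ₀ y₀ : E) (hτ₀ : IsIntegral k τ₀) (hy₀ : IsIntegral k y₀) (hy₀1 : y₀ ^ 2 ≠ 1)
    (h₀ : (zP n τ₀).eval y₀ = 0) (h : (zP n τ).eval y = 0) :
    V.valuation (y - y₀) = 1 ∨ V.valuation (y - y₀) = V.valuation (τ - τ₀) := by
  have hτ₀v : V.valuation τ₀ ≤ 1 := (V.valuation_le_one_iff _).2 (hV.mem_of_isIntegral hτ₀)
  have hy₀v : V.valuation y₀ ≤ 1 := (V.valuation_le_one_iff _).2 (hV.mem_of_isIntegral hy₀)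
  have h₀' : aeval y₀ (zA n) = τ₀ * y₀ ^ (2 * n - 1) := by
    rw [zP_eval] at h₀
    exact sub_eq_zero.1 h₀
  have h' : aeval y (zA n) = τ * y ^ (2 * n - 1) := by
    rw [zP_eval] at h
    exact sub_eq_zero.1 h
  have hy₀one : V.valuation y₀ = 1 := val_root_one hV hn h₀' hτ₀v
  rcases lt_trichotomy (V.valuation (y - y₀)) 1 with hlt | heq | hgt
  · right
    -- the derivative at `y₀`
    have hder : V.valuation ((derivative (zP n τ₀)).eval y₀) = 1 := by
      have h1 := congrArg V.valuation (zP_der hn τ₀ y₀)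
      have h2 : V.valuation (y₀ ^ 2 - 1) = 1 :=
        hV.val_alg ((hy₀.pow 2).sub isIntegral_one) (sub_ne_zero.2 hy₀1)
      rw [h₀, mul_zero, add_zero, map_mul, map_pow, h2, hy₀one, one_mul, one_pow] at h1
      exact h1
    have hcoef : ∀ i, V.valuation ((zP n τ₀).coeff i) ≤ 1 := by
      intro i
      rw [zP, coeff_sub, coeff_map, eq_ratCast, coeff_C_mul, coeff_X_pow]
      refine le_trans (Valuation.map_sub _ _ _) (max_le (val_rat_le hV _) ?_)
      split_ifs
      · rw [mul_one]; exact hτ₀v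
      · rw [mul_zero, map_zero]; exact zero_le
    obtain ⟨D, hD⟩ := exists_lift V _ hcoef
    set y₀' : V := ⟨y₀, (V.valuation_le_one_iff _).1 hy₀v⟩ with hy₀'
    set d : V := ⟨y - y₀, (V.valuation_le_one_iff _).1 hlt.le⟩ with hd
    obtain ⟨r, hr⟩ := D.binomExpansion y₀' d
    have h2 := congrArg (fun z : V => (z : E)) hr
    simp only [AddMemClass.coe_add, MulMemClass.coe_mul, SubmonoidClass.coe_pow, coe_eval,
      ← derivative_map, hD] at h2
    have h3 : (y₀' : E) + (d : E) = y := by
      show y₀ + (y - y₀) = y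
      ring
    rw [h3] at h2
    have h4 : (zP n τ₀).eval (y₀' : E) = 0 := h₀
    rw [h4, zero_add] at h2
    have h5 : (zP n τ₀).eval y = (τ - τ₀) * y ^ (2 * n - 1) := by
      rw [zP_eval, h']
      ring
    have h6 : (zP n τ₀).eval y = (y - y₀) * ((derivative (zP n τ₀)).eval y₀ + (y - y₀) * r) := by
      rw [h2]
      show (derivative (zP n τ₀)).eval y₀ * (y - y₀) + (r : E) * (y - y₀) ^ 2 = _
      ring
    have h7 : V.valuation ((derivative (zP n τ₀)).eval y₀ + (y - y₀) * r) = 1 := by
      refine val_one_of_sub hder ?_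
      rw [add_sub_cancel_left, map_mul]
      exact mul_lt_one_of_lt_of_le hlt (V.valuation_le_one _)
    have hyv : V.valuation y = 1 := val_one_of_sub hy₀one hlt
    have h8 := congrArg V.valuation (h6.symm.trans h5)
    rw [map_mul, h7, mul_one, map_mul, map_pow, hyv, one_pow, mul_one] at h8
    exact h8
  · left; exact heq
  · right
    have hy₀lt : V.valuation y₀ < V.valuation (y - y₀) := lt_of_le_of_lt hy₀v hgt
    have h1 : V.valuation y = V.valuation (y - y₀) := by
      have h2 : y = (y - y₀) + y₀ := by ring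
      conv_lhs => rw [h2]
      rw [Valuation.map_add_eq_of_lt_left _ hy₀lt]
    have h2 := val_root_gt hV hn h' (by rw [h1]; exact hgt)
    have h3 : V.valuation (τ - τ₀) = V.valuation τ := by
      apply Valuation.map_sub_eq_of_lt_left
      rw [h2, h1]
      exact lt_of_le_of_lt hτ₀v hgt
    rw [h3, h2, h1]

/-- full cusps lift to unramified points: `Ψ(y) = τ`, `Ψ(y₀) = τ₀`, `y₀, τ₀` constants,
`y₀ ^ 2 ≠ 1`, `τ - τ₀` an `m`-th power in `M`: then `y - y₀` is an `m`-th power in `M` -/
theorem cusp_step {k : Type u} {K : Type v} [Field k] [CharZero k] [Field K]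
    [Algebra k K] {n m : ℕ} (hn : 1 ≤ n) (hm : 0 < m)
    (τ g y τ₀ y₀ : maxUnr k K) (hτ₀ : IsIntegral k τ₀) (hy₀ : IsIntegral k y₀)
    (hy₀1 : y₀ ^ 2 ≠ 1) (h₀ : (zP n τ₀).eval y₀ = 0) (h : (zP n τ).eval y = 0)
    (hg : g ^ m = τ - τ₀) : ∃ g' : maxUnr k K, g' ^ m = y - y₀ := by
  classical
  have hcK : CharZero K := charZero_of_injective_algebraMap (algebraMap k K).injective
  obtain ⟨F, hF, hS⟩ := exists_finUnr_subset
    ({(τ : AlgebraicClosure K), (g : AlgebraicClosure K), (y : AlgebraicClosure K),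
      (τ₀ : AlgebraicClosure K), (y₀ : AlgebraicClosure K)} :
      Finset (AlgebraicClosure K)) (by
        intro x hx
        simp only [Finset.mem_insert, Finset.mem_singleton] at hx
        rcases hx with rfl | rfl | rfl | rfl | rfl
        · exact τ.2
        · exact g.2
        · exact y.2
        · exact τ₀.2
        · exact y₀.2)
  have hcF : CharZero F := charZero_of_injective_algebraMap (algebraMap K F).injective
  set τF : F := ⟨τ, hS _ (by simp)⟩ with hτF
  set gF : F := ⟨g, hS _ (by simp)⟩ with hgF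
  set yF : F := ⟨y, hS _ (by simp)⟩ with hyF
  set τ₀F : F := ⟨τ₀, hS _ (by simp)⟩ with hτ₀F
  set y₀F : F := ⟨y₀, hS _ (by simp)⟩ with hy₀F
  have hint : ∀ (a : maxUnr k K) (b : F), (a : AlgebraicClosure K) = b → IsIntegral k a →
      IsIntegral k b := by
    intro a b hab ha
    have h1 : IsIntegral k (a : AlgebraicClosure K) :=
      ha.map ((maxUnr k K).val.restrictScalars k)
    rw [hab] at h1
    exact (isIntegral_algHom_iff ((F.val).restrictScalars k) (Subtype.val_injective)).1 h1
  have hev : ∀ (a b : maxUnr k K) (a' b' : F), (a : AlgebraicClosure K) = a' →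
      (b : AlgebraicClosure K) = b' → (zP n a).eval b = 0 → (zP n a').eval b' = 0 := by
    intro a b a' b' ha hb h1
    apply (algebraMap F (AlgebraicClosure K)).injective
    rw [← zP_eval_map, map_zero]
    have h2 := congrArg (algebraMap (maxUnr k K) (AlgebraicClosure K)) h1
    rw [← zP_eval_map, map_zero] at h2
    have ha' : algebraMap (maxUnr k K) (AlgebraicClosure K) a =
      algebraMap F (AlgebraicClosure K) a' := ha
    have hb' : algebraMap (maxUnr k K) (AlgebraicClosure K) b =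
      algebraMap F (AlgebraicClosure K) b' := hb
    rw [← ha', ← hb', h2]
  have hne : y₀F ^ 2 ≠ 1 := by
    intro h2
    apply hy₀1
    apply Subtype.ext
    exact congrArg (fun z : F => (z : AlgebraicClosure K)) h2
  have hdiv : IsDivisible m k (yF - y₀F) := by
    intro V hV
    rcases cusp_val hV hn τF yF τ₀F y₀F (hint τ₀ τ₀F rfl hτ₀) (hint y₀ y₀F rfl hy₀) hne
      (hev τ₀ y₀ τ₀F y₀F rfl rfl h₀) (hev τ y τF yF rfl rfl h) with h1 | h1
    · exact ⟨1, by rw [h1, map_one, one_pow]⟩
    · refine ⟨gF, ?_⟩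
      have h2 : gF ^ m = τF - τ₀F := by
        apply Subtype.ext
        exact congrArg (fun z : maxUnr k K => (z : AlgebraicClosure K)) hg
      rw [h1, ← h2, map_pow]
  obtain ⟨w, hw⟩ := IsAlgClosed.exists_pow_nat_eq ((y : AlgebraicClosure K) - y₀) hm
  have hmk : (m : k) ≠ 0 := by exact_mod_cast hm.ne'
  obtain ⟨F', hF', -, hwF'⟩ := hF.exists_root hmk w (yF - y₀F) hw hdiv
  exact ⟨⟨w, hF'.le_maxUnr hwF'⟩, Subtype.ext hw⟩

end P025H450
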