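import Vale.Agent.P025.R2.H440.Defs

/-! # Algebra of the zoom polynomial -/

open IntermediateField Polynomial

namespace P025H450

open P025H641 P025H440

lemma X_mul_der (a : ℚ) (e : ℕ) : X * derivative (C a * X ^ e) = C (a * e) * X ^ e := by
  cases e with
  | zero => simp
  | succ e =>
    rw [derivative_C_mul_X_pow, Nat.add_sub_cancel]
    ring

lemma two_mul_sub_one_ne (j : ℕ) : (2 * (j : ℚ) - 1) ≠ 0 := by
  intro h
  have h1 : (2 * (j : ℤ) - 1) = 0 := by exact_mod_cast h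
  omega

lemma zA_id {n : ℕ} (hn : 1 ≤ n) :
    X * derivative (zA n) - C ((2 * n - 1 : ℕ) : ℚ) * zA n = (X ^ 2 - 1) ^ n := by
  have h1 : (X ^ 2 - 1 : ℚ[X]) ^ n = ∑ j ∈ Finset.range (n + 1),
      C ((-1) ^ j * (n.choose j : ℚ)) * X ^ (2 * n - 2 * j) := by
    rw [sub_eq_neg_add, add_pow]
    refine Finset.sum_congr rfl (fun j hj => ?_)
    have hj' : j ≤ n := Nat.lt_succ_iff.1 (Finset.mem_range.1 hj)
    rw [← pow_mul, show 2 * (n - j) = 2 * n - 2 * j by omega, map_mul, map_pow, map_neg, C_1,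
      C_eq_natCast]
    ring
  rw [h1, zA, derivative_neg, derivative_sum, mul_neg, mul_neg, Finset.mul_sum, Finset.mul_sum,
    ← Finset.sum_neg_distrib, ← Finset.sum_neg_distrib, ← Finset.sum_sub_distrib]
  refine Finset.sum_congr rfl (fun j hj => ?_)
  have hj' : j ≤ n := Nat.lt_succ_iff.1 (Finset.mem_range.1 hj)
  rw [X_mul_der, ← mul_assoc, ← C_mul, ← neg_mul, ← neg_mul, ← sub_mul, ← C_neg, ← C_neg, ← C_sub]
  congr 2
  rw [Nat.cast_sub (by omega), Nat.cast_sub (by omega), zc]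
  have h2 := two_mul_sub_one_ne j
  field_simp
  push_cast
  ring

lemma zA_eval_one (n : ℕ) : (zA n).eval 1 = -∑ j ∈ Finset.range (n + 1), zc n j := by
  simp [zA, eval_finsetSum]

lemma zc_rec (n j : ℕ) (hj : j ≤ n + 1) : 2 * (n + 1 : ℚ) * zc n j =
    (2 * n + 1) * zc (n + 1) j - (-1) ^ j * ((n + 1).choose j : ℚ) := by
  have h1 : (n.choose j : ℚ) * (n + 1) = ((n + 1).choose j : ℚ) * (n + 1 - j) := by
    have := Nat.choose_mul_succ_eq n j
    have h2 : ((n.choose j * (n + 1) : ℕ) : ℚ) = (((n + 1).choose j * (n + 1 - j) : ℕ) : ℚ) := by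
      rw [this]
    rw [Nat.cast_mul, Nat.cast_mul, Nat.cast_sub hj] at h2
    push_cast at h2
    exact h2
  have h2 := two_mul_sub_one_ne j
  rw [zc, zc]
  field_simp
  linear_combination 2 * h1

lemma alt_sum (n : ℕ) : ∑ j ∈ Finset.range (n + 2), (-1 : ℚ) ^ j * ((n + 1).choose j : ℚ) = 0 := by
  have h := add_pow (-1 : ℚ) 1 (n + 1)
  rw [neg_add_cancel, zero_pow (Nat.succ_ne_zero n)] at h
  simp only [one_pow, mul_one] at h
  exact h.symm

lemma zA_one (n : ℕ) : (zA n).eval 1 = zβ n := by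
  rw [zA_eval_one]
  induction n with
  | zero => simp [zc, zβ]
  | succ n ih =>
    have h1 : ∑ j ∈ Finset.range (n + 2), (2 * (n + 1 : ℚ) * zc n j) =
        ∑ j ∈ Finset.range (n + 2), ((2 * n + 1) * zc (n + 1) j -
          (-1) ^ j * ((n + 1).choose j : ℚ)) := by
      refine Finset.sum_congr rfl (fun j hj => zc_rec n j ?_)
      have := Finset.mem_range.1 hj
      omega
    rw [Finset.sum_sub_distrib, alt_sum, sub_zero, ← Finset.mul_sum, ← Finset.mul_sum,
      Finset.sum_range_succ] at h1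
    have h2 : zc n (n + 1) = 0 := by simp [zc]
    rw [h2, add_zero] at h1
    have h3 : (∑ j ∈ Finset.range (n + 1), zc n j) = - zβ n := by
      rw [← ih, neg_neg]
    rw [h3] at h1
    have h4 : ((n : ℚ) + 1) * ((n + 1).centralBinom : ℚ) = 2 * (2 * n + 1) * (n.centralBinom : ℚ) := by
      exact_mod_cast Nat.succ_mul_centralBinom_succ n
    have h5 : (n.centralBinom : ℚ) ≠ 0 := by exact_mod_cast Nat.centralBinom_ne_zero n
    have h6 : ((n + 1).centralBinom : ℚ) ≠ 0 := by exact_mod_cast Nat.centralBinom_ne_zero (n + 1)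
    have h7 : (2 * (n : ℚ) + 1) ≠ 0 := by positivity
    have h8 : (2 * (n : ℚ) + 1) * zβ (n + 1) = 2 * (n + 1) * zβ n := by
      rw [zβ, zβ]
      field_simp
      rw [pow_succ]
      linear_combination (-2) * 4 ^ n * h4
    have h9 : (2 * (n : ℚ) + 1) * (∑ j ∈ Finset.range (n + 1 + 1), zc (n + 1) j) =
        (2 * (n : ℚ) + 1) * (- zβ (n + 1)) := by
      rw [← h1, mul_neg, mul_neg, h8]
    rw [mul_left_cancel₀ h7 h9, neg_neg]

lemma zA_comp_neg (n : ℕ) : (zA n).comp (-X) = zA n := by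
  rw [zA, neg_comp, sum_comp]
  congr 1
  refine Finset.sum_congr rfl (fun j _ => ?_)
  rw [mul_comp, C_comp, X_pow_comp, Even.neg_pow]
  exact ⟨n - j, by omega⟩

/-- the numerator of `Ψ - β` -/
noncomputable def zQ (n : ℕ) : ℚ[X] := zA n - C (zβ n) * X ^ (2 * n - 1)

lemma zQ_id {n : ℕ} (hn : 1 ≤ n) :
    X * derivative (zQ n) - C ((2 * n - 1 : ℕ) : ℚ) * zQ n = (X ^ 2 - 1) ^ n := by
  rw [← zA_id hn, zQ, derivative_sub, mul_sub, X_mul_der, C_mul]
  ring

lemma zQ_factor {n : ℕ} (hn : 1 ≤ n) : ∃ g : ℚ[X], zQ n = (X - 1) ^ (n + 1) * g ∧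
    g.eval 1 ≠ 0 := by
  have hid := zQ_id hn
  have hcomp : ∀ (r : ℕ) (g : ℚ[X]), r ≤ n → zQ n = (X - 1) ^ (r + 1) * g →
      (C ((r : ℚ) + 1) * X) * g + (X - 1) * (X * derivative g) -
        (X - 1) * (C ((2 * n - 1 : ℕ) : ℚ) * g) = (X - 1) ^ (n - r) * (X + 1) ^ n := by
    intro r g hr hg
    have hne : ((X : ℚ[X]) - 1) ^ r ≠ 0 := pow_ne_zero _ (X_sub_C_ne_zero 1)
    apply mul_left_cancel₀ hne
    have h1 : ((X : ℚ[X]) - 1) ^ r * ((X - 1) ^ (n - r) * (X + 1) ^ n) = (X ^ 2 - 1) ^ n := by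
      rw [← mul_assoc, ← pow_add, Nat.add_sub_cancel' hr, ← mul_pow]
      congr 1
      ring
    rw [h1, ← hid, hg, derivative_mul, derivative_pow, Nat.add_sub_cancel]
    have h2 : derivative ((X : ℚ[X]) - 1) = 1 := by simp
    have h3 : C ((r : ℚ) + 1) = (r : ℚ[X]) + 1 := by simp
    rw [h2, h3]
    simp only [map_natCast, Nat.cast_add, Nat.cast_one, map_add, map_one]
    ring
  have hind : ∀ r : ℕ, r ≤ n → ∃ g : ℚ[X], zQ n = (X - 1) ^ (r + 1) * g := by
    intro r
    induction r with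
    | zero =>
      intro _
      have h1 : (X - C (1 : ℚ)) ∣ zQ n := by
        rw [dvd_iff_isRoot, IsRoot.def, zQ, eval_sub, zA_one]
        simp
      obtain ⟨g, hg⟩ := h1
      exact ⟨g, by rw [hg, C_1, zero_add, pow_one]⟩
    | succ r ih =>
      intro hr
      obtain ⟨g, hg⟩ := ih (by omega)
      have h1 := congrArg (eval 1) (hcomp r g (by omega) hg)
      have h2 : n - r ≠ 0 := by omega
      simp only [eval_add, eval_sub, eval_mul, eval_C, eval_X, eval_pow, eval_one, sub_self,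
        zero_mul, mul_one, add_zero, sub_zero, zero_pow h2] at h1
      have h3 : g.eval 1 = 0 := by
        rcases mul_eq_zero.1 h1 with h | h
        · exfalso
          have : (0 : ℚ) < (r : ℚ) + 1 := by positivity
          exact this.ne' h
        · exact h
      have h4 : (X - C (1 : ℚ)) ∣ g := by rwa [dvd_iff_isRoot, IsRoot.def]
      obtain ⟨g', hg'⟩ := h4
      exact ⟨g', by rw [hg, hg', C_1]; ring⟩
  obtain ⟨g, hg⟩ := hind n le_rfl
  refine ⟨g, hg, ?_⟩
  intro h0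
  have h1 := congrArg (eval 1) (hcomp n g le_rfl hg)
  simp only [eval_add, eval_sub, eval_mul, eval_C, eval_X, eval_pow, eval_one, sub_self,
    zero_mul, mul_one, add_zero, Nat.sub_self, pow_zero, one_mul, h0, mul_zero] at h1
  have : (0 : ℚ) < (1 + 1) ^ n := by positivity
  exact this.ne h1

/-- the reciprocal of `zA` -/
noncomputable def zR (n : ℕ) : ℚ[X] :=
  -∑ j ∈ Finset.range (n + 1), C (zc n j) * X ^ (2 * j)

lemma zR_zero (n : ℕ) : (zR n).eval 0 = 1 := by
  rw [zR, eval_neg, eval_finsetSum, Finset.sum_eq_single 0]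
  · simp [zc]
  · intro j _ hj
    simp [hj]
  · simp

lemma zA_zero (n : ℕ) : (zA n).eval 0 ≠ 0 := by
  rw [zA, eval_neg, eval_finsetSum, Finset.sum_eq_single n]
  · have h1 := two_mul_sub_one_ne n
    simp [zc, h1]
  · intro j hj hj'
    have h1 := Finset.mem_range.1 hj
    have h2 : 2 * n - 2 * j ≠ 0 := by omega
    simp [h2]
  · simp

section field

variable {E : Type*} [Field E] [CharZero E]

lemma aeval_zA_zR (n : ℕ) {y : E} (hy : y ≠ 0) :
    aeval y (zA n) = y ^ (2 * n) * aeval y⁻¹ (zR n) := by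
  rw [zA, zR, map_neg, map_neg, map_sum, map_sum, mul_neg, Finset.mul_sum]
  congr 1
  refine Finset.sum_congr rfl (fun j hj => ?_)
  have h1 := Finset.mem_range.1 hj
  rw [map_mul, map_mul, map_pow, map_pow, aeval_X, aeval_X, aeval_C, aeval_C, inv_pow,
    pow_sub₀ y hy (by omega)]
  ring

lemma zP_eval (n : ℕ) (τ y : E) : (zP n τ).eval y = aeval y (zA n) - τ * y ^ (2 * n - 1) := by
  rw [zP, eval_sub, eval_mul, eval_C, eval_pow, eval_X, eval_map, aeval_def]

lemma zP_map (n : ℕ) {E' : Type*} [Field E'] [CharZero E'] (f : E →+* E') (τ : E) :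
    (zP n τ).map f = zP n (f τ) := by
  rw [zP, zP, Polynomial.map_sub, Polynomial.map_map, Polynomial.map_mul, map_C,
    Polynomial.map_pow, map_X]
  congr 2
  exact RingHom.ext_rat _ _

lemma zP_eval_map (n : ℕ) {E' : Type*} [Field E'] [CharZero E'] (f : E →+* E') (τ y : E) :
    (zP n (f τ)).eval (f y) = f ((zP n τ).eval y) := by
  rw [← zP_map, eval_map, eval₂_at_apply]

lemma zP_neg {n : ℕ} (hn : 1 ≤ n) (τ y : E) : (zP n (-τ)).eval (-y) = (zP n τ).eval y := by
  rw [zP_eval, zP_eval]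
  have h1 : aeval (-y) (zA n) = aeval y (zA n) := by
    conv_rhs => rw [← zA_comp_neg n]
    rw [aeval_comp]
    simp
  have h2 : Odd (2 * n - 1) := ⟨n - 1, by omega⟩
  rw [h1, h2.neg_pow]
  ring

lemma zP_der {n : ℕ} (hn : 1 ≤ n) (τ y : E) : y * (derivative (zP n τ)).eval y =
    (y ^ 2 - 1) ^ n + ((2 * n - 1 : ℕ) : E) * (zP n τ).eval y := by
  have h1 := congrArg (fun q : ℚ[X] => (aeval y q : E)) (zA_id hn)
  simp only [map_sub, map_mul, aeval_X, map_pow, map_natCast, map_one] at h1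
  have h2 : (derivative (zP n τ)).eval y = aeval y (derivative (zA n)) -
      τ * (((2 * n - 1 : ℕ) : E) * y ^ (2 * n - 1 - 1)) := by
    rw [zP, derivative_sub, eval_sub, derivative_C_mul, derivative_X_pow, derivative_map, eval_map,
      aeval_def, eval_mul, eval_C, eval_mul, eval_pow, eval_X]
    simp
  have h3 : y ^ (2 * n - 1) = y * y ^ (2 * n - 1 - 1) := by
    rw [← pow_succ', Nat.sub_add_cancel (by omega)]
  rw [h2, zP_eval, ← h1, h3]
  ring

end field

end P025H450
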