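import Vale.Agent.P025.R2.H816.J03

/-! # Integrality is tested at the places -/

open Polynomial

namespace P025H450

open Vale.Agent.P019P

/-- an element which is regular at all places at which the elements of `f(R)` are regular is
integral over `R` -/
theorem integral_of_places {C K R : Type*} [Field C] [Field K] [Algebra C K] [CommRing R]
    (f : R →+* K) (hC : ∀ a : C, ∃ r, f r = algebraMap C K a) (y : K)
    (h : ∀ Q : Plk C K, (∀ r, f r ∈ Q.1) → y ∈ Q.1) :
    ∃ p : R[X], p.Monic ∧ eval₂ f y p = 0 := by
  have h1 : y ∈ (⨅ V : {V : ValuationSubring K // (Set.range f) ⊆ (V.toSubring : Set K)},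
      V.1.toSubring) := by
    rw [Subring.mem_iInf]
    rintro ⟨V, hV⟩
    by_cases hT : V = ⊤
    · show y ∈ V
      rw [hT]
      exact ValuationSubring.mem_top y
    · refine h ⟨V, fun a => ?_, hT⟩ (fun r => hV ⟨r, rfl⟩)
      obtain ⟨r, hr⟩ := hC a
      rw [← hr]
      exact hV ⟨r, rfl⟩
  rw [iInf_valuationSubring_superset] at h1
  have h2 : IsIntegral (Subring.closure (Set.range f)) y := h1
  obtain ⟨p, hp, hp0⟩ := h2
  have hle : Subring.closure (Set.range f) ≤ f.range := by
    rw [Subring.closure_le]
    rintro _ ⟨r, rfl⟩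
    exact ⟨r, rfl⟩
  -- polynomial over `f.range`
  let g : R →+* f.range := f.rangeRestrict
  have hg : Function.Surjective g := f.rangeRestrict_surjective
  let p' : f.range[X] := p.map (Subring.inclusion hle)
  have hp' : p'.Monic := hp.map _
  have hl : p' ∈ lifts g := by
    rw [lifts_iff_coeff_lifts]
    intro n
    exact hg _
  obtain ⟨q, hq, -, hqm⟩ := lifts_and_natDegree_eq_and_monic hl hp'
  refine ⟨q, hqm, ?_⟩
  have h3 : eval₂ (f.range.subtype) y p' = 0 := by
    rw [eval₂_map]
    exact hp0
  rw [← hq, eval₂_map] at h3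
  exact h3

end P025H450
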