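import Vale.Agent.P025.R2.H450.Rest
import Vale.Agent.P025.R2.H450.Intg

/-! # The choice of the radius, functions on `|T| ≤ r` -/

open Polynomial TensorProduct

namespace P025H450

open P025H373 P025H628 P025H544 Vale.Agent.P019P

universe u v

variable {C : Type u} [NontriviallyNormedField C] [IsUltrametricDist C] [CompleteSpace C]
  [IsAlgClosed C]

/-- a common bound of the norms of the coefficients -/
lemma exists_coeff_bound {A : Type*} [NormedCommRing A] (p : A[X]) :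
    ∃ M : ℝ, 1 ≤ M ∧ ∀ n, ‖p.coeff n‖ ≤ M := by
  refine ⟨1 + ∑ i ∈ p.support, ‖p.coeff i‖, ?_, fun n => ?_⟩
  · have : 0 ≤ ∑ i ∈ p.support, ‖p.coeff i‖ := Finset.sum_nonneg fun i _ => norm_nonneg _
    linarith
  · by_cases hn : n ∈ p.support
    · have := Finset.single_le_sum (f := fun i => ‖p.coeff i‖) (fun i _ => norm_nonneg _) hn
      linarith
    · rw [notMem_support_iff.1 hn, norm_zero]
      have : 0 ≤ ∑ i ∈ p.support, ‖p.coeff i‖ := Finset.sum_nonneg fun i _ => norm_nonneg _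
      linarith

/-- scaling the root makes the coefficients small -/
lemma scaleRoots_small {A : Type*} [NormedCommRing A] [NormOneClass A] {p : A[X]}
    {M : ℝ} (hM : ∀ n, ‖p.coeff n‖ ≤ M) {s : A} (_hs : M * ‖s‖ ≤ 1) (hs1 : ‖s‖ ≤ 1)
    (hM0 : 0 ≤ M) {n : ℕ} (hn : n < p.natDegree) : ‖(p.scaleRoots s).coeff n‖ ≤ M * ‖s‖ := by
  rw [coeff_scaleRoots]
  obtain ⟨m, hm⟩ : ∃ m, p.natDegree - n = m + 1 := ⟨p.natDegree - n - 1, by omega⟩
  rw [hm, pow_succ']
  have h1 : ‖s ^ m‖ ≤ 1 := (norm_pow_le s m).trans (pow_le_one₀ (norm_nonneg _) hs1)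
  calc ‖p.coeff n * (s * s ^ m)‖ ≤ ‖p.coeff n‖ * (‖s‖ * ‖s ^ m‖) :=
        (norm_mul_le _ _).trans (mul_le_mul_of_nonneg_left (norm_mul_le _ _) (norm_nonneg _))
    _ ≤ M * (‖s‖ * 1) := by
        refine mul_le_mul (hM n) ?_ (by positivity) hM0
        exact mul_le_mul_of_nonneg_left h1 (norm_nonneg _)
    _ = M * ‖s‖ := by rw [mul_one]

section

variable {K : Type v} [Field K] [Algebra C K] [Algebra (RatFunc C) K]
  [IsScalarTower C (RatFunc C) K]

/-- `A1 → F1r ⊗ K` -/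
noncomputable def kV (c : Cˣ) (K : Type v) [Field K] [Algebra (RatFunc C) K] :
    A1 C →+* F1r C c ⊗[RatFunc C] K :=
  (Algebra.TensorProduct.includeLeftRingHom : F1r C c →+* F1r C c ⊗[RatFunc C] K).comp jA

/-- `K → F1r ⊗ K` -/
noncomputable def rV (c : Cˣ) (K : Type v) [Field K] [Algebra (RatFunc C) K] :
    K →+* F1r C c ⊗[RatFunc C] K :=
  (Algebra.TensorProduct.includeRight : K →ₐ[RatFunc C] F1r C c ⊗[RatFunc C] K).toRingHom

lemma rV_apply (c : Cˣ) (x : K) : rV c K x = 1 ⊗ₜ x := rfl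

lemma kV_of (c : Cˣ) {a : A1 C} {f : RatFunc C}
    (h : jA a = (algebraMap (RatFunc C) (F1 C) (scale (c : C) c.ne_zero f))) :
    kV c K a = rV c K (algebraMap (RatFunc C) K f) := by
  have h1 : kV c K a = (algebraMap (RatFunc C) (F1r C c) f) ⊗ₜ 1 := congrArg
    (fun z : F1r C c => (z ⊗ₜ 1 : F1r C c ⊗[RatFunc C] K)) h
  rw [h1, rV_apply, Algebra.algebraMap_eq_smul_one, Algebra.algebraMap_eq_smul_one (A := K),
    TensorProduct.smul_tmul]

lemma kV_C (c : Cˣ) (a : C) : kV c K (algebraMap C (A1 C) a) = rV c K (algebraMap C K a) := by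
  rw [kV_of (K := K) (c := c) (a := algebraMap C (A1 C) a) (f := RatFunc.C a)]
  · rw [IsScalarTower.algebraMap_apply C (RatFunc C) K]
    rfl
  · have h1 : scale (c : C) c.ne_zero (RatFunc.C a) = RatFunc.C a :=
      (scale (c : C) c.ne_zero).commutes a
    rw [h1]
    rfl

/-- **choice of the radius**: if `y` is integral over `C[τ]`, `τ` a function on `|T| ≤ ‖c‖`, then
`y / c₀` is a root of a monic polynomial with coefficients of norm at most one -/
theorem exists_coef1 (c : Cˣ) (τ : RatFunc C)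
    (hτ : ((algebraMap (RatFunc C) (F1 C) (scale (c : C) c.ne_zero τ) : F1 C) : F0 C) ∈ A1 C)
    (y : K) (p : C[X][X]) (hp : p.Monic)
    (hpy : eval₂ ((aeval (algebraMap (RatFunc C) K τ) : C[X] →ₐ[C] K) : C[X] →+* K) y p = 0) :
    ∃ r : ℝ, ∀ c' : Cˣ, r ≤ ‖(c' : C)‖ → ∃ μ : (A1 C)[X], μ.Monic ∧ (∀ n, ‖μ.coeff n‖ ≤ 1) ∧
      eval₂ (kV c K) (rV c K (algebraMap C K (c' : C)⁻¹ * y)) μ = 0 := by
  have hnc : NormOneClass (A1 C) := ⟨(norm_one : ‖(1 : F0 C)‖ = 1)⟩
  set a : A1 C := ⟨_, hτ⟩ with ha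
  let g : C[X] →+* A1 C := ((aeval a : C[X] →ₐ[C] A1 C) : C[X] →+* A1 C)
  have hga : kV c K a = rV c K (algebraMap (RatFunc C) K τ) := kV_of (c := c) (K := K) rfl
  have hcomp : (kV c K).comp g =
      (rV c K).comp ((aeval (algebraMap (RatFunc C) K τ) : C[X] →ₐ[C] K) : C[X] →+* K) := by
    apply Polynomial.ringHom_ext
    · intro x
      have h1 : g (Polynomial.C x) = algebraMap C (A1 C) x := aeval_C _ _
      have h2 : ((aeval (algebraMap (RatFunc C) K τ) : C[X] →ₐ[C] K) : C[X] →+* K)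
        (Polynomial.C x) = algebraMap C K x := aeval_C _ _
      rw [RingHom.comp_apply, RingHom.comp_apply, h1, h2, kV_C]
    · have h1 : g X = a := aeval_X _
      have h2 : ((aeval (algebraMap (RatFunc C) K τ) : C[X] →ₐ[C] K) : C[X] →+* K) X =
        algebraMap (RatFunc C) K τ := aeval_X _
      rw [RingHom.comp_apply, RingHom.comp_apply, h1, h2, hga]
  obtain ⟨M, hM1, hM⟩ := exists_coeff_bound (p.map g)
  refine ⟨M, fun c' hc' => ?_⟩
  have hc'0 : 0 < ‖(c' : C)‖ := norm_pos_iff.2 c'.ne_zero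
  set s : A1 C := algebraMap C (A1 C) (c' : C)⁻¹ with hs
  have hns : ‖s‖ = ‖(c' : C)‖⁻¹ := by
    rw [hs, ← norm_inv]
    exact norm_algebraMap_C _
  have hMs : M * ‖s‖ ≤ 1 := by
    rw [hns, ← div_eq_mul_inv, div_le_one hc'0]
    exact hc'
  have hs1 : ‖s‖ ≤ 1 := by
    rw [hns]
    exact inv_le_one_of_one_le₀ (hM1.trans hc')
  have hmon : (p.map g).Monic := hp.map g
  refine ⟨(p.map g).scaleRoots s, (monic_scaleRoots_iff s).2 hmon, fun n => ?_, ?_⟩
  · rcases lt_trichotomy n (p.map g).natDegree with h | h | h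
    · exact (scaleRoots_small hM hMs hs1 (zero_le_one.trans hM1) h).trans hMs
    · rw [h, coeff_scaleRoots_natDegree, hmon.leadingCoeff, norm_one]
    · rw [coeff_scaleRoots, coeff_eq_zero_of_natDegree_lt h, zero_mul, norm_zero]
      exact zero_le_one
  · have h1 : eval₂ (kV c K) (rV c K y) (p.map g) = 0 := by
      rw [eval₂_map, hcomp, ← hom_eval₂, hpy, map_zero]
    have h2 := scaleRoots_eval₂_eq_zero (kV c K) (s := s) h1
    rw [map_mul, ← kV_C]
    exact h2

end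

end P025H450
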