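import Vale.Agent.P025.R2.H450.Coef1

/-! # The choice of the radius, functions on `|T| > r` -/

open Polynomial TensorProduct

namespace P025H450

open P025H373 P025H628 P025H544 Vale.Agent.P019P

universe u v

section oinf

variable (C : Type u) [Field C]

/-- rational functions regular at infinity -/
noncomputable def Oi : Subring (RatFunc C) where
  carrier := {f | ∃ P S : C[X], S.Monic ∧ P.degree ≤ S.degree ∧
    f = algebraMap _ _ P / algebraMap _ _ S}
  mul_mem' := by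
    rintro f g ⟨P, S, hS, hd, rfl⟩ ⟨P', S', hS', hd', rfl⟩
    refine ⟨P * P', S * S', hS.mul hS', ?_, ?_⟩
    · rw [degree_mul, degree_mul]; exact add_le_add hd hd'
    · rw [map_mul, map_mul, mul_div_mul_comm]
  add_mem' := by
    rintro f g ⟨P, S, hS, hd, rfl⟩ ⟨P', S', hS', hd', rfl⟩
    refine ⟨P * S' + S * P', S * S', hS.mul hS', ?_, ?_⟩
    · refine (degree_add_le _ _).trans (max_le ?_ ?_)
      · rw [degree_mul, degree_mul]; gcongr
      · rw [degree_mul, degree_mul]; gcongr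
    · have h1 : (algebraMap C[X] (RatFunc C) S) ≠ 0 := RatFunc.algebraMap_ne_zero hS.ne_zero
      have h2 : (algebraMap C[X] (RatFunc C) S') ≠ 0 := RatFunc.algebraMap_ne_zero hS'.ne_zero
      rw [map_add, map_mul, map_mul, map_mul, div_add_div _ _ h1 h2]
  one_mem' := ⟨1, 1, monic_one, le_rfl, by rw [map_one, div_one]⟩
  zero_mem' := ⟨0, 1, monic_one, by rw [degree_zero]; exact bot_le, by rw [map_zero, zero_div]⟩
  neg_mem' := by
    rintro f ⟨P, S, hS, hd, rfl⟩
    exact ⟨-P, S, hS, by rwa [degree_neg], by rw [map_neg, neg_div]⟩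

variable {C}

lemma C_mem_Oi (a : C) : (RatFunc.C a) ∈ Oi C :=
  ⟨Polynomial.C a, 1, monic_one, by rw [degree_one]; exact degree_C_le, by
    rw [map_one, div_one, RatFunc.algebraMap_C]⟩

lemma inv_sub_mem_Oi (a : C) : (RatFunc.X - RatFunc.C a)⁻¹ ∈ Oi C :=
  ⟨1, X - Polynomial.C a, monic_X_sub_C a, by
    rw [degree_one, degree_X_sub_C]; exact zero_le_one, by
    rw [map_one, map_sub, RatFunc.algebraMap_X, RatFunc.algebraMap_C, one_div]⟩

end oinf

variable {C : Type u} [NontriviallyNormedField C] [IsUltrametricDist C] [CompleteSpace C]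
  [IsAlgClosed C]

lemma scale_poly (c : C) (hc : c ≠ 0) (P : C[X]) :
    scale c hc (algebraMap C[X] (RatFunc C) P) =
      algebraMap C[X] (RatFunc C) (P.comp (Polynomial.C c * X)) := by
  have h : ((scale c hc : RatFunc C →+* RatFunc C)).comp (algebraMap C[X] (RatFunc C)) =
      (algebraMap C[X] (RatFunc C)).comp (compRingHom (Polynomial.C c * X)) := by
    apply Polynomial.ringHom_ext
    · intro a
      rw [RingHom.comp_apply, RingHom.comp_apply, RatFunc.algebraMap_C, coe_compRingHom_apply,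
        C_comp, RatFunc.algebraMap_C]
      exact (scale c hc).commutes a
    · rw [RingHom.comp_apply, RingHom.comp_apply, RatFunc.algebraMap_X, coe_compRingHom_apply,
        X_comp, map_mul, RatFunc.algebraMap_C, RatFunc.algebraMap_X]
      exact scale_X c hc
  exact RingHom.congr_fun h P

/-- functions regular at infinity, for large radius -/
lemma exists_mem_A2 {f : RatFunc C} (hf : f ∈ Oi C) : ∃ r M : ℝ, 1 ≤ r ∧ 0 ≤ M ∧
    ∀ (c : C) (hc : c ≠ 0), r ≤ ‖c‖ → algebraMap (RatFunc C) (F0 C) (scale c hc f) ∈ A2 C ∧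
      ‖algebraMap (RatFunc C) (F0 C) (scale c hc f)‖ ≤ M := by
  obtain ⟨P, S, hS, hd, rfl⟩ := hf
  obtain ⟨M, hM1, hM⟩ := exists_coeff_bound S
  refine ⟨M, gp P, hM1, gp_nonneg P, fun c hc hr => ?_⟩
  set n := S.natDegree with hn
  have hc0 : 0 < ‖c‖ := norm_pos_iff.2 hc
  have hc1 : 1 ≤ ‖c‖ := hM1.trans hr
  have hcn : (c⁻¹ ^ n : C) ≠ 0 := pow_ne_zero _ (inv_ne_zero hc)
  -- coefficients
  have hco : ∀ (Q : C[X]) (i : ℕ), (Polynomial.C (c⁻¹ ^ n) * Q.comp (Polynomial.C c * X)).coeff i =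
      c⁻¹ ^ n * (Q.coeff i * c ^ i) := by
    intro Q i
    rw [coeff_C_mul, comp_C_mul_X_coeff]
  have hpow : ∀ i ≤ n, ∀ x : C, c⁻¹ ^ n * (x * c ^ i) = x * c⁻¹ ^ (n - i) := by
    intro i hi x
    have h1 : c⁻¹ ^ n = c⁻¹ ^ (n - i) * c⁻¹ ^ i := by rw [← pow_add, Nat.sub_add_cancel hi]
    have h2 : c⁻¹ ^ i * c ^ i = 1 := by rw [← mul_pow, inv_mul_cancel₀ hc, one_pow]
    rw [h1]
    linear_combination (x * c⁻¹ ^ (n - i)) * h2
  have hci : ∀ m : ℕ, ‖c⁻¹ ^ m‖ ≤ 1 := by
    intro m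
    rw [norm_pow, norm_inv]
    exact pow_le_one₀ (by positivity) (inv_le_one_of_one_le₀ hc1)
  set S' : C[X] := Polynomial.C (c⁻¹ ^ n) * S.comp (Polynomial.C c * X) with hS'
  set P' : C[X] := Polynomial.C (c⁻¹ ^ n) * P.comp (Polynomial.C c * X) with hP'
  have hS'n : S'.coeff n = 1 := by
    rw [hS', hco, hpow n le_rfl, Nat.sub_self, pow_zero, mul_one]
    exact hS
  have hS'z : ∀ i, n < i → S'.coeff i = 0 := by
    intro i hi
    rw [hS', hco, coeff_eq_zero_of_natDegree_lt hi, zero_mul, mul_zero]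
  have hS'le : S'.natDegree ≤ n := natDegree_le_iff_coeff_eq_zero.2 hS'z
  have hS'm : S'.Monic := monic_of_natDegree_le_of_coeff_eq_one n hS'le hS'n
  have hS'd : S'.natDegree = n := le_antisymm hS'le
    (le_natDegree_of_ne_zero (by rw [hS'n]; exact one_ne_zero))
  have hS'1 : ∀ i, ‖S'.coeff i‖ ≤ 1 := by
    intro i
    rcases lt_trichotomy i n with h | h | h
    · rw [hS', hco, hpow i h.le, norm_mul]
      obtain ⟨m, hm⟩ : ∃ m, n - i = m + 1 := ⟨n - i - 1, by omega⟩
      rw [hm, pow_succ', norm_mul, norm_inv]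
      calc ‖S.coeff i‖ * (‖c‖⁻¹ * ‖c⁻¹ ^ m‖) ≤ ‖c‖ * (‖c‖⁻¹ * 1) := by
            refine mul_le_mul ((hM i).trans hr) ?_ (by positivity) hc0.le
            exact mul_le_mul_of_nonneg_left (hci m) (by positivity)
        _ = 1 := by rw [mul_one, mul_inv_cancel₀ hc0.ne']
    · rw [h, hS'n, norm_one]
    · rw [hS'z i h, norm_zero]; exact zero_le_one
  have hP'd : P'.degree ≤ S'.degree := by
    rw [degree_eq_natDegree hS'm.ne_zero, hS'd, degree_le_iff_coeff_zero]
    intro i hi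
    have hi' : n < i := by exact_mod_cast hi
    have h1 : P.natDegree ≤ n := natDegree_le_natDegree hd
    rw [hP', hco, coeff_eq_zero_of_natDegree_lt (h1.trans_lt hi'), zero_mul, mul_zero]
  have hP'b : gp P' ≤ gp P := by
    rw [gp_le_iff]
    intro i
    by_cases hi : i ≤ n
    · rw [hP', hco, hpow i hi, norm_mul]
      calc ‖P.coeff i‖ * ‖c⁻¹ ^ (n - i)‖ ≤ gp P * 1 :=
            mul_le_mul (norm_coeff_le P i) (hci _) (norm_nonneg _) (gp_nonneg _)
        _ = gp P := mul_one _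
    · have h1 : P.natDegree ≤ n := natDegree_le_natDegree hd
      rw [hP', hco, coeff_eq_zero_of_natDegree_lt (h1.trans_lt (not_le.1 hi)), zero_mul, mul_zero,
        norm_zero]
      exact gp_nonneg _
  have hfrac : scale c hc (algebraMap C[X] (RatFunc C) P / algebraMap C[X] (RatFunc C) S) =
      algebraMap C[X] (RatFunc C) P' / algebraMap C[X] (RatFunc C) S' := by
    rw [map_div₀, scale_poly, scale_poly, hP', hS', map_mul, map_mul,
      mul_div_mul_left _ _ (RatFunc.algebraMap_ne_zero (C_ne_zero.2 hcn))]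
  have hmem : scale c hc (algebraMap C[X] (RatFunc C) P / algebraMap C[X] (RatFunc C) S) ∈
      pre2 C := ⟨P', S', hS'm, hP'd, hS'1, hfrac⟩
  refine ⟨(i2 ⟨_, hmem⟩).2, ?_⟩
  have hS'g : gp S' = 1 := by
    refine le_antisymm (gp_le_iff.2 hS'1) ?_
    have := norm_coeff_le S' n
    rwa [hS'n, norm_one] at this
  rw [P025H373.norm_algebraMap, hfrac, gauss_div, hS'g, div_one]
  exact hP'b

section

variable {K : Type v} [Field K] [Algebra C K] [Algebra (RatFunc C) K]
  [IsScalarTower C (RatFunc C) K]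

/-- `A2 → F2r ⊗ K` -/
noncomputable def kD (c : Cˣ) (K : Type v) [Field K] [Algebra (RatFunc C) K] :
    A2 C →+* F2r C c ⊗[RatFunc C] K :=
  (Algebra.TensorProduct.includeLeftRingHom : F2r C c →+* F2r C c ⊗[RatFunc C] K).comp j2

/-- `K → F2r ⊗ K` -/
noncomputable def rD (c : Cˣ) (K : Type v) [Field K] [Algebra (RatFunc C) K] :
    K →+* F2r C c ⊗[RatFunc C] K :=
  (Algebra.TensorProduct.includeRight : K →ₐ[RatFunc C] F2r C c ⊗[RatFunc C] K).toRingHom

lemma rD_apply (c : Cˣ) (x : K) : rD c K x = 1 ⊗ₜ x := rfl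

lemma kD_of (c : Cˣ) {a : A2 C} {f : RatFunc C}
    (h : j2 a = (algebraMap (RatFunc C) (F2 C) (scale (c : C) c.ne_zero f))) :
    kD c K a = rD c K (algebraMap (RatFunc C) K f) := by
  have h1 : kD c K a = (algebraMap (RatFunc C) (F2r C c) f) ⊗ₜ 1 := congrArg
    (fun z : F2r C c => (z ⊗ₜ 1 : F2r C c ⊗[RatFunc C] K)) h
  rw [h1, rD_apply, Algebra.algebraMap_eq_smul_one, Algebra.algebraMap_eq_smul_one (A := K),
    TensorProduct.smul_tmul]

lemma kD_C (c : Cˣ) (a : C) : kD c K (algebraMap C (A2 C) a) = rD c K (algebraMap C K a) := by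
  rw [kD_of (K := K) (c := c) (a := algebraMap C (A2 C) a) (f := RatFunc.C a)]
  · rw [IsScalarTower.algebraMap_apply C (RatFunc C) K]
    rfl
  · have h1 : scale (c : C) c.ne_zero (RatFunc.C a) = RatFunc.C a :=
      (scale (c : C) c.ne_zero).commutes a
    rw [h1]
    rfl

/-- **choice of the radius**: `m ^ n t` is integral over the functions regular at infinity -/
theorem exists_coef2 {n : ℕ} (hn : 0 < n) (m w : K)
    (hw : m ^ n * algebraMap (RatFunc C) K RatFunc.X = w)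
    (p : (Oi C)[X]) (hp : p.Monic)
    (hpw : eval₂ ((algebraMap (RatFunc C) K).comp (Oi C).subtype) w p = 0) :
    ∃ r : ℝ, ∀ c : Cˣ, r ≤ ‖(c : C)‖ → ∃ μ : (A2 C)[X], μ.Monic ∧
      (∀ n < μ.natDegree, ‖μ.coeff n‖ < 1) ∧ eval₂ (kD c K) (rD c K m) μ = 0 := by
  have hnc : NormOneClass (A2 C) := ⟨(norm_one : ‖(1 : F0 C)‖ = 1)⟩
  have hnt : Nontrivial (A2 C) := hnc.nontrivial
  -- a common bound
  choose r M hr1 hM0 hrM using fun i : ℕ => exists_mem_A2 (p.coeff i).2
  set R : ℝ := 1 + ∑ i ∈ Finset.range (p.natDegree + 1), (r i + M i) with hR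
  have hRi : ∀ i ≤ p.natDegree, r i ≤ R - 1 ∧ M i ≤ R - 1 := by
    intro i hi
    have h1 := Finset.single_le_sum (f := fun i => r i + M i)
      (fun i _ => add_nonneg (zero_le_one.trans (hr1 i)) (hM0 i))
      (Finset.mem_range.2 (Nat.lt_succ_of_le hi))
    have h2 := hr1 i
    have h3 := hM0 i
    constructor <;> linarith
  have hR1 : 1 ≤ R := by
    have h2 := hr1 0
    have h3 := (hRi 0 (Nat.zero_le _)).1
    linarith
  refine ⟨R, fun c hc => ?_⟩
  have hc0 : (c : C) ≠ 0 := c.ne_zero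
  have hcpos : 0 < ‖(c : C)‖ := norm_pos_iff.2 hc0
  -- the polynomial over `A2`
  have hmem : ∀ i, ∃ a : A2 C, j2 a = (algebraMap (RatFunc C) (F2 C)
      (scale (c : C) hc0 (p.coeff i : RatFunc C))) ∧ ‖a‖ ≤ R - 1 := by
    intro i
    by_cases hi : i ≤ p.natDegree
    · obtain ⟨h1, h2⟩ := hrM i c hc0 (by linarith [(hRi i hi).1])
      exact ⟨⟨_, h1⟩, rfl, h2.trans (hRi i hi).2⟩
    · refine ⟨0, ?_, ?_⟩
      · rw [coeff_eq_zero_of_natDegree_lt (not_le.1 hi), map_zero]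
        show (0 : F2 C) = algebraMap (RatFunc C) (F2 C) (scale (c : C) hc0 0)
        rw [map_zero, map_zero]
      · rw [norm_zero]; linarith
  let ρ : Oi C →+* F2 C := (algebraMap (RatFunc C) (F2 C)).comp
    ((scale (c : C) hc0 : RatFunc C →+* RatFunc C).comp (Oi C).subtype)
  have hj : Function.Injective (j2 : A2 C →+* F2 C) := fun x y hxy =>
    Subtype.ext (congrArg (fun z : F2 C => (z : F0 C)) hxy)
  have hl : p.map ρ ∈ lifts (j2 : A2 C →+* F2 C) := by
    rw [lifts_iff_coeff_lifts]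
    intro i
    obtain ⟨a, ha, -⟩ := hmem i
    rw [coeff_map]
    exact ⟨a, ha⟩
  obtain ⟨q, hq, hqd, hqm⟩ := lifts_and_natDegree_eq_and_monic hl (hp.map ρ)
  have hqM : ∀ i, ‖q.coeff i‖ ≤ R - 1 := by
    intro i
    obtain ⟨a, ha, hab⟩ := hmem i
    have h1 : q.coeff i = a := by
      apply hj
      rw [ha, ← coeff_map, hq, coeff_map]
      rfl
    rw [h1]
    exact hab
  -- the root
  have hqw : eval₂ (kD c K) (rD c K w) q = 0 := by
    let inc : F2 C →+* F2r C c ⊗[RatFunc C] K :=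
      (Algebra.TensorProduct.includeLeftRingHom : F2r C c →+* F2r C c ⊗[RatFunc C] K)
    have hk : kD c K = inc.comp j2 := rfl
    have h1 : eval₂ (kD c K) (rD c K w) q = eval₂ inc (rD c K w) (q.map j2) := by
      rw [hk, eval₂_map]
    have h3 : inc.comp ρ = (rD c K).comp ((algebraMap (RatFunc C) K).comp (Oi C).subtype) := by
      apply RingHom.ext
      intro f
      have h4 : (inc.comp ρ) f = (algebraMap (RatFunc C) (F2r C c) (f : RatFunc C)) ⊗ₜ 1 := rfl
      rw [h4, RingHom.comp_apply, rD_apply, RingHom.comp_apply,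
        Algebra.algebraMap_eq_smul_one, Algebra.algebraMap_eq_smul_one (A := K),
        TensorProduct.smul_tmul]
      rfl
    rw [h1, hq, eval₂_map, h3, ← hom_eval₂, hpw, map_zero]
  -- `1 / t`
  have hX0 : algebraMap (RatFunc C) K RatFunc.X ≠ 0 := by
    rw [_root_.map_ne_zero]
    exact RatFunc.X_ne_zero
  set s : A2 C := algebraMap C (A2 C) (c : C)⁻¹ * i2 (rv X) with hs
  have hsk : kD c K s = rD c K (algebraMap (RatFunc C) K RatFunc.X)⁻¹ := by
    have h1 : j2 s = (algebraMap (RatFunc C) (F2 C) (scale (c : C) c.ne_zero RatFunc.X⁻¹)) := by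
      rw [map_inv₀, scale_X, mul_inv, map_mul, map_mul, j2_i2, coe_rv, aeval_X]
      congr 1
      have h2 : (RatFunc.C (c : C))⁻¹ = RatFunc.C (c : C)⁻¹ := (map_inv₀ RatFunc.C _).symm
      rw [h2]
      rfl
    rw [kD_of c h1, map_inv₀]
  have hns : ‖s‖ ≤ ‖(c : C)‖⁻¹ := by
    have h1 : ‖(i2 (rv (X : C[X])) : A2 C)‖ ≤ 1 := by
      have h2 : ‖(i2 (rv (X : C[X])) : A2 C)‖ = ‖(tt C)⁻¹‖ := by
        have h3 : ((i2 (rv (X : C[X])) : A2 C) : F0 C) = (tt C)⁻¹ := by
          rw [coe_i2, coe_rv, aeval_X, map_inv₀]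
          rfl
        rw [← h3]
        rfl
      rw [h2, norm_inv, norm_tt, inv_one]
    have h2 : ‖algebraMap C (A2 C) (c : C)⁻¹‖ = ‖(c : C)‖⁻¹ := by
      rw [← norm_inv]
      exact norm_algebraMap_C _
    calc ‖s‖ ≤ ‖algebraMap C (A2 C) (c : C)⁻¹‖ * ‖(i2 (rv (X : C[X])) : A2 C)‖ :=
          norm_mul_le _ _
      _ ≤ ‖(c : C)‖⁻¹ * 1 := by
          rw [h2]
          exact mul_le_mul_of_nonneg_left h1 (by positivity)
      _ = ‖(c : C)‖⁻¹ := mul_one _
  have hs1 : ‖s‖ ≤ 1 := hns.trans (inv_le_one_of_one_le₀ (hR1.trans hc))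
  have hMs : (R - 1) * ‖s‖ < 1 := by
    calc (R - 1) * ‖s‖ ≤ (R - 1) * ‖(c : C)‖⁻¹ :=
          mul_le_mul_of_nonneg_left hns (by linarith)
      _ < ‖(c : C)‖ * ‖(c : C)‖⁻¹ :=
          mul_lt_mul_of_pos_right (by linarith) (inv_pos.2 hcpos)
      _ = 1 := mul_inv_cancel₀ hcpos.ne'
  have hmon : (q.scaleRoots s).Monic := (monic_scaleRoots_iff s).2 hqm
  refine ⟨expand (A2 C) n (q.scaleRoots s), hmon.expand hn, fun i hi => ?_, ?_⟩
  · rw [natDegree_expand, natDegree_scaleRoots] at hi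
    rw [coeff_expand hn]
    split_ifs
    · refine (scaleRoots_small hqM hMs.le hs1 (by linarith) ?_).trans_lt hMs
      exact (Nat.div_lt_iff_lt_mul hn).2 hi
    · rw [norm_zero]; exact zero_lt_one
  · have h1 : eval₂ (kD c K) (rD c K m) (expand (A2 C) n (q.scaleRoots s)) =
        eval₂ (kD c K) (rD c K m ^ n) (q.scaleRoots s) := by
      rw [expand_eq_comp_X_pow, eval₂_comp, eval₂_pow, eval₂_X]
    have h2 : rD c K m ^ n = kD c K s * rD c K w := by
      rw [hsk, ← map_mul, ← map_pow, ← hw]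
      congr 1
      rw [mul_comm (m ^ n), ← mul_assoc, inv_mul_cancel₀ hX0, one_mul]
    rw [h1, h2]
    exact scaleRoots_eval₂_eq_zero (kD c K) hqw

end

end P025H450
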