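import Vale.Agent.P025.R2.H450.Tate

/-! # The complete normed ring `A[X] / (μ)` -/

open Polynomial

namespace P025H450

section

variable {A : Type*} [NormedCommRing A] [IsUltrametricDist A] [Nontrivial A]
  {μ : A[X]} (hμ : μ.Monic) (hb : Bd μ 1)

lemma nrm_complete [CompleteSpace A] :
    @CompleteSpace (AdjoinRoot μ) (nrm hμ hb).toPseudoMetricSpace.toUniformSpace := by
  let _ : NormedCommRing (AdjoinRoot μ) := nrm hμ hb
  have hnorm : ∀ x : AdjoinRoot μ, ‖x‖ = ‖crd hμ x‖ := fun x => rfl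
  have hiso : Isometry (crd hμ) :=
    AddMonoidHomClass.isometry_of_norm (crd hμ) (fun x => (hnorm x).symm)
  have h1 : IsUniformInducing (crd hμ) := hiso.isUniformInducing
  rw [h1.completeSpace_congr (crd hμ).surjective]
  infer_instance

lemma nrm_ultra :
    @IsUltrametricDist (AdjoinRoot μ) (nrm hμ hb).toPseudoMetricSpace.toDist := by
  let _ : NormedCommRing (AdjoinRoot μ) := nrm hμ hb
  refine IsUltrametricDist.isUltrametricDist_of_forall_norm_add_le_max_norm fun x y => ?_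
  show ‖crd hμ (x + y)‖ ≤ max ‖crd hμ x‖ ‖crd hμ y‖
  rw [map_add, pi_norm_le_iff_of_nonneg (le_max_of_le_left (norm_nonneg _))]
  intro i
  exact (IsUltrametricDist.norm_add_le_max _ _).trans
    (max_le_max (norm_le_pi_norm (crd hμ x) i) (norm_le_pi_norm (crd hμ y) i))

lemma nrm_mk_le {P : A[X]} {r : ℝ} (hr : 0 ≤ r) (hP : Bd P r) :
    (nrm hμ hb).norm (AdjoinRoot.mk μ P) ≤ r := by
  show ‖crd hμ (AdjoinRoot.mk μ P)‖ ≤ r
  rw [pi_norm_le_iff_of_nonneg hr]
  intro j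
  rw [crd_apply]
  exact Bd.modByMonic hμ hb hr _ _ (Nat.lt_succ_self _) hP j

lemma nrm_of_le (a : A) : (nrm hμ hb).norm (AdjoinRoot.of μ a) ≤ ‖a‖ := by
  refine nrm_mk_le hμ hb (norm_nonneg _) (fun n => ?_)
  rw [coeff_C]
  split_ifs
  · exact le_rfl
  · rw [norm_zero]; exact norm_nonneg _

lemma nrm_root_le [NormOneClass A] : (nrm hμ hb).norm (AdjoinRoot.root μ) ≤ 1 := by
  refine nrm_mk_le hμ hb zero_le_one (fun n => ?_)
  rw [coeff_X]
  split_ifs
  · exact norm_one.le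
  · rw [norm_zero]; exact zero_le_one

lemma nrm_root_pow_le {δ : ℝ} (hδ : 0 ≤ δ) (h : ∀ i < μ.natDegree, ‖μ.coeff i‖ ≤ δ) :
    (nrm hμ hb).norm (AdjoinRoot.root μ ^ μ.natDegree) ≤ δ := by
  have h1 : AdjoinRoot.root μ ^ μ.natDegree = AdjoinRoot.mk μ (X ^ μ.natDegree - μ) := by
    rw [map_sub, AdjoinRoot.mk_self, sub_zero, map_pow, AdjoinRoot.mk_X]
  rw [h1]
  refine nrm_mk_le hμ hb hδ (fun n => ?_)
  rw [coeff_sub, coeff_X_pow]
  rcases lt_trichotomy n μ.natDegree with h2 | h2 | h2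
  · rw [if_neg h2.ne, zero_sub, norm_neg]
    exact h n h2
  · rw [if_pos h2, h2, hμ.coeff_natDegree, sub_self, norm_zero]
    exact hδ
  · rw [if_neg h2.ne', coeff_eq_zero_of_natDegree_lt h2, sub_self, norm_zero]
    exact hδ

end

/-! ### inverses in complete ultrametric rings -/

section inv

variable {B : Type*} [NormedCommRing B] [IsUltrametricDist B]

lemma norm_pow_le_one' [NormOneClass B] {x : B} (hx : ‖x‖ ≤ 1) (n : ℕ) : ‖x ^ n‖ ≤ 1 := by
  induction n with
  | zero => rw [pow_zero, norm_one]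
  | succ n ih =>
    rw [pow_succ]
    calc _ ≤ ‖x ^ n‖ * ‖x‖ := norm_mul_le _ _
      _ ≤ 1 * 1 := mul_le_mul ih hx (norm_nonneg _) zero_le_one
      _ = 1 := one_mul 1

end inv

end P025H450
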