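import Vale.Agent.P025.R2.H450.Coef2
import Vale.Agent.P025.R2.H450.RnsDef

/-! # G-MONO: transport of the data of RNS under the restriction homomorphisms -/

open Polynomial TensorProduct

namespace P025H450

open P025H373 P025H628 P025H544 P025H492 P025H837 Vale.Agent.P019P

universe u v

variable {C : Type u} [NontriviallyNormedField C] [IsUltrametricDist C] [CompleteSpace C]
  [IsAlgClosed C]

/-- elements of nonzero order are transcendental -/
lemma transcendental_of_ord {C K : Type*} [Field C] [IsAlgClosed C] [Field K] [Algebra C K]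
    [CFF C K] {P : Plk C K} {y : K} (h : ord P y ≠ 0) : Transcendental C y := by
  intro hy
  have h1 : (minpoly C y).degree = 1 :=
    IsAlgClosed.degree_eq_one_of_irreducible C (minpoly.irreducible hy.isIntegral)
  obtain ⟨a, ha⟩ := minpoly.mem_range_of_degree_eq_one C y h1
  rw [← ha, ord_const] at h
  exact h rfl

section psi

variable {K' K : Type v} [Field K'] [Field K] [Algebra C K'] [Algebra C K]
  [Algebra (RatFunc C) K'] [Algebra (RatFunc C) K] [IsScalarTower C (RatFunc C) K']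
  [IsScalarTower C (RatFunc C) K]

/-- restriction from `|t₀| ≤ ‖c'‖` to `|T| ≤ ‖c‖` -/
theorem exists_psiV [CFF C K] (e : K' ≃ₐ[C] K) (P : Plk C K)
    (h0 : ∀ Q : Plk C K, ord Q (e (algebraMap (RatFunc C) K' RatFunc.X)) < 0 ↔ Q = P)
    (c : Cˣ) (τ : RatFunc C)
    (hτ : ((algebraMap (RatFunc C) (F1 C) (scale (c : C) c.ne_zero τ) : F1 C) : F0 C) ∈ A1 C)
    (hτP : ord P (algebraMap (RatFunc C) K τ) < 0) :
    ∃ r : ℝ, ∀ c' : Cˣ, r ≤ ‖(c' : C)‖ → ∃ ψ : F1r C c' →+* F1r C c ⊗[RatFunc C] K,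
      ∀ f : RatFunc C, ψ (algebraMap (RatFunc C) (F1r C c') f) =
        1 ⊗ₜ e (algebraMap (RatFunc C) K' f) := by
  set y : K := e (algebraMap (RatFunc C) K' RatFunc.X) with hy
  have hyP : ord P y < 0 := (h0 P).2 rfl
  have hytr : Transcendental C (algebraMap (RatFunc C) K' RatFunc.X) := by
    intro h
    exact transcendental_of_ord hyP.ne ((isAlgebraic_algHom_iff e.toAlgHom e.injective).2 h)
  obtain ⟨p, hp, hpy⟩ := integral_of_places (C := C)
    ((aeval (algebraMap (RatFunc C) K τ) : C[X] →ₐ[C] K) : C[X] →+* K)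
    (fun a => ⟨Polynomial.C a, aeval_C _ _⟩) y (fun Q hQ => by
      have h1 : algebraMap (RatFunc C) K τ ∈ Q.1 := by
        have := hQ X
        rwa [show ((aeval (algebraMap (RatFunc C) K τ) : C[X] →ₐ[C] K) : C[X] →+* K) X =
          algebraMap (RatFunc C) K τ from aeval_X _] at this
      have h2 : Q ≠ P := by
        rintro rfl
        rcases (mem_iff_ord Q _).1 h1 with h3 | h3
        · rw [h3, ord_zero] at hτP
          exact lt_irrefl _ hτP
        · omega
      rw [mem_iff_ord]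
      right
      by_contra h3
      exact h2 ((h0 Q).1 (not_le.1 h3)))
  obtain ⟨r, hr⟩ := exists_coef1 c τ hτ y p hp hpy
  refine ⟨r, fun c' hc' => ?_⟩
  obtain ⟨μ, hμ, hbd, hroot⟩ := hr c' hc'
  exact exists_res1 c' (kV c K) (rV c K) (kV_C c) e.toAlgHom hytr μ hμ hbd hroot

/-- restriction from `|T| > ‖c‖` to `|t₀| > ‖c'‖` -/
theorem exists_psiD [CFF C K] (e : K' ≃ₐ[C] K) (P : Plk C K)
    (h0 : ∀ Q : Plk C K, ord Q (e (algebraMap (RatFunc C) K' RatFunc.X)) < 0 ↔ Q = P)
    (htr : Transcendental C (algebraMap (RatFunc C) K RatFunc.X)) (c : Cˣ) (a : C) (ha : ‖a‖ < 1)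
    (hP : 0 < ord P (algebraMap C K (c : C) * (algebraMap (RatFunc C) K RatFunc.X)⁻¹ -
      algebraMap C K a)) :
    ∃ r : ℝ, ∀ c' : Cˣ, r ≤ ‖(c' : C)‖ → ∃ ψ : F2r C c →+* F2r C c' ⊗[RatFunc C] K',
      ∀ f : RatFunc C, ψ (algebraMap (RatFunc C) (F2r C c) f) =
        1 ⊗ₜ e.symm (algebraMap (RatFunc C) K f) := by
  set y : K := e (algebraMap (RatFunc C) K' RatFunc.X) with hy
  set m : K := algebraMap C K (c : C) * (algebraMap (RatFunc C) K RatFunc.X)⁻¹ -
      algebraMap C K a with hm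
  have hyP : ord P y < 0 := (h0 P).2 rfl
  have hy0 : y ≠ 0 := by
    intro h
    rw [h, ord_zero] at hyP
    exact lt_irrefl _ hyP
  have hm0 : m ≠ 0 := by
    intro h
    rw [h, ord_zero] at hP
    exact lt_irrefl _ hP
  obtain ⟨n, hn⟩ : ∃ n : ℕ, (n : ℤ) = - ord P y := ⟨(- ord P y).toNat, by omega⟩
  have hnpos : 0 < n := by omega
  have hw0 : 0 ≤ ord P (m ^ n * y) := by
    rw [ord_mul P (pow_ne_zero _ hm0) hy0, ord_pow]
    nlinarith
  let f : Oi C →+* K := (e : K' →+* K).comp ((algebraMap (RatFunc C) K').comp (Oi C).subtype)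
  have hf : ∀ g : Oi C, f g = e (algebraMap (RatFunc C) K' g) := fun g => rfl
  have hCe : ∀ a : C, e (algebraMap (RatFunc C) K' (RatFunc.C a)) = algebraMap C K a := by
    intro a
    have h2 : algebraMap (RatFunc C) K' (RatFunc.C a) = algebraMap C K' a :=
      (IsScalarTower.algebraMap_apply C (RatFunc C) K' a).symm
    rw [h2, AlgEquiv.commutes]
  obtain ⟨p, hp, hpw⟩ := integral_of_places (C := C) f
    (fun a => ⟨⟨RatFunc.C a, C_mem_Oi a⟩, by rw [hf]; exact hCe a⟩) (m ^ n * y) (fun Q hQ => by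
      have h2 : ord Q y < 0 := by
        by_contra h3
        have h4 : y ∈ Q.1 := (mem_iff_ord Q y).2 (Or.inr (not_lt.1 h3))
        obtain ⟨a, ha'⟩ := exists_cst Q h4
        have h5 : y ≠ algebraMap C K a := by
          intro h6
          rw [h6, ord_const] at hyP
          exact lt_irrefl _ hyP
        have h6 := ha'.resolve_left h5
        have h7 := hQ ⟨_, inv_sub_mem_Oi a⟩
        rw [hf] at h7
        have h8 : e (algebraMap (RatFunc C) K' ((RatFunc.X - RatFunc.C a)⁻¹)) =
            (y - algebraMap C K a)⁻¹ := by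
          rw [map_inv₀, map_inv₀, map_sub, map_sub, hCe]
        have h9 : (y - algebraMap C K a)⁻¹ ∈ Q.1 := by
          rw [← h8]
          exact h7
        rcases (mem_iff_ord Q _).1 h9 with h10 | h10
        · rw [inv_eq_zero, sub_eq_zero] at h10
          exact h5 h10
        · rw [ord_inv] at h10
          omega
      have h3 : Q = P := (h0 Q).1 h2
      rw [h3]
      exact (mem_iff_ord P _).2 (Or.inr hw0))
  -- in `K'`
  have hpw' : eval₂ ((algebraMap (RatFunc C) K').comp (Oi C).subtype) (e.symm (m ^ n * y)) p =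
      0 := by
    apply e.injective
    rw [map_zero, ← hpw]
    have h1 := hom_eval₂ p ((algebraMap (RatFunc C) K').comp (Oi C).subtype) (e : K' →+* K)
      (e.symm (m ^ n * y))
    have h2 : (e : K' →+* K) (e.symm (m ^ n * y)) = m ^ n * y := e.apply_symm_apply _
    rw [h2] at h1
    exact h1
  have hw : (e.symm m) ^ n * algebraMap (RatFunc C) K' RatFunc.X = e.symm (m ^ n * y) := by
    rw [map_mul, map_pow, hy, e.symm_apply_apply]
  obtain ⟨r, hr⟩ := exists_coef2 hnpos (e.symm m) (e.symm (m ^ n * y)) hw p hp hpw'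
  refine ⟨r, fun c' hc' => ?_⟩
  obtain ⟨μ, hμ, hbd, hroot⟩ := hr c' hc'
  have hem : e.symm m = algebraMap C K' (c : C) *
      (e.symm.toAlgHom (algebraMap (RatFunc C) K RatFunc.X))⁻¹ - algebraMap C K' a := by
    rw [hm, map_sub, map_mul, map_inv₀, AlgEquiv.commutes, AlgEquiv.commutes]
    rfl
  rw [hem] at hroot
  exact exists_res2 c (kD c' K') (rD c' K') (kD_C c') e.symm.toAlgHom htr μ hμ hbd a ha hroot

end psi

end P025H450
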