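import Vale.Agent.P025.R2.H450.Comp
import Vale.Agent.P025.R2.H373.Spec

/-! # Evaluation of elements of `A1` and `F1` -/

open Polynomial

namespace P025H450

open P025H373

universe u

variable {C : Type u} [NontriviallyNormedField C] [IsUltrametricDist C] [CompleteSpace C]
  [IsAlgClosed C]

lemma norm_aeval_tt (P : C[X]) : ‖aeval (tt C) P‖ = gp P := by
  have h := algebraMap_poly_eq P
  rw [tt, ← h, P025H373.norm_algebraMap, gauss_poly]

/-- evaluation `C[t] → A1` -/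
noncomputable def iA : C[X] →+* A1 C :=
  ((aeval (⟨tt C, tt_mem_A1⟩ : A1 C) : C[X] →ₐ[C] A1 C) : C[X] →+* A1 C)

lemma coe_iA (P : C[X]) : ((iA P : A1 C) : F0 C) = aeval (tt C) P := by
  have h : ((A1 C).val) (aeval (⟨tt C, tt_mem_A1⟩ : A1 C) P) = aeval (tt C) P := by
    rw [← aeval_algHom_apply]
    rfl
  exact h

lemma norm_iA (P : C[X]) : ‖(iA P : A1 C)‖ = gp P := by
  rw [← norm_aeval_tt, ← coe_iA]
  rfl

lemma iA_C (c : C) : iA (Polynomial.C c) = algebraMap C (A1 C) c := by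
  rw [iA]
  exact aeval_C _ c

lemma denseRange_iA : DenseRange (iA : C[X] →+* A1 C) := by
  intro x
  have hx : (x : F0 C) ∈ closure ((Algebra.adjoin C {tt C} : Subalgebra C (F0 C)) : Set (F0 C)) :=
    x.2
  rw [Metric.mem_closure_iff] at hx ⊢
  intro ε hε
  obtain ⟨b, hb, hd⟩ := hx ε hε
  rw [SetLike.mem_coe, Algebra.adjoin_singleton_eq_range_aeval] at hb
  obtain ⟨P, rfl⟩ := hb
  refine ⟨iA P, ⟨P, rfl⟩, ?_⟩
  have h2 : dist x (iA P) = dist (x : F0 C) ((iA P : A1 C) : F0 C) := rfl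
  rw [h2, coe_iA]
  exact hd

lemma A1_le_F1 {x : F0 C} (hx : x ∈ A1 C) : x ∈ F1 C :=
  IntermediateField.subset_adjoin _ _ hx

/-- `A1 → F1` -/
noncomputable def jA : A1 C →+* F1 C where
  toFun x := ⟨x, A1_le_F1 x.2⟩
  map_one' := rfl
  map_mul' _ _ := rfl
  map_zero' := rfl
  map_add' _ _ := rfl

lemma coe_jA (x : A1 C) : ((jA x : F1 C) : F0 C) = x := rfl

lemma jA_iA (P : C[X]) : jA (iA P : A1 C) = algebraMap (RatFunc C) (F1 C)
    (algebraMap C[X] (RatFunc C) P) := by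
  apply Subtype.ext
  rw [coe_jA, coe_iA]
  exact (algebraMap_poly_eq P).symm

theorem isFractionRing_jA : @IsFractionRing (A1 C) _ (F1 C) _ jA.toAlgebra := by
  let _ : Algebra (A1 C) (F1 C) := jA.toAlgebra
  have hf : FaithfulSMul (A1 C) (F1 C) := by
    rw [faithfulSMul_iff_algebraMap_injective]
    intro x y hxy
    exact Subtype.ext (congrArg (fun z : F1 C => (z : F0 C)) hxy)
  refine IsFractionRing.of_field (A1 C) (F1 C) (fun z => ?_)
  obtain ⟨a, ha, P, hP, -, hz⟩ := mem_F1_iff_div.1 z.2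
  refine ⟨⟨a, ha⟩, iA P, ?_⟩
  apply Subtype.ext
  rw [hz]
  have h1 : ((algebraMap (A1 C) (F1 C) ⟨a, ha⟩ / algebraMap (A1 C) (F1 C) (iA P) : F1 C) : F0 C) =
      a / ((iA P : A1 C) : F0 C) := rfl
  rw [h1, coe_iA]

/-- a ring homomorphism `A1 → B` under which nonzero polynomials become units extends to `F1` -/
theorem exists_extend_F1 {B : Type*} [CommRing B] (φ : A1 C →+* B)
    (h : ∀ P : C[X], P ≠ 0 → IsUnit (φ (iA P))) :
    ∃ ψ : F1 C →+* B, ∀ x, ψ (jA x) = φ x := by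
  let _ : Algebra (A1 C) (F1 C) := jA.toAlgebra
  have hfr : IsFractionRing (A1 C) (F1 C) := isFractionRing_jA
  have hcs : CompleteSpace (A1 C) := isClosed_A1.completeSpace_coe
  have hu : ∀ y : nonZeroDivisors (A1 C), IsUnit (φ y) := by
    intro y
    have hy0 : ((y : A1 C) : F0 C) ≠ 0 := by
      intro h0
      exact nonZeroDivisors.ne_zero y.2 (Subtype.ext h0)
    obtain ⟨P, hP, -, -, c, hc, g, hg, hg1, hy⟩ := weierstrass_A1 (y : A1 C).2 hy0
    have h1 : (y : A1 C) = iA P * iA (Polynomial.C c) * (1 + ⟨g, hg⟩) := by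
      apply Subtype.ext
      have h2 : ((iA P * iA (Polynomial.C c) * (1 + ⟨g, hg⟩) : A1 C) : F0 C) =
          ((iA P : A1 C) : F0 C) * ((iA (Polynomial.C c) : A1 C) : F0 C) * (1 + g) := rfl
      rw [h2, coe_iA, coe_iA, aeval_C, ← hy]
    rw [h1, map_mul, map_mul]
    refine ((h P hP.ne_zero).mul (h _ (by simpa using hc))).mul ?_
    apply IsUnit.map
    have h3 : (1 + ⟨g, hg⟩ : A1 C) = 1 - (-⟨g, hg⟩) := by ring
    rw [h3]
    apply isUnit_one_sub_of_norm_lt_one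
    rw [norm_neg]
    exact hg1
  refine ⟨IsLocalization.lift (M := nonZeroDivisors (A1 C)) hu, fun x => ?_⟩
  exact IsLocalization.lift_eq hu x

lemma norm_mul_pow_le {B : Type*} [NormedCommRing B] {b : B} (hb : ‖b‖ ≤ 1) (x : B) (n : ℕ) :
    ‖x * b ^ n‖ ≤ ‖x‖ := by
  induction n with
  | zero => rw [pow_zero, mul_one]
  | succ n ih =>
    rw [pow_succ, ← mul_assoc]
    calc _ ≤ ‖x * b ^ n‖ * ‖b‖ := norm_mul_le _ _
      _ ≤ ‖x‖ * 1 := mul_le_mul ih hb (norm_nonneg _) (norm_nonneg _)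
      _ = ‖x‖ := mul_one _

lemma norm_eval₂_le {B : Type*} [NormedCommRing B] [IsUltrametricDist B] (ι : C →+* B)
    (hι : ∀ c, ‖ι c‖ ≤ ‖c‖) {b : B} (hb : ‖b‖ ≤ 1) (P : C[X]) : ‖eval₂ ι b P‖ ≤ gp P := by
  rw [eval₂_eq_sum, Polynomial.sum]
  refine norm_sum_le_of _ _ (gp_nonneg _) (fun n _ => ?_)
  exact (norm_mul_pow_le hb _ n).trans ((hι _).trans (norm_coeff_le P n))

/-- **evaluation of convergent power series** -/
theorem exists_ev1 {B : Type*} [NormedCommRing B] [IsUltrametricDist B] [CompleteSpace B]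
    (ι : C →+* B) (hι : ∀ c, ‖ι c‖ ≤ ‖c‖) {b : B} (hb : ‖b‖ ≤ 1) :
    ∃ φ : A1 C →+* B, ∀ P, φ (iA P) = eval₂ ι b P := by
  let f : C[X] →+* B := eval₂RingHom ι b
  have hf : ∀ P, ‖f P‖ ≤ gp P := norm_eval₂_le ι hι hb
  let _ : SeminormedCommRing C[X] := SeminormedCommRing.induced C[X] (A1 C) iA
  have hnP : ∀ P : C[X], ‖P‖ = ‖(iA P : A1 C)‖ := fun P => rfl
  have hui : IsUniformInducing (iA : C[X] →+* A1 C) :=
    (AddMonoidHomClass.isometry_of_norm iA (fun P => (hnP P).symm)).isUniformInducing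
  have huc : UniformContinuous f :=
    AddMonoidHomClass.uniformContinuous_of_bound f 1
      (fun P => by rw [one_mul, hnP, norm_iA]; exact hf P)
  refine ⟨IsDenseInducing.extendRingHom hui denseRange_iA huc, fun P => ?_⟩
  exact IsDenseInducing.extend_eq (hui.isDenseInducing denseRange_iA) huc.continuous P

/-- **Evaluation of elements of `F1` at an integral element.** -/
theorem exists_int1 {A : Type*} [NormedCommRing A] [NormOneClass A] [IsUltrametricDist A]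
    [CompleteSpace A] (ι : C →+* A) (hι : ∀ c, ‖ι c‖ ≤ ‖c‖) {B : Type*} [CommRing B]
    (k : A →+* B) (b : B) (μ : A[X]) (hμ : μ.Monic) (hbd : ∀ n, ‖μ.coeff n‖ ≤ 1)
    (hroot : eval₂ k b μ = 0) (hunit : ∀ P : C[X], P ≠ 0 → IsUnit (eval₂ (k.comp ι) b P)) :
    ∃ ψ : F1 C →+* B, ∀ P : C[X],
      ψ (algebraMap (RatFunc C) (F1 C) (algebraMap C[X] (RatFunc C) P)) = eval₂ (k.comp ι) b P := by
  have hnt : Nontrivial A := NormOneClass.nontrivial
  have hbd' : Bd μ 1 := hbd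
  let _ : NormedCommRing (AdjoinRoot μ) := nrm hμ hbd'
  have hcs : CompleteSpace (AdjoinRoot μ) := nrm_complete hμ hbd'
  have hul : IsUltrametricDist (AdjoinRoot μ) := nrm_ultra hμ hbd'
  obtain ⟨φ, hφ⟩ := exists_ev1 ((AdjoinRoot.of μ).comp ι)
    (fun c => (nrm_of_le hμ hbd' (ι c)).trans (hι c)) (nrm_root_le hμ hbd')
  let g : AdjoinRoot μ →+* B := AdjoinRoot.lift k b hroot
  have hg : ∀ P : C[X], (g.comp φ) (iA P) = eval₂ (k.comp ι) b P := by
    intro P
    rw [RingHom.comp_apply, hφ, hom_eval₂, AdjoinRoot.lift_root]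
    congr 1
    apply RingHom.ext
    intro c
    rw [RingHom.comp_apply, RingHom.comp_apply, AdjoinRoot.lift_of, RingHom.comp_apply]
  obtain ⟨ψ, hψ⟩ := exists_extend_F1 (g.comp φ) (fun P hP => by rw [hg]; exact hunit P hP)
  refine ⟨ψ, fun P => ?_⟩
  rw [← jA_iA, hψ, hg]

/-- two ring homomorphisms on `C(t)` which agree on polynomials agree -/
lemma ratFunc_hom_ext {B : Type*} [CommRing B] {f g : RatFunc C →+* B}
    (h : ∀ P : C[X], f (algebraMap C[X] (RatFunc C) P) = g (algebraMap C[X] (RatFunc C) P)) :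
    f = g :=
  IsLocalization.ringHom_ext (nonZeroDivisors C[X]) (RingHom.ext h)

end P025H450
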