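import Vale.Agent.P025.R2.H450.Ev1

/-! # Evaluation of elements of `A2` and `F2` at topologically nilpotent elements -/

open Polynomial

namespace P025H450

open P025H373

universe u

variable {C : Type u} [NontriviallyNormedField C] [IsUltrametricDist C] [CompleteSpace C]
  [IsAlgClosed C]

lemma X_inv_mem : ((RatFunc.X : RatFunc C))⁻¹ ∈ pre2 C := by
  refine ⟨1, X, monic_X, ?_, ?_, ?_⟩
  · rw [degree_X, degree_one]; exact zero_le_one
  · rw [← gp_le_iff, gp_X]
  · rw [map_one, RatFunc.algebraMap_X, one_div]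

/-- `C[v] → pre2`, `v = 1 / t` -/
noncomputable def rv : C[X] →ₐ[C] pre2 C := aeval ⟨(RatFunc.X : RatFunc C)⁻¹, X_inv_mem⟩

lemma coe_rv (P : C[X]) : ((rv P : pre2 C) : RatFunc C) = aeval ((RatFunc.X : RatFunc C)⁻¹) P := by
  have h : ((pre2 C).val) (rv P) = aeval ((RatFunc.X : RatFunc C)⁻¹) P := by
    rw [rv, ← aeval_algHom_apply]
    rfl
  exact h

lemma reflect_X_pow (P : C[X]) (n : ℕ) (h : P.natDegree ≤ n) :
    aeval ((RatFunc.X : RatFunc C)⁻¹) (reflect n P) * RatFunc.X ^ n =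
      algebraMap C[X] (RatFunc C) P := by
  have hx : (RatFunc.X : RatFunc C) ≠ 0 := RatFunc.X_ne_zero
  let _ : Invertible (RatFunc.X : RatFunc C) := invertibleOfNonzero hx
  have h1 := eval₂_reflect_mul_pow (algebraMap C (RatFunc C)) RatFunc.X n P h
  rw [invOf_eq_inv] at h1
  rw [aeval_def, h1, ← aeval_def]
  have h2 := congrArg (algebraMap C[X] (RatFunc C)) (aeval_X_left_apply P)
  rw [← aeval_algebraMap_apply, RatFunc.algebraMap_X] at h2
  exact h2

lemma reflect_X_pow' (P : C[X]) (n : ℕ) (h : P.natDegree ≤ n) :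
    aeval ((RatFunc.X : RatFunc C)⁻¹) P * RatFunc.X ^ n =
      algebraMap C[X] (RatFunc C) (reflect n P) := by
  have h1 : (reflect n P).natDegree ≤ n := by
    refine natDegree_le_iff_coeff_eq_zero.2 (fun N hN => ?_)
    rw [coeff_reflect, revAt_eq_self_of_lt hN]
    exact coeff_eq_zero_of_natDegree_lt (h.trans_lt hN)
  have h2 := reflect_X_pow (reflect n P) n h1
  rwa [reflect_reflect] at h2

lemma gp_reflect_le (P : C[X]) (n : ℕ) : gp (reflect n P) ≤ gp P := by
  rw [gp_le_iff]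
  intro i
  rw [coeff_reflect]
  exact norm_coeff_le P _

lemma rv_injective : Function.Injective (rv : C[X] →ₐ[C] pre2 C) := by
  rw [injective_iff_map_eq_zero]
  intro P hP
  have h1 : aeval ((RatFunc.X : RatFunc C)⁻¹) P = 0 := by
    rw [← coe_rv, hP]
    rfl
  have h2 := reflect_X_pow' P P.natDegree le_rfl
  rw [h1, zero_mul] at h2
  have h3 : reflect P.natDegree P = 0 := by
    apply IsFractionRing.injective C[X] (RatFunc C)
    rw [← h2, map_zero]
  rwa [reflect_eq_zero_iff] at h3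

/-- the denominators -/
def den2 : Submonoid C[X] where
  carrier := {g | g.coeff 0 = 1 ∧ gp g ≤ 1}
  one_mem' := ⟨by rw [coeff_one_zero], by rw [gp_one]⟩
  mul_mem' := by
    rintro a b ⟨ha, ha'⟩ ⟨hb, hb'⟩
    refine ⟨by rw [mul_coeff_zero, ha, hb, one_mul], ?_⟩
    rw [gp_mul]
    exact mul_le_one₀ ha' (gp_nonneg _) hb'

lemma reflect_mem_den2 {S : C[X]} (hS : S.Monic) (h : ∀ i, ‖S.coeff i‖ ≤ 1) :
    reflect S.natDegree S ∈ (den2 : Submonoid C[X]) := by
  refine ⟨?_, (gp_reflect_le _ _).trans (gp_le_iff.2 h)⟩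
  rw [coeff_reflect, revAt_le (Nat.zero_le _), Nat.sub_zero]
  exact hS

lemma frac_eq {P S : C[X]} (hS : S.Monic) (hd : P.degree ≤ S.degree) :
    algebraMap C[X] (RatFunc C) P / algebraMap C[X] (RatFunc C) S *
      aeval ((RatFunc.X : RatFunc C)⁻¹) (reflect S.natDegree S) =
    aeval ((RatFunc.X : RatFunc C)⁻¹) (reflect S.natDegree P) := by
  have hx : (RatFunc.X : RatFunc C) ^ S.natDegree ≠ 0 := pow_ne_zero _ RatFunc.X_ne_zero
  have hS0 : algebraMap C[X] (RatFunc C) S ≠ 0 := RatFunc.algebraMap_ne_zero hS.ne_zero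
  apply mul_right_cancel₀ hx
  rw [mul_assoc, reflect_X_pow S _ le_rfl, reflect_X_pow P _ (natDegree_le_natDegree hd),
    div_mul_cancel₀ _ hS0]

theorem isLocalization_rv :
    @IsLocalization C[X] _ (den2 : Submonoid C[X]) (pre2 C) _ (rv : C[X] →ₐ[C] pre2 C).toAlgebra := by
  let _ : Algebra C[X] (pre2 C) := (rv : C[X] →ₐ[C] pre2 C).toAlgebra
  have halg : ∀ P : C[X], algebraMap C[X] (pre2 C) P = rv P := fun P => rfl
  refine ⟨?_, ?_, ?_⟩
  · rintro ⟨g, hg0, hg1⟩
    rw [halg]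
    have hx : (RatFunc.X : RatFunc C) ^ g.natDegree ≠ 0 := pow_ne_zero _ RatFunc.X_ne_zero
    have hle : (reflect g.natDegree g).natDegree ≤ g.natDegree := by
      refine natDegree_le_iff_coeff_eq_zero.2 (fun N hN => ?_)
      rw [coeff_reflect, revAt_eq_self_of_lt hN]
      exact coeff_eq_zero_of_natDegree_lt hN
    have hmon : (reflect g.natDegree g).Monic := by
      refine monic_of_natDegree_le_of_coeff_eq_one _ hle ?_
      rw [coeff_reflect, revAt_le le_rfl, Nat.sub_self]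
      exact hg0
    have hnd : (reflect g.natDegree g).natDegree = g.natDegree := by
      refine le_antisymm hle (le_natDegree_of_ne_zero ?_)
      rw [coeff_reflect, revAt_le le_rfl, Nat.sub_self, hg0]
      exact one_ne_zero
    have hinv : algebraMap C[X] (RatFunc C) (X ^ g.natDegree) /
        algebraMap C[X] (RatFunc C) (reflect g.natDegree g) ∈ pre2 C := by
      refine ⟨X ^ g.natDegree, reflect g.natDegree g, hmon, ?_, ?_, rfl⟩
      · rw [degree_X_pow, degree_eq_natDegree hmon.ne_zero, hnd]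
      · rw [← gp_le_iff]
        exact (gp_reflect_le _ _).trans hg1
    refine IsUnit.of_mul_eq_one (⟨_, hinv⟩ : pre2 C) ?_
    apply Subtype.ext
    have h1 : ((rv g * ⟨_, hinv⟩ : pre2 C) : RatFunc C) = aeval ((RatFunc.X : RatFunc C)⁻¹) g *
        (algebraMap C[X] (RatFunc C) (X ^ g.natDegree) /
          algebraMap C[X] (RatFunc C) (reflect g.natDegree g)) := by
      rw [← coe_rv]
      rfl
    rw [h1, map_pow, RatFunc.algebraMap_X, ← mul_div_assoc, reflect_X_pow' g _ le_rfl]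
    exact div_self (RatFunc.algebraMap_ne_zero hmon.ne_zero)
  · rintro ⟨f, P, S, hS, hd, hn, rfl⟩
    refine ⟨⟨reflect S.natDegree P, ⟨reflect S.natDegree S, reflect_mem_den2 hS hn⟩⟩, ?_⟩
    apply Subtype.ext
    have h1 := frac_eq hS hd
    rw [← coe_rv, ← coe_rv] at h1
    exact h1
  · intro x y hxy
    rw [halg, halg] at hxy
    exact ⟨1, by rw [rv_injective hxy]⟩

section ev

variable {B : Type*} [NormedCommRing B] [IsUltrametricDist B] [CompleteSpace B]
  (ι : C →+* B) (hι : ∀ c, ‖ι c‖ ≤ ‖c‖) {b : B} (hb : ‖b‖ ≤ 1) {n : ℕ} (hn : ‖b ^ n‖ < 1)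

include hι hb hn

lemma exists_inv_den {g : C[X]} (hg : g ∈ (den2 : Submonoid C[X])) :
    ∃ y : B, eval₂ ι b g * y = 1 ∧ ‖y‖ ≤ 1 := by
  have h1B : ‖(1 : B)‖ ≤ 1 := by
    have := hι 1
    rwa [map_one, (norm_one : ‖(1 : C)‖ = 1)] at this
  -- `g = 1 + v G`
  obtain ⟨G, hG⟩ : ∃ G : C[X], g = Polynomial.C 1 + X * G := by
    refine ⟨g.divX, ?_⟩
    have := X_mul_divX_add g
    rw [hg.1] at this
    rw [add_comm]
    exact this.symm
  have hG1 : gp G ≤ 1 := by
    rw [gp_le_iff]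
    intro i
    have h2 : G.coeff i = g.coeff (i + 1) := by
      rw [hG, coeff_add, coeff_X_mul, coeff_C, if_neg (Nat.succ_ne_zero i), zero_add]
    rw [h2]
    exact (norm_coeff_le g _).trans hg.2
  set w : B := -(b * eval₂ ι b G) with hw
  have h3 : eval₂ ι b g = 1 - w := by
    rw [hG, eval₂_add, eval₂_C, map_one, eval₂_mul, eval₂_X, hw]
    ring
  have hE : ‖eval₂ ι b G‖ ≤ 1 := (norm_eval₂_le ι hι hb G).trans hG1
  have hwn : ‖w ^ n‖ < 1 := by
    have h4 : w ^ n = (-1) ^ n * (b ^ n * eval₂ ι b G ^ n) := by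
      rw [hw, neg_pow, mul_pow]
    rcases neg_one_pow_eq_or B n with h5 | h5
    · rw [h4, h5, one_mul]
      exact (norm_mul_pow_le hE _ n).trans_lt hn
    · rw [h4, h5, neg_one_mul, norm_neg]
      exact (norm_mul_pow_le hE _ n).trans_lt hn
  have hw1 : ‖w‖ ≤ 1 := by
    rw [hw, norm_neg]
    calc _ ≤ ‖b‖ * ‖eval₂ ι b G‖ := norm_mul_le _ _
      _ ≤ 1 * 1 := mul_le_mul hb hE (norm_nonneg _) zero_le_one
      _ = 1 := one_mul 1
  obtain ⟨y, hy⟩ := (isUnit_one_sub_of_norm_lt_one hwn).exists_right_inv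
  have hy1 : ‖y‖ ≤ 1 := by
    by_contra hlt
    rw [not_le] at hlt
    have h5 : y = 1 + w ^ n * y := by linear_combination hy
    have h6 : ‖y‖ ≤ max ‖(1 : B)‖ ‖w ^ n * y‖ := by
      conv_lhs => rw [h5]
      exact IsUltrametricDist.norm_add_le_max _ _
    have h7 : ‖w ^ n * y‖ < ‖y‖ := by
      refine (norm_mul_le _ _).trans_lt ?_
      have : 0 < ‖y‖ := zero_lt_one.trans hlt
      nlinarith
    have h8 : ‖(1 : B)‖ < ‖y‖ := h1B.trans_lt hlt
    exact absurd h6 (not_le.2 (max_lt h8 h7))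
  refine ⟨(∑ i ∈ Finset.range n, w ^ i) * y, ?_, ?_⟩
  · rw [h3, ← mul_assoc, mul_neg_geom_sum, hy]
  · calc _ ≤ ‖∑ i ∈ Finset.range n, w ^ i‖ * ‖y‖ := norm_mul_le _ _
      _ ≤ 1 * 1 := by
        refine mul_le_mul ?_ hy1 (norm_nonneg _) zero_le_one
        refine norm_sum_le_of _ _ zero_le_one (fun i _ => ?_)
        have := norm_mul_pow_le hw1 (1 : B) i
        rw [one_mul] at this
        exact this.trans h1B
      _ = 1 := one_mul 1

/-- evaluation on `pre2` -/
theorem exists_ev_pre2 : ∃ f : pre2 C →+* B, (∀ P, f (rv P) = eval₂ ι b P) ∧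
    ∀ x : pre2 C, ‖f x‖ ≤ ‖algebraMap (RatFunc C) (F0 C) (x : RatFunc C)‖ := by
  let _ : Algebra C[X] (pre2 C) := (rv : C[X] →ₐ[C] pre2 C).toAlgebra
  have hloc : IsLocalization (den2 : Submonoid C[X]) (pre2 C) := isLocalization_rv
  have hu : ∀ y : (den2 : Submonoid C[X]), IsUnit (eval₂RingHom ι b y) := by
    rintro ⟨g, hg⟩
    obtain ⟨y, hy, -⟩ := exists_inv_den ι hι hb hn hg
    exact IsUnit.of_mul_eq_one y hy
  refine ⟨IsLocalization.lift hu, fun P => IsLocalization.lift_eq hu P, ?_⟩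
  rintro ⟨f, P, S, hS, hd, hnn, rfl⟩
  set x : pre2 C := ⟨algebraMap C[X] (RatFunc C) P / algebraMap C[X] (RatFunc C) S,
    P, S, hS, hd, hnn, rfl⟩ with hx
  have h1 : x * rv (reflect S.natDegree S) = rv (reflect S.natDegree P) := by
    apply Subtype.ext
    have h1 := frac_eq hS hd
    rw [← coe_rv, ← coe_rv] at h1
    exact h1
  obtain ⟨y, hy, hy1⟩ := exists_inv_den ι hι hb hn (reflect_mem_den2 hS hnn)
  have h2 := congrArg (IsLocalization.lift hu : pre2 C →+* B) h1
  rw [map_mul] at h2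
  have h3 : (IsLocalization.lift hu : pre2 C →+* B) (rv (reflect S.natDegree S)) =
      eval₂ ι b (reflect S.natDegree S) := IsLocalization.lift_eq hu _
  have h4 : (IsLocalization.lift hu : pre2 C →+* B) (rv (reflect S.natDegree P)) =
      eval₂ ι b (reflect S.natDegree P) := IsLocalization.lift_eq hu _
  rw [h3, h4] at h2
  have h5 : (IsLocalization.lift hu : pre2 C →+* B) x =
      eval₂ ι b (reflect S.natDegree P) * y := by
    rw [← h2, mul_assoc, hy, mul_one]
  rw [h5]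
  have hS1 : gp S = 1 := by
    refine le_antisymm (gp_le_iff.2 hnn) ?_
    have := norm_coeff_le S S.natDegree
    rwa [hS.coeff_natDegree, norm_one] at this
  have h6 : ‖algebraMap (RatFunc C) (F0 C) (x : RatFunc C)‖ = gp P := by
    rw [P025H373.norm_algebraMap, hx, gauss_div, hS1, div_one]
  rw [h6]
  calc _ ≤ ‖eval₂ ι b (reflect S.natDegree P)‖ * ‖y‖ := norm_mul_le _ _
    _ ≤ gp P * 1 := by
      refine mul_le_mul ?_ hy1 (norm_nonneg _) (gp_nonneg _)
      exact (norm_eval₂_le ι hι hb _).trans (gp_reflect_le _ _)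
    _ = gp P := mul_one _

end ev

end P025H450
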