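import Vale.Agent.P025.R2.H450.Ev2

/-! # Evaluation of elements of `F2` at integral elements -/

open Polynomial

namespace P025H450

open P025H373

universe u

variable {C : Type u} [NontriviallyNormedField C] [IsUltrametricDist C] [CompleteSpace C]
  [IsAlgClosed C]

/-- `pre2 → A2` -/
noncomputable def i2 : pre2 C →+* A2 C where
  toFun x := ⟨algebraMap (RatFunc C) (F0 C) x,
    Subalgebra.le_topologicalClosure _ (Subalgebra.mem_map.2 ⟨x, x.2, rfl⟩)⟩
  map_one' := Subtype.ext (map_one (algebraMap (RatFunc C) (F0 C)))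
  map_mul' x y := Subtype.ext (map_mul (algebraMap (RatFunc C) (F0 C)) (x : RatFunc C) y)
  map_zero' := Subtype.ext (map_zero (algebraMap (RatFunc C) (F0 C)))
  map_add' x y := Subtype.ext (map_add (algebraMap (RatFunc C) (F0 C)) (x : RatFunc C) y)

lemma coe_i2 (x : pre2 C) : ((i2 x : A2 C) : F0 C) = algebraMap (RatFunc C) (F0 C) x := rfl

lemma denseRange_i2 : DenseRange (i2 : pre2 C →+* A2 C) := by
  intro x
  have hx : (x : F0 C) ∈ closure (((pre2 C).map (ιA C) : Subalgebra C (F0 C)) : Set (F0 C)) := x.2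
  rw [Metric.mem_closure_iff] at hx ⊢
  intro ε hε
  obtain ⟨b, hb, hd⟩ := hx ε hε
  obtain ⟨P, hP, rfl⟩ := Subalgebra.mem_map.1 hb
  exact ⟨i2 ⟨P, hP⟩, ⟨⟨P, hP⟩, rfl⟩, hd⟩

/-- extension of ring homomorphisms by density -/
theorem exists_extend_dense {R S B : Type*} [CommRing R] [NormedCommRing S] [NormedCommRing B]
    [CompleteSpace B] (i : R →+* S) (hi : DenseRange i) (f : R →+* B) (hf : ∀ x, ‖f x‖ ≤ ‖i x‖) :
    ∃ φ : S →+* B, ∀ x, φ (i x) = f x := by
  let _ : SeminormedCommRing R := SeminormedCommRing.induced R S i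
  have hnP : ∀ P : R, ‖P‖ = ‖i P‖ := fun P => rfl
  have hui : IsUniformInducing i :=
    (AddMonoidHomClass.isometry_of_norm i (fun P => (hnP P).symm)).isUniformInducing
  have huc : UniformContinuous f :=
    AddMonoidHomClass.uniformContinuous_of_bound f 1
      (fun P => by rw [one_mul, hnP]; exact hf P)
  exact ⟨IsDenseInducing.extendRingHom hui hi huc, fun x =>
    IsDenseInducing.extend_eq (hui.isDenseInducing hi) huc.continuous x⟩

/-- evaluation on `A2` -/
theorem exists_ev2 {B : Type*} [NormedCommRing B] [IsUltrametricDist B] [CompleteSpace B]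
    (ι : C →+* B) (hι : ∀ c, ‖ι c‖ ≤ ‖c‖) {b : B} (hb : ‖b‖ ≤ 1) {n : ℕ} (hn : ‖b ^ n‖ < 1) :
    ∃ φ : A2 C →+* B, ∀ P, φ (i2 (rv P)) = eval₂ ι b P := by
  obtain ⟨f, hf1, hf⟩ := exists_ev_pre2 ι hι hb hn
  obtain ⟨φ, hφ⟩ := exists_extend_dense i2 denseRange_i2 f hf
  exact ⟨φ, fun P => by rw [hφ, hf1]⟩

lemma A2_le_F2 {x : F0 C} (hx : x ∈ A2 C) : x ∈ F2 C :=
  IntermediateField.subset_adjoin _ _ hx

/-- `A2 → F2` -/
noncomputable def j2 : A2 C →+* F2 C where
  toFun x := ⟨x, A2_le_F2 x.2⟩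
  map_one' := rfl
  map_mul' _ _ := rfl
  map_zero' := rfl
  map_add' _ _ := rfl

lemma coe_j2 (x : A2 C) : ((j2 x : F2 C) : F0 C) = x := rfl

lemma j2_i2 (x : pre2 C) : j2 (i2 x) = algebraMap (RatFunc C) (F2 C) x := rfl

/-- every rational function is a quotient of elements of `pre2` -/
lemma exists_pre2_frac (g : RatFunc C) : ∃ a b : pre2 C, b ≠ 0 ∧ g * b = a := by
  have hb : ∀ (P : C[X]) (N : ℕ), P.natDegree ≤ N →
      algebraMap C[X] (RatFunc C) P / algebraMap C[X] (RatFunc C) (X ^ N) ∈ pre2 C := by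
    intro P N hN
    refine ⟨P, X ^ N, monic_X_pow N, ?_, ?_, rfl⟩
    · rw [degree_X_pow]
      exact natDegree_le_iff_degree_le.1 hN
    · intro i
      rw [coeff_X_pow]
      split_ifs
      · exact norm_one.le
      · rw [norm_zero]; exact zero_le_one
  have hX : ∀ N : ℕ, algebraMap C[X] (RatFunc C) (X ^ N) ≠ 0 := fun N =>
    RatFunc.algebraMap_ne_zero (pow_ne_zero _ X_ne_zero)
  set N := max g.num.natDegree g.denom.natDegree with hN
  refine ⟨⟨_, hb g.num N (le_max_left _ _)⟩, ⟨_, hb g.denom N (le_max_right _ _)⟩, ?_, ?_⟩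
  · intro h
    have h1 := congrArg (fun z : pre2 C => (z : RatFunc C)) h
    have h2 : algebraMap C[X] (RatFunc C) g.denom / algebraMap C[X] (RatFunc C) (X ^ N) = 0 := h1
    exact div_ne_zero (RatFunc.algebraMap_ne_zero g.denom_ne_zero) (hX N) h2
  · show g * (algebraMap C[X] (RatFunc C) g.denom / algebraMap C[X] (RatFunc C) (X ^ N)) =
      algebraMap C[X] (RatFunc C) g.num / algebraMap C[X] (RatFunc C) (X ^ N)
    have h3 : g * algebraMap C[X] (RatFunc C) g.denom = algebraMap C[X] (RatFunc C) g.num := by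
      have h4 := g.num_div_denom
      rw [div_eq_iff (RatFunc.algebraMap_ne_zero g.denom_ne_zero)] at h4
      exact h4.symm
    rw [← mul_div_assoc, h3]

theorem isFractionRing_j2 : @IsFractionRing (A2 C) _ (F2 C) _ j2.toAlgebra := by
  let _ : Algebra (A2 C) (F2 C) := j2.toAlgebra
  have hf : FaithfulSMul (A2 C) (F2 C) := by
    rw [faithfulSMul_iff_algebraMap_injective]
    intro x y hxy
    exact Subtype.ext (congrArg (fun z : F2 C => (z : F0 C)) hxy)
  refine IsFractionRing.of_field (A2 C) (F2 C) (fun z => ?_)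
  by_cases hz : z = 0
  · exact ⟨0, 1, by rw [map_zero, zero_div, hz]⟩
  have hz0 : (z : F0 C) ≠ 0 := fun h => hz (Subtype.ext h)
  obtain ⟨g, hg, h, hh, hh1, hzg⟩ := (mem_F2_iff hz0).1 z.2
  obtain ⟨a, b, hb, hab⟩ := exists_pre2_frac g
  have hb0 : algebraMap (RatFunc C) (F0 C) (b : RatFunc C) ≠ 0 := by
    rw [_root_.map_ne_zero]
    exact fun h0 => hb (Subtype.ext h0)
  refine ⟨i2 a * (1 + ⟨h, hh⟩), i2 b, ?_⟩
  apply Subtype.ext
  have h1 : ((algebraMap (A2 C) (F2 C) (i2 a * (1 + ⟨h, hh⟩)) /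
      algebraMap (A2 C) (F2 C) (i2 b) : F2 C) : F0 C) =
      algebraMap (RatFunc C) (F0 C) a * (1 + h) / algebraMap (RatFunc C) (F0 C) b := rfl
  rw [hzg, h1, eq_div_iff hb0, ← hab, map_mul]
  ring

/-- a ring homomorphism `A2 → B` under which nonzero polynomials in `1 / t` become units extends
to `F2` -/
theorem exists_extend_F2 {B : Type*} [CommRing B] (φ : A2 C →+* B)
    (h : ∀ P : C[X], P ≠ 0 → IsUnit (φ (i2 (rv P)))) :
    ∃ ψ : F2 C →+* B, ∀ x, ψ (j2 x) = φ x := by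
  let _ : Algebra (A2 C) (F2 C) := j2.toAlgebra
  have hfr : IsFractionRing (A2 C) (F2 C) := isFractionRing_j2
  have hcs : CompleteSpace (A2 C) := isClosed_A2.completeSpace_coe
  have hu : ∀ y : nonZeroDivisors (A2 C), IsUnit (φ y) := by
    intro y
    have hy0 : ((y : A2 C) : F0 C) ≠ 0 := by
      intro h0
      exact nonZeroDivisors.ne_zero y.2 (Subtype.ext h0)
    obtain ⟨g, hg, hg0, r, hr, hr1, hy⟩ := weierstrass_A2 (y : A2 C).2 hy0
    have h1 : (y : A2 C) = i2 ⟨g, hg⟩ * (1 + ⟨r, hr⟩) := Subtype.ext hy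
    rw [h1, map_mul]
    refine IsUnit.mul ?_ ?_
    · obtain ⟨P, S, hS, hd, hn, hgg⟩ := hg
      have h2 : (⟨g, ⟨P, S, hS, hd, hn, hgg⟩⟩ : pre2 C) * rv (reflect S.natDegree S) =
          rv (reflect S.natDegree P) := by
        apply Subtype.ext
        have h1 := frac_eq hS hd
        rw [← coe_rv, ← coe_rv, ← hgg] at h1
        exact h1
      have h3 := congrArg (fun x => φ (i2 x)) h2
      simp only [map_mul] at h3
      refine isUnit_of_mul_isUnit_left (y := φ (i2 (rv (reflect S.natDegree S)))) ?_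
      rw [h3]
      apply h
      intro h4
      rw [reflect_eq_zero_iff] at h4
      rw [h4, map_zero, zero_div] at hgg
      exact hg0 hgg
    · apply IsUnit.map
      have h3 : (1 + ⟨r, hr⟩ : A2 C) = 1 - (-⟨r, hr⟩) := by ring
      rw [h3]
      apply isUnit_one_sub_of_norm_lt_one
      rw [norm_neg]
      exact hr1
  refine ⟨IsLocalization.lift (M := nonZeroDivisors (A2 C)) hu, fun x => ?_⟩
  exact IsLocalization.lift_eq hu x

lemma exists_add_pow {B : Type*} [NormedCommRing B] [IsUltrametricDist B] {x y : B}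
    (h1 : ‖(1 : B)‖ ≤ 1) (hx : ‖x‖ ≤ 1) (hy : ‖y‖ ≤ 1) (n : ℕ) :
    ∃ s : B, ‖s‖ ≤ 1 ∧ (x + y) ^ n = y ^ n + x * s := by
  induction n with
  | zero => exact ⟨0, by rw [norm_zero]; exact zero_le_one, by rw [pow_zero, pow_zero]; ring⟩
  | succ n ih =>
    obtain ⟨s, hs, he⟩ := ih
    have hxy : ‖x + y‖ ≤ 1 := (IsUltrametricDist.norm_add_le_max x y).trans (max_le hx hy)
    refine ⟨y ^ n + s * (x + y), ?_, ?_⟩
    · refine (IsUltrametricDist.norm_add_le_max _ _).trans (max_le ?_ ?_)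
      · have := norm_mul_pow_le hy (1 : B) n
        rw [one_mul] at this
        exact this.trans h1
      · calc _ ≤ ‖s‖ * ‖x + y‖ := norm_mul_le _ _
          _ ≤ 1 * 1 := mul_le_mul hs hxy (norm_nonneg _) zero_le_one
          _ = 1 := one_mul 1
    · rw [pow_succ, he]
      ring

/-- **Evaluation of elements of `F2` (as functions of `1 / t`) at an integral element** with small
coefficients. -/
theorem exists_int2 {A : Type*} [NormedCommRing A] [NormOneClass A] [IsUltrametricDist A]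
    [CompleteSpace A] (ι : C →+* A) (hι : ∀ c, ‖ι c‖ ≤ ‖c‖) {B : Type*} [CommRing B]
    (k : A →+* B) (b : B) (μ : A[X]) (hμ : μ.Monic)
    (hbd : ∀ n < μ.natDegree, ‖μ.coeff n‖ < 1)
    (hroot : eval₂ k b μ = 0) (a : A) (ha : ‖a‖ < 1)
    (hunit : ∀ P : C[X], P ≠ 0 → IsUnit (eval₂ (k.comp ι) (k a + b) P)) :
    ∃ ψ : F2 C →+* B, ∀ P : C[X], ψ (algebraMap (RatFunc C) (F2 C)
      (aeval ((RatFunc.X : RatFunc C)⁻¹) P)) = eval₂ (k.comp ι) (k a + b) P := by
  have hnt : Nontrivial A := NormOneClass.nontrivial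
  have hbd' : Bd μ 1 := by
    intro n
    rcases lt_trichotomy n μ.natDegree with h | h | h
    · exact (hbd n h).le
    · rw [h, hμ.coeff_natDegree, norm_one]
    · rw [coeff_eq_zero_of_natDegree_lt h, norm_zero]
      exact zero_le_one
  -- a uniform bound
  obtain ⟨δ, hδ0, hδ1, hδ⟩ : ∃ δ : ℝ, 0 ≤ δ ∧ δ < 1 ∧ ∀ n < μ.natDegree, ‖μ.coeff n‖ ≤ δ := by
    rcases Nat.eq_zero_or_pos μ.natDegree with h0 | h0
    · exact ⟨0, le_rfl, zero_lt_one, fun n hn => by omega⟩
    · have hne : (Finset.range μ.natDegree).Nonempty := ⟨0, Finset.mem_range.2 h0⟩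
      obtain ⟨m, hm, hmax⟩ := Finset.exists_max_image (Finset.range μ.natDegree)
        (fun n => ‖μ.coeff n‖) hne
      exact ⟨‖μ.coeff m‖, norm_nonneg _, hbd m (Finset.mem_range.1 hm),
        fun n hn => hmax n (Finset.mem_range.2 hn)⟩
  let _ : NormedCommRing (AdjoinRoot μ) := nrm hμ hbd'
  have hcs : CompleteSpace (AdjoinRoot μ) := nrm_complete hμ hbd'
  have hul : IsUltrametricDist (AdjoinRoot μ) := nrm_ultra hμ hbd'
  have hr1 : ‖AdjoinRoot.root μ‖ ≤ 1 := nrm_root_le hμ hbd'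
  have hr2 : ‖AdjoinRoot.root μ ^ μ.natDegree‖ < 1 :=
    (nrm_root_pow_le hμ hbd' hδ0 hδ).trans_lt hδ1
  have ha1 : ‖AdjoinRoot.of μ a‖ < 1 := (nrm_of_le hμ hbd' a).trans_lt ha
  have h1 : ‖(1 : AdjoinRoot μ)‖ ≤ 1 := by
    have h := nrm_of_le hμ hbd' 1
    rw [map_one, (norm_one : ‖(1 : A)‖ = 1)] at h
    exact h
  have hs1 : ‖AdjoinRoot.of μ a + AdjoinRoot.root μ‖ ≤ 1 :=
    (IsUltrametricDist.norm_add_le_max _ _).trans (max_le ha1.le hr1)
  have hs2 : ‖(AdjoinRoot.of μ a + AdjoinRoot.root μ) ^ μ.natDegree‖ < 1 := by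
    obtain ⟨s, hs, he⟩ := exists_add_pow h1 ha1.le hr1 μ.natDegree
    rw [he]
    refine (IsUltrametricDist.norm_add_le_max _ _).trans_lt (max_lt hr2 ?_)
    refine (norm_mul_le _ _).trans_lt ?_
    calc _ ≤ ‖AdjoinRoot.of μ a‖ * 1 := mul_le_mul_of_nonneg_left hs (norm_nonneg _)
      _ < 1 := by rwa [mul_one]
  obtain ⟨φ, hφ⟩ := exists_ev2 ((AdjoinRoot.of μ).comp ι)
    (fun c => (nrm_of_le hμ hbd' (ι c)).trans (hι c)) hs1 hs2
  let g : AdjoinRoot μ →+* B := AdjoinRoot.lift k b hroot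
  have hg : ∀ P : C[X], (g.comp φ) (i2 (rv P)) = eval₂ (k.comp ι) (k a + b) P := by
    intro P
    rw [RingHom.comp_apply, hφ, hom_eval₂, map_add, AdjoinRoot.lift_root, AdjoinRoot.lift_of]
    congr 1
    apply RingHom.ext
    intro c
    rw [RingHom.comp_apply, RingHom.comp_apply, AdjoinRoot.lift_of, RingHom.comp_apply]
  obtain ⟨ψ, hψ⟩ := exists_extend_F2 (g.comp φ) (fun P hP => by rw [hg]; exact hunit P hP)
  refine ⟨ψ, fun P => ?_⟩
  rw [← coe_rv, ← j2_i2, hψ, hg]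

end P025H450
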