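import Vale.Agent.P025.H641.Tower

/-! # Simple roots of (not necessarily monic) integral polynomials do not change the values -/

open IntermediateField Polynomial

namespace P025H450

open P025H641

universe u v w

section poly

variable {E : Type v} [Field E] (V : ValuationSubring E)

/-- a polynomial with coefficients in the valuation ring lifts -/
lemma exists_lift (P : E[X]) (hP : ∀ i, V.valuation (P.coeff i) ≤ 1) :
    ∃ D : V[X], D.map V.subtype = P := by
  have h : P ∈ lifts V.subtype := by
    rw [lifts_iff_coeff_lifts]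
    intro n
    exact ⟨⟨_, (V.valuation_le_one_iff _).1 (hP n)⟩, rfl⟩
  obtain ⟨D, hD⟩ := h
  exact ⟨D, hD⟩

lemma coe_eval (D : V[X]) (a : V) : ((D.eval a : V) : E) = (D.map V.subtype).eval (a : E) := by
  rw [eval_map]
  exact (eval₂_at_apply V.subtype a).symm

lemma val_eval_le {P : E[X]} (hP : ∀ i, V.valuation (P.coeff i) ≤ 1) {y : E}
    (hy : V.valuation y ≤ 1) : V.valuation (P.eval y) ≤ 1 := by
  obtain ⟨D, rfl⟩ := exists_lift V P hP
  have h1 := coe_eval V D ⟨y, (V.valuation_le_one_iff _).1 hy⟩
  have h2 : (D.map V.subtype).eval y = ((D.eval ⟨y, (V.valuation_le_one_iff _).1 hy⟩ : V) : E) :=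
    h1.symm
  rw [h2]
  exact V.valuation_le_one _

lemma val_eval_sub_lt {P : E[X]} (hP : ∀ i, V.valuation (P.coeff i) ≤ 1) {y c : E}
    (hc : V.valuation c ≤ 1) (h : V.valuation (y - c) < 1) :
    V.valuation (P.eval y - P.eval c) < 1 := by
  have hy : V.valuation y ≤ 1 := by
    have h1 : y = (y - c) + c := by ring
    rw [h1]
    exact le_trans (V.valuation.map_add _ _) (max_le h.le hc)
  obtain ⟨D, rfl⟩ := exists_lift V P hP
  set y' : V := ⟨y, (V.valuation_le_one_iff _).1 hy⟩ with hy'
  set c' : V := ⟨c, (V.valuation_le_one_iff _).1 hc⟩ with hc'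
  obtain ⟨r, hr⟩ := sub_dvd_eval_sub y' c' D
  have h2 := congrArg (fun z : V => (z : E)) hr
  simp only [AddSubgroupClass.coe_sub, MulMemClass.coe_mul, coe_eval] at h2
  have h3 : (D.map V.subtype).eval y - (D.map V.subtype).eval c = (y - c) * (r : E) := h2
  rw [h3, map_mul]
  exact mul_lt_one_of_lt_of_le h (V.valuation_le_one _)

end poly

section etale

variable {k : Type u} [Field k] {F : Type v} {E : Type w} [Field F] [Field E] [Algebra F E]
  [Algebra k E] [Algebra.IsAlgebraic F E]

/-- **Values do not change when a simple root of an integral polynomial is adjoined.** -/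
theorem simple_value {V : ValuationSubring E} (hV : IsPlace k E V) (α : E)
    (hgen : ∀ x : E, ∃ P : F[X], x = aeval α P) (hα : V.valuation α ≤ 1) (h₀ : F[X])
    (hcoef : ∀ i, V.valuation (algebraMap F E (h₀.coeff i)) ≤ 1) (hroot₀ : aeval α h₀ = 0)
    (hder₀ : V.valuation (aeval α (derivative h₀)) = 1) (x : E) :
    ∃ y : F, V.valuation (algebraMap F E y) = V.valuation x := by
  classical
  obtain ⟨W, hW⟩ : ∃ W : ValuationSubring F, W = V.comap (algebraMap F E) := ⟨_, rfl⟩
  set v := V.valuation with hv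
  have hmem : ∀ x : F, x ∈ W ↔ v (algebraMap F E x) ≤ 1 := by
    intro x
    rw [hW, ValuationSubring.mem_comap, V.valuation_le_one_iff]
  obtain ⟨h, hh⟩ : ∃ h : W[X], h.map W.subtype = h₀ :=
    exists_lift W h₀ (fun i => (W.valuation_le_one_iff _).2 ((hmem _).2 (hcoef i)))
  have hroot : aeval α (h.map W.subtype) = 0 := by rw [hh]; exact hroot₀
  have hder : v (aeval α ((derivative h).map W.subtype)) = 1 := by
    rw [← derivative_map, hh]; exact hder₀
  have hWv : ∀ x : F, W.valuation x < 1 ↔ v (algebraMap F E x) < 1 := by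
    intro x
    have h1 := (comap_isEquiv (F := F) V).lt_one_iff_lt_one (x := x)
    rw [hW]
    exact h1
  -- the map to `V`
  let ι : W →+* V := ((algebraMap F E).comp W.subtype).codRestrict V.toSubring (fun x => by
    have := x.2
    rw [hmem, V.valuation_le_one_iff] at this
    exact this)
  have hι : ∀ x : W, ((ι x : V) : E) = algebraMap F E (x : F) := fun x => rfl
  have hloc : IsLocalHom ι := by
    constructor
    intro a ha
    rw [V.valuation_eq_one_iff, hι] at ha
    have ha0 : (a : F) ≠ 0 := by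
      intro h0
      rw [h0, map_zero, map_zero] at ha
      exact zero_ne_one ha
    have h1 : (a : F)⁻¹ ∈ W := by rw [hmem, map_inv₀, map_inv₀, hv, ha, inv_one]
    exact ⟨⟨a, ⟨_, h1⟩, Subtype.ext (mul_inv_cancel₀ ha0), Subtype.ext (inv_mul_cancel₀ ha0)⟩, rfl⟩
  set ρ0 := IsLocalRing.residue W with hρ0
  set ρ := IsLocalRing.residue V with hρ
  let ιb : IsLocalRing.ResidueField W →+* IsLocalRing.ResidueField V :=
    IsLocalRing.ResidueField.map ι
  have hιb : ∀ x : W, ιb (ρ0 x) = ρ (ι x) := fun x => IsLocalRing.ResidueField.map_residue ι x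
  have hιb' : ιb.comp ρ0 = ρ.comp ι := RingHom.ext hιb
  let _ : Algebra (IsLocalRing.ResidueField W) (IsLocalRing.ResidueField V) := ιb.toAlgebra
  have hαV : α ∈ V := (V.valuation_le_one_iff _).1 hα
  set a : V := ⟨α, hαV⟩ with ha
  have hev : ∀ D : W[X], ((D.eval₂ ι a : V) : E) = aeval α (D.map W.subtype) := by
    intro D
    rw [aeval_def, eval₂_map]
    have h1 : ((D.eval₂ ι a : V) : E) = V.subtype (D.eval₂ ι a) := rfl
    rw [h1, hom_eval₂]
    rfl
  have hevb : ∀ D : W[X], ρ (D.eval₂ ι a) = aeval (ρ a) (D.map ρ0) := by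
    intro D
    rw [hom_eval₂, aeval_def, eval₂_map, ← hιb']
    rfl
  have hval : ∀ D : W[X], v (aeval α (D.map W.subtype)) ≤ 1 := fun D => by
    rw [← hev]; exact V.valuation_le_one _
  have hval1 : ∀ D : W[X], aeval (ρ a) (D.map ρ0) ≠ 0 ↔ v (aeval α (D.map W.subtype)) = 1 := by
    intro D
    rw [← hevb, hρ, Ne, IsLocalRing.residue_eq_zero_iff, V.valuation_lt_one_iff]
    rw [← hev]
    exact ⟨fun hD => le_antisymm (V.valuation_le_one _) (not_lt.1 hD), fun hD => by
      rw [hD]; exact lt_irrefl _⟩
  -- the factorization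
  have hroot' : aeval (ρ a) (h.map ρ0) = 0 := by
    rw [← hevb]
    have h1 : h.eval₂ ι a = 0 := by
      apply Subtype.ext
      rw [hev, hroot]
      rfl
    rw [h1, map_zero]
  have hder' : aeval (ρ a) (derivative (h.map ρ0)) ≠ 0 := by
    rw [derivative_map]
    exact (hval1 _).2 hder
  obtain ⟨q, hq⟩ := minpoly.dvd _ _ hroot'
  obtain ⟨h2, rfl⟩ := map_surjective ρ0 IsLocalRing.residue_surjective q
  have hh2 : aeval (ρ a) (h2.map ρ0) ≠ 0 := by
    intro h0
    apply hder'
    rw [hq, derivative_mul, map_add, map_mul, map_mul, minpoly.aeval, h0, mul_zero, zero_mul,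
      add_zero]
  have hh2' := (hval1 h2).1 hh2
  -- the uniformizer
  obtain ⟨π, hπ0, hπ1, hπmax⟩ := hV.exists_unif_comap (F := F)
  by_cases hx0 : x = 0
  · exact ⟨0, by rw [hx0, map_zero]⟩
  obtain ⟨P, hP⟩ := hgen x
  have hP0 : P ≠ 0 := by
    rintro rfl
    rw [map_zero] at hP
    exact hx0 hP
  obtain ⟨i0, D0, hc0, hPD, hD0⟩ := exists_content W P hP0
  set c0 := P.coeff i0 with hc0'
  have hmain : ∀ N : ℕ, (∃ y : F, v (algebraMap F E y) = v x) ∨
      ∃ (c : F) (D : W[X]), v (algebraMap F E c) ≤ v (algebraMap F E c0) *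
        v (algebraMap F E π) ^ N ∧ v x = v (algebraMap F E c) * v (aeval α (D.map W.subtype)) := by
    intro N
    induction N with
    | zero =>
      right
      refine ⟨c0, D0, by rw [pow_zero, mul_one], ?_⟩
      rw [hP]
      conv_lhs => rw [hPD]
      rw [map_mul, aeval_C, map_mul]
    | succ N ih =>
      rcases ih with ih | ⟨c, D, hc, hD⟩
      · exact Or.inl ih
      by_cases hD1 : aeval (ρ a) (D.map ρ0) = 0
      · -- reduce
        obtain ⟨q', hq'⟩ := minpoly.dvd _ _ hD1
        obtain ⟨q2, rfl⟩ := map_surjective ρ0 IsLocalRing.residue_surjective q'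
        set D' := D * h2 - q2 * h with hD'
        have hD'b : D'.map ρ0 = 0 := by
          rw [hD', Polynomial.map_sub, Polynomial.map_mul, Polynomial.map_mul, hq, hq']
          ring
        have hD'α : aeval α (D'.map W.subtype) =
            aeval α (D.map W.subtype) * aeval α (h2.map W.subtype) := by
          rw [hD', Polynomial.map_sub, Polynomial.map_mul, Polynomial.map_mul, map_sub, map_mul,
            map_mul, hroot, mul_zero, sub_zero]
        have hD'v : v (aeval α (D'.map W.subtype)) = v (aeval α (D.map W.subtype)) := by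
          rw [hD'α, map_mul, hh2', mul_one]
        by_cases hD'0 : D'.map W.subtype = 0
        · exfalso
          rw [hD'0, map_zero, map_zero] at hD'v
          rw [← hD'v, mul_zero, map_eq_zero] at hD
          exact hx0 hD
        obtain ⟨i, D'', hi0, hi, -⟩ := exists_content W _ hD'0
        set c' := (D'.map W.subtype).coeff i with hc'
        have hc'1 : v (algebraMap F E c') < 1 := by
          rw [← hWv]
          have h5 := congrArg (fun z => coeff z i) hD'b
          simp only [coeff_map, coeff_zero] at h5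
          rw [hρ0, IsLocalRing.residue_eq_zero_iff, W.valuation_lt_one_iff] at h5
          rw [hc', coeff_map]
          exact h5
        right
        refine ⟨c * c', D'', ?_, ?_⟩
        · rw [map_mul, map_mul, pow_succ, ← mul_assoc]
          exact mul_le_mul' hc (hπmax _ hc'1)
        · rw [hD, ← hD'v, hi, map_mul, aeval_C, map_mul, map_mul, map_mul, mul_assoc]
      · left
        exact ⟨c, by rw [hD, (hval1 D).1 hD1, mul_one]⟩
  by_contra hcon
  have hc0E : algebraMap F E c0 ≠ 0 := (_root_.map_ne_zero _).2 hc0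
  have hc0pos : 0 < v (algebraMap F E c0) := zero_lt_iff.2 ((_root_.map_ne_zero _).2 hc0E)
  obtain ⟨N, hN⟩ := hV.archimedean (x / algebraMap F E c0) _ (div_ne_zero hx0 hc0E) hπ1
  obtain ⟨c, D, hc, hD⟩ := (hmain N).resolve_left hcon
  have h1 : v x ≤ v (algebraMap F E c0) * v (algebraMap F E π) ^ N := by
    rw [hD]
    calc _ ≤ v (algebraMap F E c) * 1 := by gcongr; exact hval D
      _ ≤ _ := by rw [mul_one]; exact hc
  rw [map_div₀, lt_div_iff₀ hc0pos, mul_comm] at hN
  exact absurd hN (not_lt.2 h1)

end etale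

end P025H450
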