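import Vale.Agent.P025.R2.H450.Alg
import Vale.Agent.P025.R2.H450.Simple

/-! # Local study of the roots of the zoom polynomial -/

open IntermediateField Polynomial

namespace P025H450

open P025H641 P025H440

universe u v w

section general

variable {k : Type u} [Field k] {E : Type w} [Field E] [Algebra k E] {V : ValuationSubring E}

lemma val_rat_le (hV : IsPlace k E V) (c : ℚ) : V.valuation (c : E) ≤ 1 := by
  rw [← map_ratCast (algebraMap k E) c]
  exact hV.val_const_le _

lemma val_rat [CharZero k] (hV : IsPlace k E V) {c : ℚ} (hc : c ≠ 0) :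
    V.valuation (c : E) = 1 := by
  rw [← map_ratCast (algebraMap k E) c]
  exact hV.val_const (by exact_mod_cast hc)

lemma val_one_of_sub {a b : E} (hb : V.valuation b = 1) (h : V.valuation (a - b) < 1) :
    V.valuation a = 1 := by
  have h1 : a = (a - b) + b := by ring
  rw [h1, Valuation.map_add_eq_of_lt_right, hb]
  rw [hb]
  exact h

lemma val_pow_one {a : E} {m : ℕ} (hm : m ≠ 0) (h : V.valuation a ^ m = 1) :
    V.valuation a = 1 := by
  rcases lt_trichotomy (V.valuation a) 1 with h1 | h1 | h1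
  · exact absurd h (pow_lt_one₀ zero_le h1 hm).ne
  · exact h1
  · exact absurd h (one_lt_pow₀ h1 hm).ne'

lemma val_lt_of_pow {a : E} {m : ℕ} (h : V.valuation a ^ m < 1) :
    V.valuation a < 1 := by
  by_contra h1
  exact absurd h (not_lt.2 (one_le_pow₀ (not_lt.1 h1)))

lemma val_gt_of_pow {a : E} {m : ℕ} (h : 1 < V.valuation a ^ m) :
    1 < V.valuation a := by
  by_contra h1
  exact absurd h (not_lt.2 (pow_le_one₀ zero_le (not_lt.1 h1)))

lemma val_aeval_le [CharZero E] (hV : IsPlace k E V) (q : ℚ[X]) {y : E}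
    (hy : V.valuation y ≤ 1) : V.valuation (aeval y q) ≤ 1 := by
  rw [aeval_def, ← eval_map]
  refine val_eval_le V (fun i => ?_) hy
  rw [coeff_map, eq_ratCast]
  exact val_rat_le hV _

lemma val_aeval_eq [CharZero k] [CharZero E] (hV : IsPlace k E V) (q : ℚ[X]) {c : ℚ}
    (hc : q.eval c ≠ 0) {y : E} (h : V.valuation (y - c) < 1) : V.valuation (aeval y q) = 1 := by
  rw [aeval_def, ← eval_map]
  have h1 : (q.map (algebraMap ℚ E)).eval (c : E) = ((q.eval c : ℚ) : E) := by
    rw [eval_map, ← eq_ratCast (algebraMap ℚ E) c, eval₂_at_apply, eq_ratCast]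
  refine val_one_of_sub (b := (q.map (algebraMap ℚ E)).eval (c : E)) ?_ ?_
  · rw [h1]; exact val_rat hV hc
  · refine val_eval_sub_lt V (fun i => ?_) (val_rat_le hV c) h
    rw [coeff_map, eq_ratCast]
    exact val_rat_le hV _

end general

section intp

variable {F : Type v} {E : Type w} [Field F] [Field E] [Algebra F E] {V : ValuationSubring E}

/-- polynomials with integral coefficients -/
def IntP (V : ValuationSubring E) (h : F[X]) : Prop :=
  ∃ D : (V.comap (algebraMap F E))[X], D.map (V.comap (algebraMap F E)).subtype = h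

lemma IntP.add {p q : F[X]} (hp : IntP V p) (hq : IntP V q) : IntP V (p + q) := by
  obtain ⟨D, rfl⟩ := hp
  obtain ⟨D', rfl⟩ := hq
  exact ⟨D + D', Polynomial.map_add _⟩

lemma IntP.sub {p q : F[X]} (hp : IntP V p) (hq : IntP V q) : IntP V (p - q) := by
  obtain ⟨D, rfl⟩ := hp
  obtain ⟨D', rfl⟩ := hq
  exact ⟨D - D', Polynomial.map_sub _⟩

lemma IntP.mul {p q : F[X]} (hp : IntP V p) (hq : IntP V q) : IntP V (p * q) := by
  obtain ⟨D, rfl⟩ := hp
  obtain ⟨D', rfl⟩ := hq
  exact ⟨D * D', Polynomial.map_mul _⟩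

lemma IntP.pow {p : F[X]} (hp : IntP V p) (n : ℕ) : IntP V (p ^ n) := by
  obtain ⟨D, rfl⟩ := hp
  exact ⟨D ^ n, Polynomial.map_pow _ _⟩

lemma IntP.comp {p q : F[X]} (hp : IntP V p) (hq : IntP V q) : IntP V (p.comp q) := by
  obtain ⟨D, rfl⟩ := hp
  obtain ⟨D', rfl⟩ := hq
  exact ⟨D.comp D', Polynomial.map_comp _ _ _⟩

lemma intP_X : IntP V (X : F[X]) := ⟨X, Polynomial.map_X _⟩

lemma intP_C {c : F} (hc : V.valuation (algebraMap F E c) ≤ 1) : IntP V (C c) := by
  have h : c ∈ V.comap (algebraMap F E) := by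
    rw [ValuationSubring.mem_comap, ← V.valuation_le_one_iff]
    exact hc
  exact ⟨C ⟨c, h⟩, by rw [map_C]; rfl⟩

lemma intP_one : IntP V (1 : F[X]) := ⟨1, Polynomial.map_one _⟩

lemma intP_natCast (n : ℕ) : IntP V (n : F[X]) := ⟨n, Polynomial.map_natCast _ _⟩

lemma intP_of_coeff {h : F[X]} (hh : ∀ i, V.valuation (algebraMap F E (h.coeff i)) ≤ 1) :
    IntP V h := by
  refine exists_lift _ h (fun i => ?_)
  rw [ValuationSubring.valuation_le_one_iff, ValuationSubring.mem_comap,
    ← V.valuation_le_one_iff]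
  exact hh i

lemma IntP.coeff {h : F[X]} (hh : IntP V h) (i : ℕ) :
    V.valuation (algebraMap F E (h.coeff i)) ≤ 1 := by
  obtain ⟨D, rfl⟩ := hh
  rw [coeff_map]
  have h1 := (D.coeff i).2
  rw [ValuationSubring.mem_comap, ← V.valuation_le_one_iff] at h1
  exact h1

lemma IntP.val_aeval {h : F[X]} (hh : IntP V h) {y : E} (hy : V.valuation y ≤ 1) :
    V.valuation (aeval y h) ≤ 1 := by
  rw [aeval_def, ← eval_map]
  refine val_eval_le V (fun i => ?_) hy
  rw [coeff_map]
  exact hh.coeff i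

lemma intP_rat {k : Type u} [Field k] [Algebra k E] [CharZero F] (hV : IsPlace k E V) (q : ℚ[X]) :
    IntP V (q.map (algebraMap ℚ F)) := by
  refine intP_of_coeff (fun i => ?_)
  rw [coeff_map, eq_ratCast, map_ratCast]
  exact val_rat_le hV _

lemma aeval_map_rat [CharZero F] [CharZero E] (q : ℚ[X]) (y : E) :
    aeval y (q.map (algebraMap ℚ F)) = aeval y q := by
  rw [aeval_def, eval₂_map, aeval_def]
  congr 1
  exact RingHom.ext_rat _ _

lemma hgen_change {y u : E} (hgen : ∀ x : E, ∃ P : F[X], x = aeval y P) (P₀ : F[X])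
    (h : y = aeval u P₀) (x : E) : ∃ P : F[X], x = aeval u P := by
  obtain ⟨P, hP⟩ := hgen x
  exact ⟨P.comp P₀, by rw [aeval_comp, ← h, hP]⟩

lemma exists_inv_poly [Algebra.IsAlgebraic F E] (y : E) : ∃ P₀ : F[X], y = aeval y⁻¹ P₀ := by
  have h1 : (y⁻¹)⁻¹ ∈ Algebra.adjoin F {y⁻¹} := by
    refine Subalgebra.inv_mem_of_algebraic _ (x := ⟨y⁻¹, Algebra.self_mem_adjoin_singleton F _⟩) ?_
    exact Algebra.IsAlgebraic.isAlgebraic _
  rw [inv_inv, Algebra.adjoin_singleton_eq_range_aeval] at h1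
  obtain ⟨P, hP⟩ := h1
  exact ⟨P, hP.symm⟩

end intp

section loc

variable {k : Type u} [Field k] [CharZero k] {F : Type v} {E : Type w} [Field F] [Field E]
  [CharZero F] [CharZero E] [Algebra F E] [Algebra k E] [Algebra.IsAlgebraic F E]
  {V : ValuationSubring E} (hV : IsPlace k E V) {n : ℕ} (hn : 1 ≤ n)

include hV

omit [CharZero F] [Algebra.IsAlgebraic F E] [Algebra F E] [Field F] in
include hn in
lemma val_root_gt {t y : E} (hy : aeval y (zA n) = t * y ^ (2 * n - 1))
    (h : 1 < V.valuation y) : V.valuation t = V.valuation y := by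
  have hy0 : y ≠ 0 := by
    rintro rfl
    rw [map_zero] at h
    exact absurd h (not_lt.2 zero_le)
  have hpos : V.valuation y ≠ 0 := (_root_.map_ne_zero _).2 hy0
  have h1 : V.valuation (y⁻¹ - ((0 : ℚ) : E)) < 1 := by
    rw [Rat.cast_zero, sub_zero, map_inv₀]
    exact (inv_lt_one₀ (zero_lt_iff.2 hpos)).2 h
  have h2 := val_aeval_eq hV (zR n) (by rw [zR_zero]; exact one_ne_zero) h1
  have h3 : y ^ (2 * n) = y * y ^ (2 * n - 1) := by
    rw [← pow_succ', Nat.sub_add_cancel (by omega)]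
  rw [aeval_zA_zR n hy0, h3] at hy
  have h4 : y * aeval y⁻¹ (zR n) = t := by
    have h5 : y ^ (2 * n - 1) ≠ 0 := pow_ne_zero _ hy0
    apply mul_right_cancel₀ h5
    rw [← hy]
    ring
  rw [← h4, map_mul, h2, mul_one]

omit [CharZero F] [Algebra.IsAlgebraic F E] [Algebra F E] [Field F] in
lemma val_root_lt {t y : E} (hy : aeval y (zA n) = t * y ^ (2 * n - 1))
    (h : V.valuation y < 1) : V.valuation (t * y ^ (2 * n - 1)) = 1 := by
  rw [← hy]
  refine val_aeval_eq hV (zA n) (zA_zero n) ?_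
  rw [Rat.cast_zero, sub_zero]
  exact h

omit [CharZero F] [Algebra.IsAlgebraic F E] [Algebra F E] [Field F] in
include hn in
lemma val_root_one {t y : E} (hy : aeval y (zA n) = t * y ^ (2 * n - 1))
    (ht : V.valuation t ≤ 1) : V.valuation y = 1 := by
  rcases lt_trichotomy (V.valuation y) 1 with h | h | h
  · exfalso
    have h1 := val_root_lt hV hy h
    rw [map_mul, map_pow] at h1
    have h2 : V.valuation y ^ (2 * n - 1) < 1 := pow_lt_one₀ zero_le h (by omega)
    rw [mul_comm] at h1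
    exact (mul_lt_one_of_lt_of_le h2 ht).ne h1
  · exact h
  · exfalso
    have h1 := val_root_gt hV hn hy h
    rw [← h1] at h
    exact absurd h (not_lt.2 ht)

include hn in
/-- case 1: `V(τ) ≤ 1`, `y ^ 2 ≠ 1` in the residue field -/
lemma loc_case1 (τ : F) (y : E) (hgen : ∀ x : E, ∃ P : F[X], x = aeval y P)
    (hy : aeval y (zA n) = algebraMap F E τ * y ^ (2 * n - 1))
    (hτ : V.valuation (algebraMap F E τ) ≤ 1) (hy1 : V.valuation (y ^ 2 - 1) = 1) (x : E) :
    ∃ z : F, V.valuation (algebraMap F E z) = V.valuation x := by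
  have hy' := val_root_one hV hn hy hτ
  have hmap : (zP n τ).map (algebraMap F E) = zP n (algebraMap F E τ) := zP_map n _ _
  have hr : (zP n (algebraMap F E τ)).eval y = 0 := by rw [zP_eval, hy, sub_self]
  refine simple_value hV y hgen hy'.le (zP n τ) (IntP.coeff ?_) ?_ ?_ x
  · exact (intP_rat hV _).sub ((intP_C hτ).mul (intP_X.pow _))
  · rw [aeval_def, ← eval_map, hmap, hr]
  · rw [aeval_def, ← eval_map, ← derivative_map, hmap]
    have h1 := congrArg V.valuation (zP_der hn (algebraMap F E τ) y)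
    rw [hr, mul_zero, add_zero, map_mul, map_pow, hy', hy1, one_mul, one_pow] at h1
    exact h1

include hn in
/-- case 2: `V(τ) ≤ 1`, `y = 1` in the residue field -/
lemma loc_case2 (τ γ : F) {c : ℚ} (hc : c ≠ 0) (hγ0 : γ ≠ 0)
    (hγ : γ ^ (n + 1) = c * (τ - (zβ n : ℚ)))
    (y : E) (hgen : ∀ x : E, ∃ P : F[X], x = aeval y P)
    (hy : aeval y (zA n) = algebraMap F E τ * y ^ (2 * n - 1))
    (hτ : V.valuation (algebraMap F E τ) ≤ 1) (hy1 : V.valuation (y - 1) < 1) (x : E) :
    ∃ z : F, V.valuation (algebraMap F E z) = V.valuation x := by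
  have hy' := val_root_one hV hn hy hτ
  obtain ⟨g, hg, hg1⟩ := zQ_factor hn
  set γE := algebraMap F E γ with hγE
  have hγE0 : γE ≠ 0 := (_root_.map_ne_zero _).2 hγ0
  set t := algebraMap F E τ with ht
  have hγ' : γE ^ (n + 1) = c * (t - (zβ n : ℚ)) := by
    rw [hγE, ← map_pow, hγ, map_mul, map_sub, map_ratCast, map_ratCast]
  obtain ⟨u, hu⟩ : ∃ u : E, y = 1 + γE * u := ⟨(y - 1) / γE, by field_simp; ring⟩
  have hu' : y - 1 = γE * u := by rw [hu]; ring
  have hgy : V.valuation (aeval y g) = 1 := by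
    refine val_aeval_eq hV g hg1 ?_
    rw [Rat.cast_one]
    exact hy1
  have hQ : aeval y (zQ n) = (t - (zβ n : ℚ)) * y ^ (2 * n - 1) := by
    rw [zQ, map_sub, map_mul, aeval_C, map_pow, aeval_X, hy, eq_ratCast]
    ring
  have hQ2 : aeval y (zQ n) = (y - 1) ^ (n + 1) * aeval y g := by
    rw [hg, map_mul, map_pow, map_sub, aeval_X, map_one]
  have hkey : c * u ^ (n + 1) * aeval y g = y ^ (2 * n - 1) := by
    have h1 : γE ^ (n + 1) ≠ 0 := pow_ne_zero _ hγE0
    apply mul_left_cancel₀ h1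
    have h2 : γE ^ (n + 1) * (c * u ^ (n + 1) * aeval y g) = c * ((y - 1) ^ (n + 1) *
        aeval y g) := by
      rw [hu', mul_pow]; ring
    rw [h2, ← hQ2, hQ, hγ']
    ring
  have hcE : V.valuation (c : E) = 1 := val_rat hV hc
  have huv : V.valuation u = 1 := by
    apply val_pow_one (m := n + 1) (Nat.succ_ne_zero n)
    have h1 := congrArg V.valuation hkey
    rw [map_mul, map_mul, map_pow, map_pow, hcE, hgy, hy', one_pow, one_mul, mul_one] at h1
    exact h1
  have hγlt : V.valuation γE < 1 := by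
    have h1 : V.valuation (y - 1) = V.valuation γE := by rw [hu', map_mul, huv, mul_one]
    rw [← h1]
    exact hy1
  -- the polynomial
  set L : F[X] := 1 + C γ * X with hL
  have hLint : IntP V L := intP_one.add ((intP_C hγlt.le).mul intP_X)
  have hLu : aeval u L = y := by
    rw [hL, map_add, map_one, map_mul, aeval_C, aeval_X, ← hγE, hu]
  have hLd : derivative L = C γ := by
    rw [hL, derivative_add, derivative_one, zero_add, derivative_C_mul, derivative_X, mul_one]
  have hcint : IntP V (C (c : F)) := intP_C (by rw [map_ratCast]; exact hcE.le)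
  refine simple_value hV u (hgen_change hgen L hLu.symm) huv.le
    (C (c : F) * X ^ (n + 1) * (g.map (algebraMap ℚ F)).comp L - L ^ (2 * n - 1))
    (IntP.coeff ?_) ?_ ?_ x
  · exact ((hcint.mul (intP_X.pow _)).mul ((intP_rat hV g).comp hLint)).sub (hLint.pow _)
  · rw [map_sub, map_mul, map_mul, aeval_C, map_pow, map_pow, aeval_X, aeval_comp, hLu,
      aeval_map_rat, map_ratCast, hkey, sub_self]
  · set T : F[X] := C (c : F) * X ^ (n + 1) * ((derivative g).map (algebraMap ℚ F)).comp L -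
      ((2 * n - 1 : ℕ) : F[X]) * L ^ (2 * n - 1 - 1) with hT
    have hTint : IntP V T := ((hcint.mul (intP_X.pow _)).mul ((intP_rat hV _).comp hLint)).sub
      ((intP_natCast _).mul (hLint.pow _))
    have hder : derivative (C (c : F) * X ^ (n + 1) * (g.map (algebraMap ℚ F)).comp L -
        L ^ (2 * n - 1)) = C (c : F) * (((n + 1 : ℕ) : F[X]) * X ^ n) *
          (g.map (algebraMap ℚ F)).comp L + C γ * T := by
      rw [derivative_sub, derivative_mul, derivative_comp, derivative_C_mul_X_pow,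
        derivative_pow, hLd, hT, derivative_map, Nat.add_sub_cancel]
      simp only [map_mul, map_natCast]
      ring
    rw [hder, map_add]
    have h1 : aeval u (C (c : F) * (((n + 1 : ℕ) : F[X]) * X ^ n) *
          (g.map (algebraMap ℚ F)).comp L) = c * (((n + 1 : ℕ) : E) * u ^ n) * aeval y g := by
      rw [map_mul, map_mul, map_mul, aeval_C, map_pow, aeval_X, aeval_comp, hLu,
        aeval_map_rat, map_ratCast, map_natCast]
    have h2 : V.valuation ((n + 1 : ℕ) : E) = 1 := by
      have h3 := val_rat hV (c := ((n + 1 : ℕ) : ℚ)) (by exact_mod_cast Nat.succ_ne_zero n)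
      rw [Rat.cast_natCast] at h3
      exact h3
    have h3 : V.valuation (aeval u (C (c : F) * (((n + 1 : ℕ) : F[X]) * X ^ n) *
          (g.map (algebraMap ℚ F)).comp L)) = 1 := by
      rw [h1, map_mul, map_mul, map_mul, map_pow, hcE, h2, huv, hgy, one_pow]
      simp
    refine val_one_of_sub h3 ?_
    rw [add_sub_cancel_left, map_mul, aeval_C, map_mul]
    exact mul_lt_one_of_lt_of_le hγlt (hTint.val_aeval huv.le)

include hn in
/-- case 3: `V(y) > 1` -/
lemma loc_case3 (τ : F) (y : E) (hgen : ∀ x : E, ∃ P : F[X], x = aeval y P)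
    (hy : aeval y (zA n) = algebraMap F E τ * y ^ (2 * n - 1))
    (hy1 : 1 < V.valuation y) (x : E) :
    ∃ z : F, V.valuation (algebraMap F E z) = V.valuation x := by
  have hτy := val_root_gt hV hn hy hy1
  have hy0 : y ≠ 0 := by
    rintro rfl
    rw [map_zero] at hy1
    exact absurd hy1 (not_lt.2 zero_le)
  have hτ0 : algebraMap F E τ ≠ 0 := by
    intro h
    rw [← hτy, h, map_zero] at hy1
    exact absurd hy1 (not_lt.2 zero_le)
  obtain ⟨P₀, hP₀⟩ := exists_inv_poly (F := F) y
  have hu : V.valuation y⁻¹ < 1 := by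
    rw [map_inv₀]
    exact (inv_lt_one₀ (lt_trans zero_lt_one hy1)).2 hy1
  have hσ : V.valuation (algebraMap F E τ⁻¹) < 1 := by
    rw [map_inv₀, map_inv₀, hτy, ← map_inv₀]
    exact hu
  have h3 : y ^ (2 * n) = y * y ^ (2 * n - 1) := by
    rw [← pow_succ', Nat.sub_add_cancel (by omega)]
  have h4 : y * aeval y⁻¹ (zR n) = algebraMap F E τ := by
    have h5 : y ^ (2 * n - 1) ≠ 0 := pow_ne_zero _ hy0
    apply mul_right_cancel₀ h5
    rw [← hy, aeval_zA_zR n hy0, h3]
    ring
  refine simple_value hV y⁻¹ (hgen_change hgen P₀ hP₀) hu.le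
    (X - C τ⁻¹ * (zR n).map (algebraMap ℚ F)) (IntP.coeff ?_) ?_ ?_ x
  · exact intP_X.sub ((intP_C hσ.le).mul (intP_rat hV _))
  · rw [map_sub, map_mul, aeval_X, aeval_C, aeval_map_rat, map_inv₀]
    rw [← h4] at hτ0 ⊢
    have h6 := right_ne_zero_of_mul hτ0
    rw [mul_inv, mul_assoc, inv_mul_cancel₀ h6, mul_one, sub_self]
  · rw [derivative_sub, derivative_X, derivative_C_mul, derivative_map]
    have h7 : aeval y⁻¹ (1 - C τ⁻¹ * (derivative (zR n)).map (algebraMap ℚ F)) =
        1 - algebraMap F E τ⁻¹ * aeval y⁻¹ ((derivative (zR n)).map (algebraMap ℚ F)) := by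
      rw [map_sub, map_one, map_mul, aeval_C]
    refine val_one_of_sub (b := 1) (map_one _) ?_
    rw [h7, sub_sub_cancel_left, Valuation.map_neg, map_mul]
    exact mul_lt_one_of_lt_of_le hσ ((intP_rat hV _).val_aeval hu.le)

include hn in
/-- case 4: `V(τ) > 1`, `V(y) ≤ 1` -/
lemma loc_case4 (τ γ : F) (hγ : γ ^ (2 * n - 1) = τ - (zβ n : ℚ))
    (y : E) (hgen : ∀ x : E, ∃ P : F[X], x = aeval y P)
    (hy : aeval y (zA n) = algebraMap F E τ * y ^ (2 * n - 1))
    (hτ : 1 < V.valuation (algebraMap F E τ)) (hy1 : V.valuation y ≤ 1) (x : E) :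
    ∃ z : F, V.valuation (algebraMap F E z) = V.valuation x := by
  have hylt : V.valuation y < 1 := by
    refine lt_of_le_of_ne hy1 (fun h => ?_)
    have h1 := val_aeval_le hV (zA n) hy1
    rw [hy, map_mul, map_pow, h, one_pow, mul_one] at h1
    exact absurd hτ (not_lt.2 h1)
  set t := algebraMap F E τ with ht
  set γE := algebraMap F E γ with hγE
  have hγ' : γE ^ (2 * n - 1) = t - (zβ n : ℚ) := by
    rw [hγE, ← map_pow, hγ, map_sub, map_ratCast]
  have hγv : 1 < V.valuation γE := by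
    apply val_gt_of_pow (m := 2 * n - 1)
    rw [← map_pow, hγ', Valuation.map_sub_eq_of_lt_left]
    · exact hτ
    · exact lt_of_le_of_lt (val_rat_le hV _) hτ
  have hγE0 : γE ≠ 0 := by
    intro h
    rw [h, map_zero] at hγv
    exact absurd hγv (not_lt.2 zero_le)
  have hγ0 : γ ≠ 0 := by
    rintro rfl
    exact hγE0 (map_zero _)
  have hδ : V.valuation (algebraMap F E γ⁻¹) < 1 := by
    rw [map_inv₀, map_inv₀]
    exact (inv_lt_one₀ (lt_trans zero_lt_one hγv)).2 hγv
  have hQ : aeval y (zQ n) = (t - (zβ n : ℚ)) * y ^ (2 * n - 1) := by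
    rw [zQ, map_sub, map_mul, aeval_C, map_pow, aeval_X, hy, eq_ratCast]
    ring
  have hQv : V.valuation (aeval y (zQ n)) = 1 := by
    refine val_aeval_eq hV (zQ n) (c := 0) ?_ ?_
    · rw [zQ, eval_sub, eval_mul, eval_pow, eval_X, zero_pow (by omega), mul_zero, sub_zero]
      exact zA_zero n
    · rw [Rat.cast_zero, sub_zero]
      exact hylt
  have hupow : (y * γE) ^ (2 * n - 1) = aeval y (zQ n) := by
    rw [hQ, mul_pow, hγ']
    ring
  have huv : V.valuation (y * γE) = 1 := by
    apply val_pow_one (m := 2 * n - 1) (by omega)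
    rw [← map_pow, hupow, hQv]
  set L : F[X] := C γ⁻¹ * X with hL
  have hLint : IntP V L := (intP_C hδ.le).mul intP_X
  have hLu : aeval (y * γE) L = y := by
    rw [hL, map_mul, aeval_C, aeval_X, map_inv₀, ← hγE]
    field_simp
  have hLd : derivative L = C γ⁻¹ := by
    rw [hL, derivative_C_mul, derivative_X, mul_one]
  refine simple_value hV (y * γE) (hgen_change hgen L hLu.symm) huv.le
    (X ^ (2 * n - 1) - ((zQ n).map (algebraMap ℚ F)).comp L) (IntP.coeff ?_) ?_ ?_ x
  · exact (intP_X.pow _).sub ((intP_rat hV _).comp hLint)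
  · rw [map_sub, map_pow, aeval_X, aeval_comp, hLu, aeval_map_rat, hupow, sub_self]
  · rw [derivative_sub, derivative_X_pow, derivative_comp, hLd, derivative_map, map_sub, map_mul,
      map_mul, map_pow, aeval_X, aeval_C, aeval_C, map_natCast]
    have h2 : V.valuation ((2 * n - 1 : ℕ) : E) = 1 := by
      have h3 := val_rat hV (c := ((2 * n - 1 : ℕ) : ℚ)) (by
        have : 2 * n - 1 ≠ 0 := by omega
        exact_mod_cast this)
      rw [Rat.cast_natCast] at h3
      exact h3
    have h3 : V.valuation (((2 * n - 1 : ℕ) : E) * (y * γE) ^ (2 * n - 1 - 1)) = 1 := by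
      rw [map_mul, map_pow, h2, huv, one_pow, one_mul]
    refine val_one_of_sub h3 ?_
    rw [sub_sub_cancel_left, Valuation.map_neg, map_mul]
    exact mul_lt_one_of_lt_of_le hδ
      (IntP.val_aeval ((intP_rat hV _).comp hLint) huv.le)

include hn in
/-- the local theorem -/
theorem loc_root {m : ℕ} (hm1 : (n + 1) ∣ m) (hm2 : (2 * n - 1) ∣ m)
    (τ g₁ g₂ : F) (h₁ : g₁ ^ m = τ - (zβ n : ℚ)) (h₂ : g₂ ^ m = τ + (zβ n : ℚ))
    (hne₁ : τ - (zβ n : ℚ) ≠ 0) (hne₂ : τ + (zβ n : ℚ) ≠ 0)
    (y : E) (hgen : ∀ x : E, ∃ P : F[X], x = aeval y P)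
    (hy : (zP n (algebraMap F E τ)).eval y = 0) (x : E) :
    ∃ z : F, V.valuation (algebraMap F E z) = V.valuation x := by
  have hy' : aeval y (zA n) = algebraMap F E τ * y ^ (2 * n - 1) := by
    rw [zP_eval] at hy
    exact sub_eq_zero.1 hy
  obtain ⟨a, ha⟩ := hm1
  obtain ⟨b, hb⟩ := hm2
  by_cases hτ : V.valuation (algebraMap F E τ) ≤ 1
  · have hyv := val_root_one hV hn hy' hτ
    by_cases hy1 : V.valuation (y ^ 2 - 1) = 1
    · exact loc_case1 hV hn τ y hgen hy' hτ hy1 x
    have hle : V.valuation (y ^ 2 - 1) ≤ 1 := by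
      refine le_trans (Valuation.map_sub _ _ _) (max_le ?_ ?_)
      · rw [map_pow, hyv, one_pow]
      · rw [map_one]
    have hlt := lt_of_le_of_ne hle hy1
    have hfac : y ^ 2 - 1 = (y - 1) * (y + 1) := by ring
    rw [hfac, map_mul] at hlt
    by_cases hy2 : V.valuation (y - 1) < 1
    · refine loc_case2 hV hn τ (g₁ ^ a) (c := 1) one_ne_zero ?_ ?_ y hgen hy' hτ hy2 x
      · intro h
        apply hne₁
        rw [← h₁, ha, mul_comm, pow_mul, h, zero_pow (Nat.succ_ne_zero n)]
      · rw [← pow_mul, mul_comm, ← ha, h₁, Rat.cast_one, one_mul]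
    · have hy3 : V.valuation (-y - 1) < 1 := by
        have h1 : V.valuation (-y - 1) = V.valuation (y + 1) := by
          rw [← Valuation.map_neg, neg_sub, sub_neg_eq_add, add_comm]
        rw [h1]
        by_contra h2
        exact absurd hlt (not_lt.2 (one_le_mul (not_lt.1 hy2) (not_lt.1 h2)))
      refine loc_case2 hV hn (-τ) (g₂ ^ a) (c := -1) (neg_ne_zero.2 one_ne_zero) ?_ ?_ (-y)
        (hgen_change hgen (-X) (by simp)) ?_ ?_ hy3 x
      · intro h
        apply hne₂
        rw [← h₂, ha, mul_comm, pow_mul, h, zero_pow (Nat.succ_ne_zero n)]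
      · rw [← pow_mul, mul_comm, ← ha, h₂, Rat.cast_neg, Rat.cast_one]
        ring
      · have h1 := zP_neg hn (algebraMap F E τ) y
        rw [hy, zP_eval] at h1
        rw [map_neg]
        exact sub_eq_zero.1 h1
      · rw [map_neg, Valuation.map_neg]
        exact hτ
  · by_cases hy1 : V.valuation y ≤ 1
    · refine loc_case4 hV hn τ (g₁ ^ b) ?_ y hgen hy' (not_le.1 hτ) hy1 x
      rw [← pow_mul, mul_comm, ← hb, h₁]
    · exact loc_case3 hV hn τ y hgen hy' (not_le.1 hy1) x

end loc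

end P025H450
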