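import Vale.Agent.P025.R2.H450.Core

/-! # G-MONO: monotonicity of RNS -/

open Polynomial TensorProduct

namespace P025H450

open P025H373 P025H628 P025H544 P025H492 P025H837 Vale.Agent.P019P

universe u v

variable {C : Type u} [NontriviallyNormedField C] [IsUltrametricDist C] [CompleteSpace C]
  [IsAlgClosed C]

lemma algebraMap_tensorD {K : Type v} [Field K] [Algebra C K] [Algebra (RatFunc C) K]
    [IsScalarTower C (RatFunc C) K] (c : Cˣ) (a : C) :
    algebraMap C (F2r C c ⊗[RatFunc C] K) a = rD c K (algebraMap C K a) := by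
  have h1 : algebraMap C (F2r C c ⊗[RatFunc C] K) a = (algebraMap C (F2r C c) a) ⊗ₜ 1 := rfl
  rw [h1, IsScalarTower.algebraMap_apply C (RatFunc C) (F2r C c), rD_apply,
    IsScalarTower.algebraMap_apply C (RatFunc C) K, Algebra.algebraMap_eq_smul_one,
    Algebra.algebraMap_eq_smul_one (A := K), TensorProduct.smul_tmul]

/-- transport of `OnD` under restriction -/
theorem OnD.comap {K' K : Type v} [Field K'] [Field K] [Algebra C K'] [Algebra C K]
    [Algebra (RatFunc C) K'] [Algebra (RatFunc C) K] [IsScalarTower C (RatFunc C) K']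
    [IsScalarTower C (RatFunc C) K] [CFF C K'] [CFF C K] {c c' : Cˣ} (e : K →ₐ[C] K')
    (Ψ : F2r C c ⊗[RatFunc C] K →+* F2r C c' ⊗[RatFunc C] K')
    (hΨ : ∀ x : K, Ψ (rD c K x) = rD c' K' (e x)) {P : Plk C K} {P' : Plk C K'}
    (hP : ∀ x : K, ord P' (e x) = ord P x) {d' : Pt (RatFunc C) (F2r C c') K'}
    (h : OnD C c' P' d') {d : Pt (RatFunc C) (F2r C c) K}
    (hd : ∀ z, z ∈ d.asIdeal ↔ Ψ z ∈ d'.asIdeal) : OnD C c P d := by
  obtain ⟨φ', hk, hord⟩ := h
  have hC : ∀ a : C, Ψ (algebraMap C (F2r C c ⊗[RatFunc C] K) a) =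
      algebraMap C (F2r C c' ⊗[RatFunc C] K') a := by
    intro a
    rw [algebraMap_tensorD, algebraMap_tensorD, hΨ, AlgHom.commutes]
  let Ψa : F2r C c ⊗[RatFunc C] K →ₐ[C] F2r C c' ⊗[RatFunc C] K' :=
    { Ψ with commutes' := hC }
  refine ⟨φ'.comp Ψa, ?_, fun x hx => ?_⟩
  · ext z
    rw [RingHom.mem_ker, hd, ← hk, RingHom.mem_ker]
    exact Iff.rfl
  · have h4 : (φ'.comp Ψa) (1 ⊗ₜ x) = φ' (Ψ (rD c K x)) := rfl
    rw [h4, hΨ, ← hP]
    exact hord _ (by rwa [_root_.map_ne_zero])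

section core

variable {K' K L' L : Type v} [Field K'] [Field K] [Field L'] [Field L] [Algebra C K']
  [Algebra C K] [Algebra C L'] [Algebra C L]
  [Algebra (RatFunc C) K'] [Algebra (RatFunc C) K] [Algebra (RatFunc C) L']
  [Algebra (RatFunc C) L] [IsScalarTower C (RatFunc C) K']
  [IsScalarTower C (RatFunc C) K] [IsScalarTower C (RatFunc C) L']
  [IsScalarTower C (RatFunc C) L] [Algebra K' L'] [Algebra K L] [IsScalarTower (RatFunc C) K' L']
  [IsScalarTower (RatFunc C) K L]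

/-- powers on `|t₀| ≤ ‖c'‖` are powers on `|T| ≤ ‖c‖` -/
theorem powV {c c' : Cˣ} (e : K' →+* K) (eL : L' →+* L)
    (he : ∀ x : K', eL (algebraMap K' L' x) = algebraMap K L (e x))
    (ψ : F1r C c' →+* F1r C c ⊗[RatFunc C] K)
    (hψ : ∀ f : RatFunc C, ψ (algebraMap (RatFunc C) (F1r C c') f) =
      1 ⊗ₜ e (algebraMap (RatFunc C) K' f)) {l : ℕ} {β : L'}
    (h : ∃ x : F1r C c' ⊗[RatFunc C] L', x ^ l = 1 ⊗ₜ β) :
    ∃ x : F1r C c ⊗[RatFunc C] L, x ^ l = 1 ⊗ₜ eL β := by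
  obtain ⟨Ψ, hΨ⟩ := exists_lift ψ e eL hψ he
  obtain ⟨x, hx⟩ := h
  refine ⟨Ψ x, ?_⟩
  rw [← map_pow, hx, hΨ, map_one, map_one, one_mul]

/-- transport of the point -/
theorem pointD [CFF C K'] [CFF C K] {c c' : Cˣ} (e : K →ₐ[C] K') (eL : L →+* L')
    (he : ∀ x : K, eL (algebraMap K L x) = algebraMap K' L' (e x))
    (ψ : F2r C c →+* F2r C c' ⊗[RatFunc C] K')
    (hψ : ∀ f : RatFunc C, ψ (algebraMap (RatFunc C) (F2r C c) f) =
      1 ⊗ₜ e (algebraMap (RatFunc C) K f)) (P : Plk C K) (P' : Plk C K')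
    (hP : ∀ x : K, ord P' (e x) = ord P x) {l : ℕ} {β : L}
    (d' : Pt (RatFunc C) (F2r C c') L')
    (h1 : OnD C c' P' (ptMap (RatFunc C) (F2r C c') (IsScalarTower.toAlgHom (RatFunc C) K' L') d'))
    (h2 : NotPow l (RatFunc C) (F2r C c') (eL β) d') :
    ∃ d : Pt (RatFunc C) (F2r C c) L,
      OnD C c P (ptMap (RatFunc C) (F2r C c) (IsScalarTower.toAlgHom (RatFunc C) K L) d) ∧
      NotPow l (RatFunc C) (F2r C c) β d := by
  obtain ⟨Ψ, hΨ⟩ := exists_lift ψ (e : K →+* K') eL hψ he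
  obtain ⟨Ψ', hΨ'⟩ : ∃ Ψ' : F2r C c ⊗[RatFunc C] K →+* F2r C c' ⊗[RatFunc C] K', ∀ a x,
      Ψ' (a ⊗ₜ x) = ψ a * (1 ⊗ₜ (e : K →+* K') x) := by
    have h : ψ.comp (algebraMap (RatFunc C) (F2r C c)) =
        ((rD c' K').comp (e : K →+* K')).comp (algebraMap (RatFunc C) K) := RingHom.ext hψ
    exact tensor_lift ψ ((rD c' K').comp (e : K →+* K')) h
  have hsq := lift_comp (e := (e : K →+* K')) he hΨ hΨ'
  refine ⟨PrimeSpectrum.comap Ψ d', ?_, ?_⟩
  · refine OnD.comap e Ψ' (fun x => ?_) hP h1 (fun z => ?_)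
    · rw [rD_apply, hΨ', map_one, one_mul]
      rfl
    · have h5 : z ∈ (ptMap (RatFunc C) (F2r C c) (IsScalarTower.toAlgHom (RatFunc C) K L)
          (PrimeSpectrum.comap Ψ d')).asIdeal ↔
          Ψ (tL (RatFunc C) (F2r C c) (IsScalarTower.toAlgHom (RatFunc C) K L) z) ∈
            d'.asIdeal := Iff.rfl
      rw [h5, hsq]
      exact Iff.rfl
  · intro z hz
    have h3 : Ψ (z ^ l - 1 ⊗ₜ β) ∈ d'.asIdeal := hz
    rw [map_sub, map_pow, hΨ, map_one, map_one, one_mul] at h3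
    exact h2 _ h3

end core

section final

lemma mem_A1_X (c : Cˣ) :
    ((algebraMap (RatFunc C) (F1 C) (scale (c : C) c.ne_zero RatFunc.X) : F1 C) : F0 C) ∈ A1 C := by
  rw [scale_X, map_mul]
  have h1 : ((algebraMap (RatFunc C) (F1 C) (RatFunc.C (c : C)) *
      algebraMap (RatFunc C) (F1 C) RatFunc.X : F1 C) : F0 C) =
      algebraMap C (F0 C) (c : C) * tt C := rfl
  rw [h1]
  exact (A1 C).mul_mem ((A1 C).algebraMap_mem _) tt_mem_A1

lemma mem_A1_inv (c : Cˣ) (a : C) (ha : ‖(c : C)‖ < ‖a‖) :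
    ((algebraMap (RatFunc C) (F1 C) (scale (c : C) c.ne_zero ((RatFunc.X - RatFunc.C a)⁻¹)) :
      F1 C) : F0 C) ∈ A1 C := by
  have hcs : CompleteSpace (A1 C) := isClosed_A1.completeSpace_coe
  have ha0 : a ≠ 0 := by
    rintro rfl
    rw [norm_zero] at ha
    exact absurd ha (not_lt.2 (norm_nonneg _))
  have h1 : scale (c : C) c.ne_zero (RatFunc.C a) = RatFunc.C a :=
    (scale (c : C) c.ne_zero).commutes a
  rw [map_inv₀, map_sub, scale_X, h1]
  have h2 : ((algebraMap (RatFunc C) (F1 C) (RatFunc.C (c : C) * RatFunc.X - RatFunc.C a)⁻¹ :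
      F1 C) : F0 C) = (algebraMap C (F0 C) (c : C) * tt C - algebraMap C (F0 C) a)⁻¹ := by
    rw [map_inv₀, map_sub, map_mul]
    rfl
  rw [h2]
  set z : A1 C := algebraMap C (A1 C) ((c : C) * a⁻¹) * ⟨tt C, tt_mem_A1⟩ with hz
  have hzn : ‖z‖ < 1 := by
    have h3 : ‖z‖ = ‖algebraMap C (F0 C) ((c : C) * a⁻¹) * tt C‖ := rfl
    rw [h3, norm_mul, norm_algebraMap_C, norm_tt, mul_one, norm_mul, norm_inv,
      ← div_eq_mul_inv, div_lt_one (norm_pos_iff.2 ha0)]
    exact ha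
  obtain ⟨w, hw⟩ := (isUnit_one_sub_of_norm_lt_one hzn).exists_right_inv
  have hw' : (1 - algebraMap C (F0 C) ((c : C) * a⁻¹) * tt C) * (w : F0 C) = 1 :=
    congrArg (fun x : A1 C => (x : F0 C)) hw
  have h4 : (algebraMap C (F0 C) (c : C) * tt C - algebraMap C (F0 C) a)⁻¹ =
      algebraMap C (F0 C) (-a⁻¹) * (w : F0 C) := by
    apply inv_eq_of_mul_eq_one_right
    rw [map_mul] at hw'
    have h5 : algebraMap C (F0 C) a * algebraMap C (F0 C) a⁻¹ = 1 := by
      rw [← map_mul, mul_inv_cancel₀ ha0, map_one]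
    rw [map_neg]
    linear_combination hw' + (w : F0 C) * h5
  rw [h4]
  exact (A1 C).mul_mem ((A1 C).algebraMap_mem _) w.2

/-- **G-MONO**: monotonicity of RNS and independence of the coordinates -/
theorem RNS.at {K : Type v} [Field K] [Algebra C K] [iT : Algebra (RatFunc C) K]
    [tT : IsScalarTower C (RatFunc C) K] [CFF C K] {N l : ℕ} {P : Plk C K} (h : RNS N l C K P)
    (c : Cˣ) (hc : ord P (algebraMap (RatFunc C) K RatFunc.X) < 0 ∨ ∃ a : C, ‖(c : C)‖ < ‖a‖ ∧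
      0 < ord P (algebraMap (RatFunc C) K RatFunc.X - algebraMap C K a)) :
    RNSat C N l P c := by
  have htr : Transcendental C (algebraMap (RatFunc C) K RatFunc.X) := by
    intro h1
    have h2 : Transcendental C (RatFunc.X : RatFunc C) := RatFunc.transcendental_X
    apply h2
    exact (isAlgebraic_algebraMap_iff (algebraMap (RatFunc C) K).injective).1 h1
  have hCT : ∀ a : C, algebraMap (RatFunc C) K (RatFunc.C a) = algebraMap C K a := fun a =>
    (IsScalarTower.algebraMap_apply C (RatFunc C) K a).symm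
  obtain ⟨τ, a, hτ, hτP, ha, hP⟩ : ∃ (τ : RatFunc C) (a : C),
      ((algebraMap (RatFunc C) (F1 C) (scale (c : C) c.ne_zero τ) : F1 C) : F0 C) ∈ A1 C ∧
      ord P (algebraMap (RatFunc C) K τ) < 0 ∧ ‖a‖ < 1 ∧
      0 < ord P (algebraMap C K (c : C) * (algebraMap (RatFunc C) K RatFunc.X)⁻¹ -
        algebraMap C K a) := by
    have hT0 : algebraMap (RatFunc C) K RatFunc.X ≠ 0 := by
      rw [_root_.map_ne_zero]; exact RatFunc.X_ne_zero
    have hcK : algebraMap C K (c : C) ≠ 0 := by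
      rw [_root_.map_ne_zero]; exact c.ne_zero
    rcases hc with h1 | ⟨a, h1, h2⟩
    · refine ⟨RatFunc.X, 0, mem_A1_X c, h1, by rw [norm_zero]; exact zero_lt_one, ?_⟩
      rw [map_zero, sub_zero, ord_mul P hcK (inv_ne_zero hT0), ord_inv, ord_const]
      omega
    · have ha0 : a ≠ 0 := by
        rintro rfl
        rw [norm_zero] at h1
        exact absurd h1 (not_lt.2 (norm_nonneg _))
      have haK : algebraMap C K a ≠ 0 := by rwa [_root_.map_ne_zero]
      set T := algebraMap (RatFunc C) K RatFunc.X with hT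
      have hTa : T - algebraMap C K a ≠ 0 := by
        intro h3
        rw [h3, ord_zero] at h2
        exact lt_irrefl _ h2
      have hTP : ord P T = 0 := by
        have h3 := (ord_add_of_lt (P := P) haK (w := T - algebraMap C K a)
          (Or.inr (by rw [ord_const]; omega))).2
        rw [add_sub_cancel, ord_const] at h3
        exact h3
      refine ⟨(RatFunc.X - RatFunc.C a)⁻¹, (c : C) * a⁻¹, mem_A1_inv c a h1, ?_, ?_, ?_⟩
      · rw [map_inv₀, map_sub, hCT, ord_inv, ← hT]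
        omega
      · rw [norm_mul, norm_inv, ← div_eq_mul_inv, div_lt_one (norm_pos_iff.2 ha0)]
        exact h1
      · have h3 : algebraMap C K (c : C) * T⁻¹ - algebraMap C K ((c : C) * a⁻¹) =
            (-(algebraMap C K (c : C) * (algebraMap C K a)⁻¹)) *
              ((T - algebraMap C K a) * T⁻¹) := by
          rw [map_mul, map_inv₀]
          field_simp
          ring
        rw [h3, ord_mul P (neg_ne_zero.2 (mul_ne_zero hcK (inv_ne_zero haK)))
          (mul_ne_zero hTa (inv_ne_zero hT0)), ord_neg, ord_mul P hcK (inv_ne_zero haK),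
          ord_mul P hTa (inv_ne_zero hT0), ord_inv, ord_inv, ord_const, ord_const, hTP]
        omega
  obtain ⟨i', t', h0, hr⟩ := h
  obtain ⟨r1, hr1⟩ := @exists_psiV C _ _ _ _ K K _ _ _ _ i' iT t' tT _ AlgEquiv.refl P h0 c τ hτ hτP
  obtain ⟨r2, hr2⟩ := @exists_psiD C _ _ _ _ K K _ _ _ _ i' iT t' tT _ AlgEquiv.refl P h0 htr c a
    ha hP
  obtain ⟨c', hc', L, fL, aCL, aKL, i'L, tCKL, tCRL', tRKL', cffL, hcov, β, hβ0, hβ, hV, d', hD1,
    hD2⟩ := hr (max r1 r2)
  obtain ⟨ψ1, hψ1⟩ := hr1 c' ((le_max_left _ _).trans hc')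
  obtain ⟨ψ2, hψ2⟩ := hr2 c' ((le_max_right _ _).trans hc')
  let iTL : Algebra (RatFunc C) L :=
    ((algebraMap K L).comp (@algebraMap (RatFunc C) K _ _ iT)).toAlgebra
  have tRKL : @IsScalarTower (RatFunc C) K L iT.toSMul aKL.toSMul iTL.toSMul :=
    @IsScalarTower.of_algebraMap_eq (RatFunc C) K L _ _ _ iT aKL iTL (fun _ => rfl)
  have tCRL : @IsScalarTower C (RatFunc C) L _ iTL.toSMul aCL.toSMul :=
    @IsScalarTower.of_algebraMap_eq C (RatFunc C) L _ _ _ _ iTL aCL (fun x => by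
      have h1 : @algebraMap (RatFunc C) L _ _ iTL (algebraMap C (RatFunc C) x) =
          algebraMap K L (@algebraMap (RatFunc C) K _ _ iT (algebraMap C (RatFunc C) x)) := rfl
      rw [h1, IsScalarTower.algebraMap_apply C K L]
      congr 1
      exact (hCT x).symm)
  refine ⟨L, fL, aCL, aKL, iTL, tCKL, tCRL, tRKL, cffL, hcov, β, hβ0, hβ, ?_, ?_⟩
  · exact @powV C _ _ _ _ K K L L _ _ _ _ _ _ aCL aCL i' iT i'L iTL t' tT tCRL' tCRL aKL aKL
      tRKL' tRKL c c' (RingHom.id K) (RingHom.id L) (fun x => rfl) ψ1 hψ1 l β hV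
  · exact @pointD C _ _ _ _ K K L L _ _ _ _ _ _ aCL aCL i' iT i'L iTL t' tT tCRL' tCRL aKL aKL
      tRKL' tRKL _ _ c c' (AlgHom.id C K) (RingHom.id L) (fun x => rfl) ψ2 hψ2 P P
      (fun x => rfl) l β d' hD1 hD2

end final

end P025H450
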