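import Vale.Agent.P025.R2.H450.Ev3
import Vale.Agent.P025.R2.H628.Rad

/-! # Restriction homomorphisms between the patching squares of two functions -/

open Polynomial TensorProduct

namespace P025H450

open P025H373 P025H628 P025H544

universe u v w

variable {C : Type u} [NontriviallyNormedField C] [IsUltrametricDist C] [CompleteSpace C]
  [IsAlgClosed C]

/-- gluing ring homomorphisms on a tensor product -/
theorem tensor_lift {R A L B : Type*} [CommRing R] [CommRing A] [CommRing L] [CommRing B]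
    [Algebra R A] [Algebra R L] (f : A →+* B) (g : L →+* B)
    (h : f.comp (algebraMap R A) = g.comp (algebraMap R L)) :
    ∃ Φ : A ⊗[R] L →+* B, ∀ a x, Φ (a ⊗ₜ x) = f a * g x := by
  let _ : Algebra R B := (f.comp (algebraMap R A)).toAlgebra
  let f' : A →ₐ[R] B := { f with commutes' := fun r => rfl }
  let g' : L →ₐ[R] B := { g with commutes' := fun r => (RingHom.congr_fun h r).symm }
  refine ⟨(Algebra.TensorProduct.lift f' g' (fun _ _ => Commute.all _ _)).toRingHom, ?_⟩
  intro a x
  exact Algebra.TensorProduct.lift_tmul f' g' _ a x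

/-- two ring homomorphisms on `C(t)` which agree on `C` and at `t` agree -/
lemma ratFunc_hom_ext' {B : Type*} [CommRing B] {f g : RatFunc C →+* B}
    (hC : ∀ c : C, f (RatFunc.C c) = g (RatFunc.C c)) (hX : f RatFunc.X = g RatFunc.X) : f = g := by
  apply ratFunc_hom_ext
  intro P
  have h : f.comp (algebraMap C[X] (RatFunc C)) = g.comp (algebraMap C[X] (RatFunc C)) := by
    apply Polynomial.ringHom_ext
    · intro c
      rw [RingHom.comp_apply, RingHom.comp_apply, RatFunc.algebraMap_C]
      exact hC c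
    · rw [RingHom.comp_apply, RingHom.comp_apply, RatFunc.algebraMap_X]
      exact hX
  exact RingHom.congr_fun h P

/-- abstract form of the restriction on `|T| ≤ r` -/
theorem exists_res1 {L' B L : Type*} [Field L'] [Algebra C L'] [Algebra (RatFunc C) L']
    [IsScalarTower C (RatFunc C) L'] [Field L] [Algebra C L] [CommRing B] (c' : Cˣ)
    (k : A1 C →+* B) (r : L →+* B) (hkr : ∀ a : C, k (algebraMap C (A1 C) a) =
      r (algebraMap C L a)) (e : L' →ₐ[C] L)
    (htr : Transcendental C (algebraMap (RatFunc C) L' RatFunc.X))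
    (μ : (A1 C)[X]) (hμ : μ.Monic) (hbd : ∀ n, ‖μ.coeff n‖ ≤ 1)
    (hroot : eval₂ k (r (algebraMap C L (c' : C)⁻¹ *
      e (algebraMap (RatFunc C) L' RatFunc.X))) μ = 0) :
    ∃ ψ : F1r C c' →+* B, ∀ f : RatFunc C, ψ (algebraMap (RatFunc C) (F1r C c') f) =
      r (e (algebraMap (RatFunc C) L' f)) := by
  have hcs : CompleteSpace (A1 C) := isClosed_A1.completeSpace_coe
  have hnc : NormOneClass (A1 C) := ⟨(norm_one : ‖(1 : F0 C)‖ = 1)⟩
  set θ : L := algebraMap C L (c' : C)⁻¹ * e (algebraMap (RatFunc C) L' RatFunc.X) with hθ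
  have hc' : (c' : C) ≠ 0 := c'.ne_zero
  have hev : ∀ P : C[X], eval₂ (k.comp (algebraMap C (A1 C))) (r θ) P = r (aeval θ P) := by
    intro P
    rw [aeval_def, hom_eval₂]
    congr 1
    exact RingHom.ext hkr
  have hθtr : Transcendental C θ := by
    intro h
    apply htr
    have h1 : IsAlgebraic C (e (algebraMap (RatFunc C) L' RatFunc.X)) := by
      have h2 : e (algebraMap (RatFunc C) L' RatFunc.X) = algebraMap C L (c' : C) * θ := by
        rw [hθ, ← mul_assoc, ← map_mul, mul_inv_cancel₀ hc', map_one, one_mul]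
      rw [h2]
      exact (isAlgebraic_algebraMap _).mul h
    exact (isAlgebraic_algHom_iff e e.toRingHom.injective).1 h1
  obtain ⟨ψ, hψ⟩ := exists_int1 (algebraMap C (A1 C)) (fun c => (norm_algebraMap_C c).le) k (r θ)
    μ hμ hbd hroot (fun P hP => by
      rw [hev]
      apply IsUnit.map
      rw [isUnit_iff_ne_zero]
      intro h0
      exact hθtr ⟨P, hP, h0⟩)
  let ψ' : F1r C c' →+* B := ψ
  have hψ' : ∀ f : RatFunc C, ψ' (algebraMap (RatFunc C) (F1r C c') f) =
      ψ (algebraMap (RatFunc C) (F1 C) (scale (c' : C) c'.ne_zero f)) := fun f => rfl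
  have hψC : ∀ a : C, ψ (algebraMap (RatFunc C) (F1 C) (RatFunc.C a)) = r (algebraMap C L a) := by
    intro a
    have h1 := hψ (Polynomial.C a)
    rw [RatFunc.algebraMap_C, hev, aeval_C] at h1
    exact h1
  have hcomp : ψ'.comp (algebraMap (RatFunc C) (F1r C c')) =
      (r.comp (e : L' →+* L)).comp (algebraMap (RatFunc C) L') := by
    apply ratFunc_hom_ext'
    · intro a
      rw [RingHom.comp_apply, hψ']
      have h1 : scale (c' : C) c'.ne_zero (RatFunc.C a) = RatFunc.C a :=
        (scale (c' : C) c'.ne_zero).commutes a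
      rw [h1, hψC]
      have h2 : algebraMap (RatFunc C) L' (RatFunc.C a) = algebraMap C L' a :=
        (IsScalarTower.algebraMap_apply C (RatFunc C) L' a).symm
      rw [RingHom.comp_apply, RingHom.comp_apply, h2]
      exact congrArg r (e.commutes a).symm
    · rw [RingHom.comp_apply, hψ', scale_X, map_mul, map_mul, hψC]
      have h1 := hψ X
      rw [RatFunc.algebraMap_X, hev, aeval_X] at h1
      rw [h1, RingHom.comp_apply, RingHom.comp_apply, ← map_mul]
      congr 1
      rw [hθ, ← mul_assoc, ← map_mul, mul_inv_cancel₀ hc', map_one, one_mul]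
      rfl
  exact ⟨ψ', fun f => RingHom.congr_fun hcomp f⟩

/-- abstract form of the restriction on `|T| > r` -/
theorem exists_res2 {L' B L : Type*} [Field L'] [Algebra C L'] [Algebra (RatFunc C) L']
    [IsScalarTower C (RatFunc C) L'] [Field L] [Algebra C L] [CommRing B] (c' : Cˣ)
    (k : A2 C →+* B) (r : L →+* B) (hkr : ∀ a : C, k (algebraMap C (A2 C) a) =
      r (algebraMap C L a)) (e : L' →ₐ[C] L)
    (htr : Transcendental C (algebraMap (RatFunc C) L' RatFunc.X))
    (μ : (A2 C)[X]) (hμ : μ.Monic) (hbd : ∀ n < μ.natDegree, ‖μ.coeff n‖ < 1)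
    (a : C) (ha : ‖a‖ < 1)
    (hroot : eval₂ k (r (algebraMap C L (c' : C) *
      (e (algebraMap (RatFunc C) L' RatFunc.X))⁻¹ - algebraMap C L a)) μ = 0) :
    ∃ ψ : F2r C c' →+* B, ∀ f : RatFunc C, ψ (algebraMap (RatFunc C) (F2r C c') f) =
      r (e (algebraMap (RatFunc C) L' f)) := by
  have hcs : CompleteSpace (A2 C) := isClosed_A2.completeSpace_coe
  have hnc : NormOneClass (A2 C) := ⟨(norm_one : ‖(1 : F0 C)‖ = 1)⟩
  set θ : L := algebraMap C L (c' : C) * (e (algebraMap (RatFunc C) L' RatFunc.X))⁻¹ with hθ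
  have hc' : (c' : C) ≠ 0 := c'.ne_zero
  have hX0 : e (algebraMap (RatFunc C) L' RatFunc.X) ≠ 0 := by
    rw [_root_.map_ne_zero, _root_.map_ne_zero]
    exact RatFunc.X_ne_zero
  have hev : ∀ P : C[X], eval₂ (k.comp (algebraMap C (A2 C))) (r θ) P = r (aeval θ P) := by
    intro P
    rw [aeval_def, hom_eval₂]
    congr 1
    exact RingHom.ext hkr
  have hθtr : Transcendental C θ := by
    intro h
    apply htr
    have h1 : IsAlgebraic C (e (algebraMap (RatFunc C) L' RatFunc.X)) := by
      have h2 : e (algebraMap (RatFunc C) L' RatFunc.X) = algebraMap C L (c' : C) * θ⁻¹ := by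
        rw [hθ, mul_inv, inv_inv, ← mul_assoc, ← map_inv₀, ← map_mul, mul_inv_cancel₀ hc',
          map_one, one_mul]
      rw [h2]
      exact (isAlgebraic_algebraMap _).mul h.inv
    exact (isAlgebraic_algHom_iff e e.toRingHom.injective).1 h1
  have hsum : k (algebraMap C (A2 C) a) + r (θ - algebraMap C L a) = r θ := by
    rw [hkr, ← map_add, add_sub_cancel]
  obtain ⟨ψ, hψ⟩ := exists_int2 (algebraMap C (A2 C)) (fun c => (norm_algebraMap_C c).le) k
    (r (θ - algebraMap C L a)) μ hμ hbd hroot (algebraMap C (A2 C) a)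
    ((norm_algebraMap_C a).trans_lt ha) (fun P hP => by
      rw [hsum, hev]
      apply IsUnit.map
      rw [isUnit_iff_ne_zero]
      intro h0
      exact hθtr ⟨P, hP, h0⟩)
  simp only [hsum, hev] at hψ
  let ψ' : F2r C c' →+* B := ψ
  have hψ' : ∀ f : RatFunc C, ψ' (algebraMap (RatFunc C) (F2r C c') f) =
      ψ (algebraMap (RatFunc C) (F2 C) (scale (c' : C) c'.ne_zero f)) := fun f => rfl
  have hψC : ∀ a : C, ψ (algebraMap (RatFunc C) (F2 C) (RatFunc.C a)) = r (algebraMap C L a) := by
    intro a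
    have h1 := hψ (Polynomial.C a)
    rw [aeval_C, aeval_C] at h1
    exact h1
  have hcomp : ψ'.comp (algebraMap (RatFunc C) (F2r C c')) =
      (r.comp (e : L' →+* L)).comp (algebraMap (RatFunc C) L') := by
    apply ratFunc_hom_ext'
    · intro a
      rw [RingHom.comp_apply, hψ']
      have h1 : scale (c' : C) c'.ne_zero (RatFunc.C a) = RatFunc.C a :=
        (scale (c' : C) c'.ne_zero).commutes a
      rw [h1, hψC]
      have h2 : algebraMap (RatFunc C) L' (RatFunc.C a) = algebraMap C L' a :=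
        (IsScalarTower.algebraMap_apply C (RatFunc C) L' a).symm
      rw [RingHom.comp_apply, RingHom.comp_apply, h2]
      exact congrArg r (e.commutes a).symm
    · rw [RingHom.comp_apply, hψ', scale_X, map_mul, map_mul, hψC]
      have h1 := hψ X
      rw [aeval_X, aeval_X] at h1
      -- `ψ(X⁻¹) = r θ`
      have h2 : ψ (algebraMap (RatFunc C) (F2 C) RatFunc.X) * r θ = 1 := by
        rw [← h1, ← map_mul, ← map_mul, mul_inv_cancel₀ RatFunc.X_ne_zero, map_one, map_one]
      have h3 : r θ * r (algebraMap C L (c' : C)⁻¹ *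
          e (algebraMap (RatFunc C) L' RatFunc.X)) = 1 := by
        rw [← map_mul, hθ]
        have h4 : algebraMap C L (c' : C) * (e (algebraMap (RatFunc C) L' RatFunc.X))⁻¹ *
            (algebraMap C L (c' : C)⁻¹ * e (algebraMap (RatFunc C) L' RatFunc.X)) = 1 := by
          rw [mul_mul_mul_comm, ← map_mul, mul_inv_cancel₀ hc', map_one, one_mul,
            inv_mul_cancel₀ hX0]
        rw [h4, map_one]
      have h5 : ψ (algebraMap (RatFunc C) (F2 C) RatFunc.X) =
          r (algebraMap C L (c' : C)⁻¹ * e (algebraMap (RatFunc C) L' RatFunc.X)) := by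
        calc _ = ψ (algebraMap (RatFunc C) (F2 C) RatFunc.X) * (r θ * r (algebraMap C L (c' : C)⁻¹ *
              e (algebraMap (RatFunc C) L' RatFunc.X))) := by rw [h3, mul_one]
          _ = _ := by rw [← mul_assoc, h2, one_mul]
      rw [h5, RingHom.comp_apply, RingHom.comp_apply, ← map_mul]
      congr 1
      rw [← mul_assoc, ← map_mul, mul_inv_cancel₀ hc', map_one, one_mul]
      rfl
  exact ⟨ψ', fun f => RingHom.congr_fun hcomp f⟩

/-- extension of scalars of a restriction homomorphism -/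
theorem exists_lift {F G H K' K L' L : Type*} [Field F] [Field G] [Field H] [Field K'] [Field K]
    [Field L'] [Field L] [Algebra F G] [Algebra F H] [Algebra F K'] [Algebra F K] [Algebra F L']
    [Algebra F L] [Algebra K' L'] [Algebra K L] [IsScalarTower F K' L'] [IsScalarTower F K L]
    (ψ : G →+* H ⊗[F] K) (e : K' →+* K) (eL : L' →+* L)
    (hψ : ∀ f : F, ψ (algebraMap F G f) = 1 ⊗ₜ e (algebraMap F K' f))
    (he : ∀ x : K', eL (algebraMap K' L' x) = algebraMap K L (e x)) :
    ∃ Ψ : G ⊗[F] L' →+* H ⊗[F] L, ∀ a x,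
      Ψ (a ⊗ₜ x) = tL F H (IsScalarTower.toAlgHom F K L) (ψ a) * (1 ⊗ₜ eL x) := by
  let r : L →+* H ⊗[F] L := (Algebra.TensorProduct.includeRight : L →ₐ[F] H ⊗[F] L).toRingHom
  let t : H ⊗[F] K →+* H ⊗[F] L := (tL F H (IsScalarTower.toAlgHom F K L)).toRingHom
  have h : (t.comp ψ).comp (algebraMap F G) = (r.comp eL).comp (algebraMap F L') := by
    apply RingHom.ext
    intro f
    rw [RingHom.comp_apply, RingHom.comp_apply, hψ, RingHom.comp_apply, RingHom.comp_apply,
      IsScalarTower.algebraMap_apply F K' L', he]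
    exact tL_tmul F H _ _ _
  obtain ⟨Φ, hΦ⟩ := tensor_lift (t.comp ψ) (r.comp eL) h
  exact ⟨Φ, fun a x => hΦ a x⟩

/-- compatibility of the extensions of scalars -/
theorem lift_comp {F G H K' K L' L : Type*} [Field F] [Field G] [Field H] [Field K'] [Field K]
    [Field L'] [Field L] [Algebra F G] [Algebra F H] [Algebra F K'] [Algebra F K] [Algebra F L']
    [Algebra F L] [Algebra K' L'] [Algebra K L] [IsScalarTower F K' L'] [IsScalarTower F K L]
    {ψ : G →+* H ⊗[F] K} {e : K' →+* K} {eL : L' →+* L}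
    (he : ∀ x : K', eL (algebraMap K' L' x) = algebraMap K L (e x))
    {Ψ : G ⊗[F] L' →+* H ⊗[F] L} (hΨ : ∀ a x,
      Ψ (a ⊗ₜ x) = tL F H (IsScalarTower.toAlgHom F K L) (ψ a) * (1 ⊗ₜ eL x))
    {Ψ' : G ⊗[F] K' →+* H ⊗[F] K} (hΨ' : ∀ a x, Ψ' (a ⊗ₜ x) = ψ a * (1 ⊗ₜ e x))
    (z : G ⊗[F] K') :
    Ψ (tL F G (IsScalarTower.toAlgHom F K' L') z) =
      tL F H (IsScalarTower.toAlgHom F K L) (Ψ' z) := by
  induction z with
  | zero => rw [map_zero, map_zero, map_zero, map_zero]
  | add x y hx hy => rw [map_add, map_add, map_add, map_add, hx, hy]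
  | tmul a x =>
    rw [tL_tmul, hΨ, hΨ', map_mul, tL_tmul, IsScalarTower.toAlgHom_apply, he,
      IsScalarTower.toAlgHom_apply]

end P025H450
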