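import Mathlib

/-! # Evaluation of convergent power series at integral elements

`A` a complete ultrametric ring, `μ` a monic polynomial over `A` with coefficients of norm at
most one: `AdjoinRoot μ` is a complete normed ring in which the root has norm at most one. -/

open Polynomial

namespace P025H450

section norm

variable {A : Type*} [NormedCommRing A] [IsUltrametricDist A]

lemma norm_sub_le_of {a b : A} {r : ℝ} (ha : ‖a‖ ≤ r) (hb : ‖b‖ ≤ r) : ‖a - b‖ ≤ r := by
  rw [sub_eq_add_neg]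
  refine (IsUltrametricDist.norm_add_le_max a (-b)).trans (max_le ha ?_)
  rwa [norm_neg]

lemma norm_sum_le_of {ι : Type*} (s : Finset ι) (f : ι → A) {r : ℝ} (hr : 0 ≤ r)
    (h : ∀ i ∈ s, ‖f i‖ ≤ r) : ‖∑ i ∈ s, f i‖ ≤ r :=
  IsUltrametricDist.norm_sum_le_of_forall_le_of_nonneg hr h

/-- all coefficients have norm at most `r` -/
def Bd (P : A[X]) (r : ℝ) : Prop := ∀ n, ‖P.coeff n‖ ≤ r

lemma Bd.mul {P Q : A[X]} {r s : ℝ} (hr : 0 ≤ r) (hs : 0 ≤ s) (hP : Bd P r) (hQ : Bd Q s) :
    Bd (P * Q) (r * s) := by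
  intro n
  rw [coeff_mul]
  refine norm_sum_le_of _ _ (mul_nonneg hr hs) (fun x _ => ?_)
  exact (norm_mul_le _ _).trans (mul_le_mul (hP _) (hQ _) (norm_nonneg _) hr)

variable [Nontrivial A]

lemma Bd.modByMonic {μ : A[X]} (hμ : μ.Monic) (hb : Bd μ 1) {r : ℝ} (hr : 0 ≤ r) :
    ∀ (n : ℕ) (P : A[X]), P.natDegree < n → Bd P r → Bd (P %ₘ μ) r := by
  intro n
  induction n with
  | zero => intro P hP; omega
  | succ n ih =>
    intro P hPn hP
    by_cases hdeg : P.degree < μ.degree
    · rw [(modByMonic_eq_self_iff hμ).2 hdeg]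
      exact hP
    · have hle : μ.degree ≤ P.degree := not_lt.1 hdeg
      by_cases hP0 : P = 0
      · rw [hP0, zero_modByMonic]
        intro n
        rw [coeff_zero, norm_zero]
        exact hr
      set z : A[X] := C P.leadingCoeff * X ^ (P.natDegree - μ.natDegree) with hz
      have h1 : (P - μ * z) %ₘ μ = P %ₘ μ := by
        rw [sub_modByMonic, (modByMonic_eq_zero_iff_dvd hμ).2 (dvd_mul_right μ z), sub_zero]
      have hlt : (P - μ * z).degree < P.degree := by
        have h2 := div_wf_lemma ⟨hle, hP0⟩ hμ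
        rw [hz]
        exact h2
      have hbd : Bd (P - μ * z) r := by
        intro k
        rw [coeff_sub]
        refine norm_sub_le_of (hP k) ?_
        have h3 : μ * z = C P.leadingCoeff * (μ * X ^ (P.natDegree - μ.natDegree)) := by
          rw [hz]; ring
        rw [h3, coeff_C_mul, coeff_mul_X_pow']
        split_ifs
        · calc _ ≤ ‖P.leadingCoeff‖ * ‖μ.coeff (k - (P.natDegree - μ.natDegree))‖ :=
                norm_mul_le _ _
            _ ≤ r * 1 := mul_le_mul (hP _) (hb _) (norm_nonneg _) hr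
            _ = r := mul_one r
        · rw [mul_zero, norm_zero]
          exact hr
      rw [← h1]
      by_cases h0 : P - μ * z = 0
      · rw [h0, zero_modByMonic]
        intro n
        rw [coeff_zero, norm_zero]
        exact hr
      · refine ih _ ?_ hbd
        have := natDegree_lt_natDegree h0 hlt
        omega

end norm

section adjoin

variable {A : Type*} [NormedCommRing A]

/-- coordinates on `AdjoinRoot μ` -/
noncomputable def crd {μ : A[X]} (hμ : μ.Monic) : AdjoinRoot μ ≃ₗ[A] (Fin μ.natDegree → A) :=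
  (AdjoinRoot.powerBasisAux' hμ).equivFun

lemma crd_apply {μ : A[X]} (hμ : μ.Monic) (P : A[X]) (i : Fin μ.natDegree) :
    crd hμ (AdjoinRoot.mk μ P) i = (P %ₘ μ).coeff i := by
  rw [crd, Module.Basis.equivFun_apply, AdjoinRoot.powerBasisAux'_repr_apply_to_fun,
    AdjoinRoot.modByMonicHom_mk]

lemma mk_mod {μ : A[X]} (P : A[X]) :
    AdjoinRoot.mk μ (P %ₘ μ) = AdjoinRoot.mk μ P := by
  rw [AdjoinRoot.mk_eq_mk]
  refine ⟨-(P /ₘ μ), ?_⟩
  have h := modByMonic_add_div P μ
  linear_combination h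

variable [Nontrivial A]

lemma rep_bd {μ : A[X]} (hμ : μ.Monic) (R : A[X]) :
    Bd (R %ₘ μ) ‖crd hμ (AdjoinRoot.mk μ R)‖ := by
  intro k
  by_cases hk : k < μ.natDegree
  · have h1 := norm_le_pi_norm (crd hμ (AdjoinRoot.mk μ R)) ⟨k, hk⟩
    rw [crd_apply] at h1
    exact h1
  · have h2 : (R %ₘ μ).degree < μ.degree := degree_modByMonic_lt _ hμ
    rw [coeff_eq_zero_of_degree_lt, norm_zero]
    · exact norm_nonneg _
    · refine lt_of_lt_of_le h2 ?_
      rw [degree_eq_natDegree hμ.ne_zero]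
      exact_mod_cast not_lt.1 hk

variable [IsUltrametricDist A]

/-- the norm on `AdjoinRoot μ` -/
@[reducible] noncomputable def nrm {μ : A[X]} (hμ : μ.Monic) (hb : Bd μ 1) :
    NormedCommRing (AdjoinRoot μ) :=
  { NormedAddCommGroup.induced (AdjoinRoot μ) (Fin μ.natDegree → A) (crd hμ)
      (crd hμ).injective, (inferInstance : CommRing (AdjoinRoot μ)) with
    norm_mul_le := by
      intro a b
      obtain ⟨P, rfl⟩ := AdjoinRoot.mk_surjective a
      obtain ⟨Q, rfl⟩ := AdjoinRoot.mk_surjective b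
      show ‖crd hμ (AdjoinRoot.mk μ P * AdjoinRoot.mk μ Q)‖ ≤
        ‖crd hμ (AdjoinRoot.mk μ P)‖ * ‖crd hμ (AdjoinRoot.mk μ Q)‖
      have h3 : AdjoinRoot.mk μ P * AdjoinRoot.mk μ Q =
          AdjoinRoot.mk μ ((P %ₘ μ) * (Q %ₘ μ)) := by
        rw [map_mul, mk_mod, mk_mod]
      rw [h3, pi_norm_le_iff_of_nonneg (mul_nonneg (norm_nonneg _) (norm_nonneg _))]
      intro i
      rw [crd_apply]
      exact Bd.modByMonic hμ hb (mul_nonneg (norm_nonneg _) (norm_nonneg _)) _ _
        (Nat.lt_succ_self _) ((rep_bd hμ P).mul (norm_nonneg _) (norm_nonneg _) (rep_bd hμ Q)) i }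

/-- the extension of the evaluation at an integral element to a completed polynomial ring -/
theorem exists_eval [CompleteSpace A] {C : Type*} [CommRing C] (ι : C →+* A) {S : Type*}
    [NormedCommRing S] (i : C[X] →+* S) (hi : DenseRange i)
    (hn : ∀ (P : C[X]) (n : ℕ), ‖ι (P.coeff n)‖ ≤ ‖i P‖)
    {μ : A[X]} (hμ : μ.Monic) (hb : Bd μ 1) {B : Type*} [CommRing B] [Algebra A B] (θ : B)
    (hθ : aeval θ μ = 0) :
    ∃ φ : S →+* B, ∀ P : C[X], φ (i P) = aeval θ (P.map ι) := by
  let _ : NormedCommRing (AdjoinRoot μ) := nrm hμ hb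
  have hnorm : ∀ x : AdjoinRoot μ, ‖x‖ = ‖crd hμ x‖ := fun x => rfl
  have hcomp : CompleteSpace (AdjoinRoot μ) := by
    have hiso : Isometry (crd hμ) := by
      refine AddMonoidHomClass.isometry_of_norm (crd hμ) (fun x => (hnorm x).symm)
    have h1 : IsUniformInducing (crd hμ) := hiso.isUniformInducing
    rw [h1.completeSpace_congr (crd hμ).surjective]
    infer_instance
  -- the map on polynomials
  let f : C[X] →+* AdjoinRoot μ := (AdjoinRoot.mk μ).comp (mapRingHom ι)
  have hf : ∀ P, ‖f P‖ ≤ ‖i P‖ := by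
    intro P
    rw [hnorm, pi_norm_le_iff_of_nonneg (norm_nonneg _)]
    intro j
    have h1 : f P = AdjoinRoot.mk μ (P.map ι) := rfl
    rw [h1, crd_apply]
    refine Bd.modByMonic hμ hb (norm_nonneg _) _ _ (Nat.lt_succ_self _) (fun n => ?_) j
    rw [coeff_map]
    exact hn P n
  let _ : SeminormedCommRing C[X] := SeminormedCommRing.induced C[X] S i
  have hnP : ∀ P : C[X], ‖P‖ = ‖i P‖ := fun P => rfl
  have hui : IsUniformInducing i :=
    (AddMonoidHomClass.isometry_of_norm i (fun P => (hnP P).symm)).isUniformInducing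
  have huc : UniformContinuous f :=
    AddMonoidHomClass.uniformContinuous_of_bound f 1 (fun P => by rw [one_mul, hnP]; exact hf P)
  let ψ : S →+* AdjoinRoot μ := IsDenseInducing.extendRingHom hui hi huc
  have hψ : ∀ P, ψ (i P) = f P := fun P =>
    IsDenseInducing.extend_eq (hui.isDenseInducing hi) huc.continuous P
  have hθ' : eval₂ (algebraMap A B) θ μ = 0 := hθ
  refine ⟨(AdjoinRoot.lift (algebraMap A B) θ hθ').comp ψ, fun P => ?_⟩
  rw [RingHom.comp_apply, hψ]
  have h1 : f P = AdjoinRoot.mk μ (P.map ι) := rfl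
  rw [h1, AdjoinRoot.lift_mk]
  rfl

end adjoin

end P025H450
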