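import Vale.Agent.P025.R2.H450.Core

/-! # Restriction from `|T| ≤ ‖c‖` to a small disc `|t₁| > ‖c'‖` contained in it -/

open Polynomial TensorProduct

namespace P025H450

open P025H373 P025H628 P025H544 Vale.Agent.P019P

universe u v

variable {C : Type u} [NontriviallyNormedField C] [IsUltrametricDist C] [CompleteSpace C]
  [IsAlgClosed C]

/-- **Evaluation of elements of `F1` at an integral element**, shifted by an element of `A`. -/
theorem exists_int1' {A : Type*} [NormedCommRing A] [NormOneClass A] [IsUltrametricDist A]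
    [CompleteSpace A] (ι : C →+* A) (hι : ∀ c, ‖ι c‖ ≤ ‖c‖) {B : Type*} [CommRing B]
    (k : A →+* B) (b : B) (μ : A[X]) (hμ : μ.Monic) (hbd : ∀ n, ‖μ.coeff n‖ ≤ 1)
    (hroot : eval₂ k b μ = 0) (a : A) (ha : ‖a‖ ≤ 1)
    (hunit : ∀ P : C[X], P ≠ 0 → IsUnit (eval₂ (k.comp ι) (k a + b) P)) :
    ∃ ψ : F1 C →+* B, ∀ P : C[X],
      ψ (algebraMap (RatFunc C) (F1 C) (algebraMap C[X] (RatFunc C) P)) =
        eval₂ (k.comp ι) (k a + b) P := by
  have hnt : Nontrivial A := NormOneClass.nontrivial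
  have hbd' : Bd μ 1 := hbd
  let _ : NormedCommRing (AdjoinRoot μ) := nrm hμ hbd'
  have hcs : CompleteSpace (AdjoinRoot μ) := nrm_complete hμ hbd'
  have hul : IsUltrametricDist (AdjoinRoot μ) := nrm_ultra hμ hbd'
  have hb1 : ‖AdjoinRoot.of μ a + AdjoinRoot.root μ‖ ≤ 1 :=
    (IsUltrametricDist.norm_add_le_max _ _).trans
      (max_le ((nrm_of_le hμ hbd' a).trans ha) (nrm_root_le hμ hbd'))
  obtain ⟨φ, hφ⟩ := exists_ev1 ((AdjoinRoot.of μ).comp ι)
    (fun c => (nrm_of_le hμ hbd' (ι c)).trans (hι c)) hb1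
  let g : AdjoinRoot μ →+* B := AdjoinRoot.lift k b hroot
  have hg : ∀ P : C[X], (g.comp φ) (iA P) = eval₂ (k.comp ι) (k a + b) P := by
    intro P
    rw [RingHom.comp_apply, hφ, hom_eval₂, map_add, AdjoinRoot.lift_root, AdjoinRoot.lift_of]
    congr 1
    apply RingHom.ext
    intro c
    rw [RingHom.comp_apply, RingHom.comp_apply, AdjoinRoot.lift_of, RingHom.comp_apply]
  obtain ⟨ψ, hψ⟩ := exists_extend_F1 (g.comp φ) (fun P hP => by rw [hg]; exact hunit P hP)
  refine ⟨ψ, fun P => ?_⟩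
  rw [← jA_iA, hψ, hg]

/-- abstract form of the restriction from `|T| ≤ r` to a disc -/
theorem exists_res12 {L' B L : Type*} [Field L'] [Algebra C L'] [Algebra (RatFunc C) L']
    [IsScalarTower C (RatFunc C) L'] [Field L] [Algebra C L] [CommRing B] (c' : Cˣ)
    (k : A2 C →+* B) (r : L →+* B) (hkr : ∀ a : C, k (algebraMap C (A2 C) a) =
      r (algebraMap C L a)) (e : L' →ₐ[C] L)
    (htr : Transcendental C (algebraMap (RatFunc C) L' RatFunc.X))
    (μ : (A2 C)[X]) (hμ : μ.Monic) (hbd : ∀ n, ‖μ.coeff n‖ ≤ 1) (a : C) (ha : ‖a‖ ≤ 1)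
    (hroot : eval₂ k (r (algebraMap C L (c' : C)⁻¹ *
      e (algebraMap (RatFunc C) L' RatFunc.X) - algebraMap C L a)) μ = 0) :
    ∃ ψ : F1r C c' →+* B, ∀ f : RatFunc C, ψ (algebraMap (RatFunc C) (F1r C c') f) =
      r (e (algebraMap (RatFunc C) L' f)) := by
  have hcs : CompleteSpace (A2 C) := isClosed_A2.completeSpace_coe
  have hnc : NormOneClass (A2 C) := ⟨(norm_one : ‖(1 : F0 C)‖ = 1)⟩
  set θ : L := algebraMap C L (c' : C)⁻¹ * e (algebraMap (RatFunc C) L' RatFunc.X) with hθ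
  have hc' : (c' : C) ≠ 0 := c'.ne_zero
  have hev : ∀ P : C[X], eval₂ (k.comp (algebraMap C (A2 C))) (r θ) P = r (aeval θ P) := by
    intro P
    rw [aeval_def, hom_eval₂]
    congr 1
    exact RingHom.ext hkr
  have hθtr : Transcendental C θ := by
    intro h
    apply htr
    have h1 : IsAlgebraic C (e (algebraMap (RatFunc C) L' RatFunc.X)) := by
      have h2 : e (algebraMap (RatFunc C) L' RatFunc.X) = algebraMap C L (c' : C) * θ := by
        rw [hθ, ← mul_assoc, ← map_mul, mul_inv_cancel₀ hc', map_one, one_mul]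
      rw [h2]
      exact (isAlgebraic_algebraMap _).mul h
    exact (isAlgebraic_algHom_iff e e.toRingHom.injective).1 h1
  have hsum : k (algebraMap C (A2 C) a) + r (θ - algebraMap C L a) = r θ := by
    rw [hkr, ← map_add, add_sub_cancel]
  obtain ⟨ψ, hψ⟩ := exists_int1' (algebraMap C (A2 C)) (fun c => (norm_algebraMap_C c).le) k
    (r (θ - algebraMap C L a)) μ hμ hbd hroot (algebraMap C (A2 C) a)
    ((norm_algebraMap_C a).trans_le ha) (fun P hP => by
      rw [hsum, hev]
      apply IsUnit.map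
      rw [isUnit_iff_ne_zero]
      intro h0
      exact hθtr ⟨P, hP, h0⟩)
  simp only [hsum, hev] at hψ
  let ψ' : F1r C c' →+* B := ψ
  have hψ' : ∀ f : RatFunc C, ψ' (algebraMap (RatFunc C) (F1r C c') f) =
      ψ (algebraMap (RatFunc C) (F1 C) (scale (c' : C) c'.ne_zero f)) := fun f => rfl
  have hψC : ∀ a : C, ψ (algebraMap (RatFunc C) (F1 C) (RatFunc.C a)) = r (algebraMap C L a) := by
    intro a
    have h1 := hψ (Polynomial.C a)
    rw [RatFunc.algebraMap_C, aeval_C] at h1
    exact h1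
  have hcomp : ψ'.comp (algebraMap (RatFunc C) (F1r C c')) =
      (r.comp (e : L' →+* L)).comp (algebraMap (RatFunc C) L') := by
    apply ratFunc_hom_ext'
    · intro a
      rw [RingHom.comp_apply, hψ']
      have h1 : scale (c' : C) c'.ne_zero (RatFunc.C a) = RatFunc.C a :=
        (scale (c' : C) c'.ne_zero).commutes a
      rw [h1, hψC]
      have h2 : algebraMap (RatFunc C) L' (RatFunc.C a) = algebraMap C L' a :=
        (IsScalarTower.algebraMap_apply C (RatFunc C) L' a).symm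
      rw [RingHom.comp_apply, RingHom.comp_apply, h2]
      exact congrArg r (e.commutes a).symm
    · rw [RingHom.comp_apply, hψ', scale_X, map_mul, map_mul, hψC]
      have h1 := hψ X
      rw [RatFunc.algebraMap_X, aeval_X] at h1
      rw [h1, RingHom.comp_apply, RingHom.comp_apply, ← map_mul]
      congr 1
      rw [hθ, ← mul_assoc, ← map_mul, mul_inv_cancel₀ hc', map_one, one_mul]
      rfl
  exact ⟨ψ', fun f => RingHom.congr_fun hcomp f⟩

section psi

variable {K' K : Type v} [Field K'] [Field K] [Algebra C K'] [Algebra C K]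
  [Algebra (RatFunc C) K'] [Algebra (RatFunc C) K] [IsScalarTower C (RatFunc C) K']
  [IsScalarTower C (RatFunc C) K]

/-- `m` an element of `K` with positive order at the only pole `P` of `t₁`: for large radii it is
a root of a monic polynomial over `A2` with small lower coefficients. -/
theorem exists_small_root [CFF C K] (e : K' ≃ₐ[C] K) (P : Plk C K)
    (h0 : ∀ Q : Plk C K, ord Q (e (algebraMap (RatFunc C) K' RatFunc.X)) < 0 ↔ Q = P)
    (m : K) (hP : 0 < ord P m) :
    ∃ r : ℝ, ∀ c' : Cˣ, r ≤ ‖(c' : C)‖ → ∃ μ : (A2 C)[X], μ.Monic ∧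
      (∀ n < μ.natDegree, ‖μ.coeff n‖ < 1) ∧ eval₂ (kD c' K') (rD c' K' (e.symm m)) μ = 0 := by
  set y : K := e (algebraMap (RatFunc C) K' RatFunc.X) with hy
  have hyP : ord P y < 0 := (h0 P).2 rfl
  have hy0 : y ≠ 0 := by
    intro h
    rw [h, ord_zero] at hyP
    exact lt_irrefl _ hyP
  have hm0 : m ≠ 0 := by
    intro h
    rw [h, ord_zero] at hP
    exact lt_irrefl _ hP
  obtain ⟨n, hn⟩ : ∃ n : ℕ, (n : ℤ) = - ord P y := ⟨(- ord P y).toNat, by omega⟩
  have hnpos : 0 < n := by omega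
  have hw0 : 0 ≤ ord P (m ^ n * y) := by
    rw [ord_mul P (pow_ne_zero _ hm0) hy0, ord_pow]
    nlinarith
  let f : Oi C →+* K := (e : K' →+* K).comp ((algebraMap (RatFunc C) K').comp (Oi C).subtype)
  have hf : ∀ g : Oi C, f g = e (algebraMap (RatFunc C) K' g) := fun g => rfl
  have hCe : ∀ a : C, e (algebraMap (RatFunc C) K' (RatFunc.C a)) = algebraMap C K a := by
    intro a
    have h2 : algebraMap (RatFunc C) K' (RatFunc.C a) = algebraMap C K' a :=
      (IsScalarTower.algebraMap_apply C (RatFunc C) K' a).symm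
    rw [h2, AlgEquiv.commutes]
  obtain ⟨p, hp, hpw⟩ := integral_of_places (C := C) f
    (fun a => ⟨⟨RatFunc.C a, C_mem_Oi a⟩, by rw [hf]; exact hCe a⟩) (m ^ n * y) (fun Q hQ => by
      have h2 : ord Q y < 0 := by
        by_contra h3
        have h4 : y ∈ Q.1 := (mem_iff_ord Q y).2 (Or.inr (not_lt.1 h3))
        obtain ⟨a, ha'⟩ := exists_cst Q h4
        have h5 : y ≠ algebraMap C K a := by
          intro h6
          rw [h6, ord_const] at hyP
          exact lt_irrefl _ hyP
        have h6 := ha'.resolve_left h5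
        have h7 := hQ ⟨_, inv_sub_mem_Oi a⟩
        rw [hf] at h7
        have h8 : e (algebraMap (RatFunc C) K' ((RatFunc.X - RatFunc.C a)⁻¹)) =
            (y - algebraMap C K a)⁻¹ := by
          rw [map_inv₀, map_inv₀, map_sub, map_sub, hCe]
        have h9 : (y - algebraMap C K a)⁻¹ ∈ Q.1 := by
          rw [← h8]
          exact h7
        rcases (mem_iff_ord Q _).1 h9 with h10 | h10
        · rw [inv_eq_zero, sub_eq_zero] at h10
          exact h5 h10
        · rw [ord_inv] at h10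
          omega
      have h3 : Q = P := (h0 Q).1 h2
      rw [h3]
      exact (mem_iff_ord P _).2 (Or.inr hw0))
  have hpw' : eval₂ ((algebraMap (RatFunc C) K').comp (Oi C).subtype) (e.symm (m ^ n * y)) p =
      0 := by
    apply e.injective
    rw [map_zero, ← hpw]
    have h1 := hom_eval₂ p ((algebraMap (RatFunc C) K').comp (Oi C).subtype) (e : K' →+* K)
      (e.symm (m ^ n * y))
    have h2 : (e : K' →+* K) (e.symm (m ^ n * y)) = m ^ n * y := e.apply_symm_apply _
    rw [h2] at h1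
    exact h1
  have hw : (e.symm m) ^ n * algebraMap (RatFunc C) K' RatFunc.X = e.symm (m ^ n * y) := by
    rw [map_mul, map_pow, hy, e.symm_apply_apply]
  exact exists_coef2 hnpos (e.symm m) (e.symm (m ^ n * y)) hw p hp hpw'

/-- restriction from `|T| ≤ ‖c‖` to `|t₁| > ‖c'‖`, `t₁` with only pole `P`, `|T(P)| ≤ ‖c‖` -/
theorem exists_psiVD [CFF C K] (e : K' ≃ₐ[C] K) (P : Plk C K)
    (h0 : ∀ Q : Plk C K, ord Q (e (algebraMap (RatFunc C) K' RatFunc.X)) < 0 ↔ Q = P)
    (c : Cˣ) (a : C) (ha : ‖a‖ ≤ ‖(c : C)‖)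
    (hP : 0 < ord P (algebraMap (RatFunc C) K RatFunc.X - algebraMap C K a)) :
    ∃ r : ℝ, ∀ c' : Cˣ, r ≤ ‖(c' : C)‖ → ∃ ψ : F1r C c →+* F2r C c' ⊗[RatFunc C] K',
      ∀ f : RatFunc C, ψ (algebraMap (RatFunc C) (F1r C c) f) =
        1 ⊗ₜ e.symm (algebraMap (RatFunc C) K f) := by
  have hc0 : (c : C) ≠ 0 := c.ne_zero
  have htr : Transcendental C (algebraMap (RatFunc C) K RatFunc.X) := by
    intro h1
    apply RatFunc.transcendental_X (K := C)
    exact (isAlgebraic_algebraMap_iff (algebraMap (RatFunc C) K).injective).1 h1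
  set T : K := algebraMap (RatFunc C) K RatFunc.X with hT
  have hTa : T - algebraMap C K a ≠ 0 := by
    intro h
    rw [h, ord_zero] at hP
    exact lt_irrefl _ hP
  have hm : algebraMap C K (c : C)⁻¹ * T - algebraMap C K ((c : C)⁻¹ * a) =
      algebraMap C K (c : C)⁻¹ * (T - algebraMap C K a) := by
    rw [map_mul]
    ring
  have hmP : 0 < ord P (algebraMap C K (c : C)⁻¹ * T - algebraMap C K ((c : C)⁻¹ * a)) := by
    have h1 : algebraMap C K (c : C)⁻¹ ≠ 0 := by
      rw [_root_.map_ne_zero]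
      exact inv_ne_zero hc0
    rw [hm, ord_mul P h1 hTa, ord_const, zero_add]
    exact hP
  obtain ⟨r, hr⟩ := exists_small_root e P h0 _ hmP
  refine ⟨r, fun c' hc' => ?_⟩
  obtain ⟨μ, hμ, hbd, hroot⟩ := hr c' hc'
  have hem : e.symm (algebraMap C K (c : C)⁻¹ * T - algebraMap C K ((c : C)⁻¹ * a)) =
      algebraMap C K' (c : C)⁻¹ * (e.symm.toAlgHom (algebraMap (RatFunc C) K RatFunc.X)) -
        algebraMap C K' ((c : C)⁻¹ * a) := by
    rw [map_sub, map_mul, AlgEquiv.commutes, AlgEquiv.commutes]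
    rfl
  rw [hem] at hroot
  have hnc : NormOneClass (A2 C) := ⟨(norm_one : ‖(1 : F0 C)‖ = 1)⟩
  refine exists_res12 c (kD c' K') (rD c' K') (kD_C c') e.symm.toAlgHom htr μ hμ (fun n => ?_)
    ((c : C)⁻¹ * a) ?_ hroot
  · rcases lt_trichotomy n μ.natDegree with h | h | h
    · exact (hbd n h).le
    · rw [h, hμ.coeff_natDegree, norm_one]
    · rw [coeff_eq_zero_of_natDegree_lt h, norm_zero]
      exact zero_le_one
  · rw [norm_mul, norm_inv, inv_mul_le_one₀ (norm_pos_iff.2 hc0)]
    exact ha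

end psi

end P025H450
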